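import Vale.Agent.P025.R2.H440.M2Alg
import Vale.Agent.P025.H641.Arith
import Vale.Agent.P025.H641.ZMap
import Vale.Agent.P025.H641.ChiPad

/-! # Fixed vertices near the base field are impossible -/

open Polynomial Filter Topology

namespace P025H440

open P025H641

universe u v w

section limit

variable {p : ℕ} [Fact p.Prime] {k : Type u} [NontriviallyNormedField k] [ProperSpace k]

omit [Fact p.Prime] in
/-- a class function which looks like a point on finite sets looks like a point -/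
lemma point_or_const (ε : ℝ) (hε : 0 < ε)
    (near : ∀ x δ : k, x ≠ 0 → ‖δ‖ ≤ ‖x‖ * ε → x + δ ≠ 0 ∧ clsm p (x + δ) = clsm p x)
    (lam : k → Cl p k)
    (h : ∀ A₀ : Finset k, ∃ z, ∀ a ∈ A₀, z ≠ a ∧ lam a = clsm p (z - a)) :
    (∃ z, ∀ a, a ≠ z → lam a = clsm p (z - a)) ∨ ∀ a b, lam a = lam b := by
  classical
  choose z hz using h
  set U : Ultrafilter (Finset k) := Ultrafilter.of Filter.atTop with hU
  have hUle : (U : Filter (Finset k)) ≤ Filter.atTop := Ultrafilter.of_le _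
  have hmem : ∀ a : k, ∀ᶠ S in (U : Filter (Finset k)), a ∈ S := by
    intro a
    have h1 : ∀ᶠ S : Finset k in Filter.atTop, {a} ≤ S := Filter.eventually_ge_atTop _
    exact (h1.filter_mono hUle).mono (fun S hS => hS (Finset.mem_singleton_self a))
  by_cases hbd : ∃ R : ℝ, ∀ᶠ S in (U : Filter (Finset k)), ‖z S‖ ≤ R
  · left
    obtain ⟨R, hR⟩ := hbd
    have hcomp := isCompact_closedBall (0 : k) R
    obtain ⟨z0, -, hz0⟩ := hcomp.ultrafilter_le_nhds (U.map z) (by
      rw [Filter.le_principal_iff]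
      exact hR.mono (fun S hS => by simpa using hS))
    refine ⟨z0, ?_⟩
    intro a ha
    have hd : z0 - a ≠ 0 := sub_ne_zero.2 (Ne.symm ha)
    have hdn : 0 < ‖z0 - a‖ := norm_pos_iff.2 hd
    have h1 : ∀ᶠ y in 𝓝 z0, ‖y - z0‖ < ‖z0 - a‖ * ε := by
      have := Metric.ball_mem_nhds z0 (mul_pos hdn hε)
      filter_upwards [this] with y hy
      rwa [Metric.mem_ball, dist_eq_norm] at hy
    have h2 : ∀ᶠ S in (U : Filter (Finset k)), ‖z S - z0‖ < ‖z0 - a‖ * ε := hz0 h1
    obtain ⟨S, hS1, hS2⟩ := (h2.and (hmem a)).exists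
    have h3 := (hz S a hS2).2
    have h4 := (near (z0 - a) (z S - z0) hd hS1.le).2
    have e1 : z0 - a + (z S - z0) = z S - a := by ring
    rw [h3, ← h4, e1]
  · right
    push Not at hbd
    intro a b
    have h1 := hbd (max ‖a‖ ‖b‖ / ε)
    obtain ⟨S, hS1, hS2, hS3⟩ := (h1.and ((hmem a).and (hmem b))).exists
    have key : ∀ c : k, c ∈ S → ‖c‖ ≤ max ‖a‖ ‖b‖ → lam c = clsm p (z S) := by
      intro c hc hcn
      rw [(hz S c hc).2]
      have h2 : ‖-c‖ ≤ ‖z S‖ * ε := by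
        rw [norm_neg]
        rw [div_lt_iff₀ hε] at hS1
        exact hcn.trans hS1.le
      have h3 : z S ≠ 0 := by
        intro h0
        rw [h0, norm_zero] at hS1
        exact absurd hS1 (not_lt.2 (div_nonneg (le_max_of_le_left (norm_nonneg _)) hε.le))
      have h4 := (near (z S) (-c) h3 h2).2
      rw [← h4, sub_eq_add_neg]
    rw [key a hS2 (le_max_left _ _), key b hS3 (le_max_right _ _)]

/-- such a class function is not locally constant at all scales near points and near infinity -/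
lemma no_point (ε : ℝ) (hε : 0 < ε)
    (near : ∀ x δ : k, x ≠ 0 → ‖δ‖ ≤ ‖x‖ * ε → x + δ ≠ 0 ∧ clsm p (x + δ) = clsm p x)
    (hv : ∃ v : Cl p k, v ≠ 0) (lam : k → Cl p k)
    (h : ∀ A₀ : Finset k, ∃ z, ∀ a ∈ A₀, z ≠ a ∧ lam a = clsm p (z - a))
    (r : ℝ) (hloc : ∀ b : k, ∃ δ : ℝ, 0 < δ ∧ ∀ a : k, ‖a - b‖ < δ → lam a = lam b)
    (hinf : ∀ a : k, r < ‖a‖ → lam a = clsm p (-a)) : False := by
  obtain ⟨v, hv⟩ := hv
  rcases point_or_const ε hε near lam h with ⟨z, hz⟩ | hconst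
  · obtain ⟨δ, hδ, hloc⟩ := hloc z
    obtain ⟨x, hx0, hx, hxv⟩ := clsm_small v δ hδ
    obtain ⟨y, hy0, hy, hyv⟩ := clsm_small (p := p) (0 : Cl p k) δ hδ
    have h1 := hz (z - x) (by rw [Ne, sub_eq_self]; exact hx0)
    have h2 := hz (z - y) (by rw [Ne, sub_eq_self]; exact hy0)
    rw [sub_sub_cancel] at h1 h2
    -- compare with `z`
    have h3 : lam (z - x) = lam z := hloc _ (by rw [sub_sub_cancel_left, norm_neg]; exact hx)
    have h4 : lam (z - y) = lam z := hloc _ (by rw [sub_sub_cancel_left, norm_neg]; exact hy)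
    apply hv
    rw [← hxv, ← h1, h3, ← h4, h2, hyv]
  · have key : ∀ w : Cl p k, ∃ a : k, lam a = w := by
      intro w
      obtain ⟨x, hx0, hx, hxw⟩ := clsm_small (-(w - clsm p (-1))) (1 / (max r 0 + 1))
        (by positivity)
      refine ⟨x⁻¹, ?_⟩
      have hxn : 0 < ‖x‖ := norm_pos_iff.2 hx0
      rw [hinf]
      · have h1 : -x⁻¹ = (-1) / x := by rw [neg_div, one_div]
        rw [h1, clsm_div _ _ (neg_ne_zero.2 one_ne_zero) hx0, hxw]
        abel
      · have h2 : 0 < max r 0 + 1 := by positivity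
        rw [norm_inv]
        have h3 : max r 0 + 1 < ‖x‖⁻¹ := by
          rw [lt_inv_comm₀ h2 hxn, ← one_div]
          exact hx
        have h4 : r ≤ max r 0 := le_max_left _ _
        linarith
    obtain ⟨a, ha⟩ := key v
    obtain ⟨b, hb⟩ := key 0
    exact hv (by rw [← ha, ← hb, hconst a b])

end limit

section main

variable {p : ℕ} [Fact p.Prime] {k : Type u} [Field k] {Kb : Type v} {Om : Type w} [Field Kb]
  [Algebra k Kb] [Field Om] [Algebra Kb Om]

namespace UnitAct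

variable (D : UnitAct p k Kb Om)

/-- units fixed by the whole group -/
lemma exists_cls_top [IsGalois k Kb] {ζ : k} (hζ : IsPrimitiveRoot ζ p) (x : Om) (hx : x ≠ 0)
    (hxR : x ∈ D.R) (hxR' : x⁻¹ ∈ D.R) (hfix : ∀ σ, D.rho σ x = x) :
    ∃ (c : k) (y : Om), c ≠ 0 ∧ y ≠ 0 ∧ (∀ σ, D.rho σ y = y) ∧
      x = algebraMap Kb Om (algebraMap k Kb c) * y ^ p := by
  have hpp : p.Prime := Fact.out
  obtain ⟨l, y, hl, hy, h1, h2, h3⟩ := D.exists_cls hζ ⊤ isClosed_univ x hx hxR hxR'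
    (fun σ _ => hfix σ)
  obtain ⟨c, hc⟩ := (InfiniteGalois.mem_range_algebraMap_iff_fixed (l ^ p)).2
    (fun σ => h1 σ trivial)
  refine ⟨c, y, ?_, hy, fun σ => h2 σ trivial, by rw [h3, hc]⟩
  rintro rfl
  rw [map_zero] at hc
  exact pow_ne_zero p hl hc.symm

/-- classes are well defined -/
lemma cls_congr [IsGalois k Kb] [IsAlgClosed Kb] {ζ : k} (hζ : IsPrimitiveRoot ζ p) (c d : k)
    (y z : Om) (hc : c ≠ 0) (hd : d ≠ 0) (hy : y ≠ 0) (hyf : ∀ σ, D.rho σ y = y)
    (hzf : ∀ σ, D.rho σ z = z)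
    (h : algebraMap Kb Om (algebraMap k Kb c) * y ^ p =
      algebraMap Kb Om (algebraMap k Kb d) * z ^ p) : clsm p c = clsm p d := by
  have hpp : p.Prime := Fact.out
  have hd' : algebraMap Kb Om (algebraMap k Kb d) ≠ 0 :=
    (_root_.map_ne_zero _).2 ((_root_.map_ne_zero _).2 hd)
  obtain ⟨e0, -, he0⟩ := D.const_of_pow hζ (z / y) (c / d)
    (fun σ => by rw [map_div₀, hyf, hzf]) (by
      rw [div_pow, map_div₀, map_div₀, div_eq_div_iff (pow_ne_zero _ hy) hd', h]
      ring)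
  have h1 : clsm p (c / d) = 0 := (clsm_eq_zero hpp.ne_zero _ (div_ne_zero hc hd)).2 ⟨e0, he0⟩
  rw [clsm_div _ _ hc hd] at h1
  exact sub_eq_zero.1 h1

/-- **Fixed vertices near the base field are impossible.** -/
theorem false_of_fixed [Algebra ℚ_[p] k] [FiniteDimensional ℚ_[p] k] [IsGalois k Kb]
    [IsAlgClosed Kb] {ζ : k} (hζ : IsPrimitiveRoot ζ p) (t : Om) (htfix : ∀ σ, D.rho σ t = t)
    (htne : ∀ a : k, t ≠ algebraMap Kb Om (algebraMap k Kb a)) (htR : t ∈ D.R)
    (hunit : ∀ a : k, (t - algebraMap Kb Om (algebraMap k Kb a))⁻¹ ∈ D.R) (r : ℝ)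
    (hloc : ∀ b : k, ∃ δ : ℝ, 0 < δ ∧ ∀ a : k, spectralNorm ℚ_[p] k (a - b) < δ →
      ∃ u, (∀ σ, D.rho σ u = u) ∧ t - algebraMap Kb Om (algebraMap k Kb a) =
        (t - algebraMap Kb Om (algebraMap k Kb b)) * u ^ p)
    (hinf : ∀ a : k, r < spectralNorm ℚ_[p] k a → ∃ u, (∀ σ, D.rho σ u = u) ∧
      t - algebraMap Kb Om (algebraMap k Kb a) =
        -algebraMap Kb Om (algebraMap k Kb a) * u ^ p) : False := by
  classical
  have hpp : p.Prime := Fact.out
  let inst1 : NontriviallyNormedField k := spectralNorm.nontriviallyNormedField ℚ_[p] k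
  have hu : IsUltrametricDist k :=
    IsUltrametricDist.isUltrametricDist_of_isNonarchimedean_norm isNonarchimedean_spectralNorm
  have hn : ∀ x : ℚ_[p], ‖algebraMap ℚ_[p] k x‖ = ‖x‖ := fun x => spectralNorm_extends x
  have hproper : ProperSpace k := by
    let _ : NormedAlgebra ℚ_[p] k := spectralNorm.normedAlgebra ℚ_[p] k
    exact FiniteDimensional.proper ℚ_[p] k
  have hpR : (1 : ℝ) < p := by exact_mod_cast hpp.one_lt
  have hpR0 : (0 : ℝ) < p := by linarith
  have hpk := norm_natCast_p (k := k) hn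
  have hpk1 : ‖(p : k)‖ < 1 := by
    rw [hpk]
    exact inv_lt_one_of_one_lt₀ hpR
  have hpk0 : (p : k) ≠ 0 := by
    rw [← norm_pos_iff, hpk, inv_pos]
    exact hpR0
  have : CharZero k := charZero_of_injective_algebraMap (algebraMap ℚ_[p] k).injective
  obtain ⟨R⟩ := exists_ram hpk1 hpk0 hζ
  obtain ⟨H0, -, h0, -⟩ := R.exists_H hζ
  have hv : ∃ v : Cl p k, v ≠ 0 := by
    by_contra hcon
    push Not at hcon
    exact h0 (by rw [hcon (clsm p (unif k)), map_zero])
  -- the classes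
  have hex : ∀ a : k, ∃ (c : k) (y : Om), c ≠ 0 ∧ y ≠ 0 ∧ (∀ σ, D.rho σ y = y) ∧
      t - algebraMap Kb Om (algebraMap k Kb a) = algebraMap Kb Om (algebraMap k Kb c) * y ^ p := by
    intro a
    refine D.exists_cls_top hζ _ (sub_ne_zero.2 (htne a)) (D.R.sub_mem htR (D.R_const _))
      (hunit a) (fun σ => ?_)
    rw [map_sub, htfix, D.const, AlgEquiv.commutes]
  choose x y hx0 hy0 hyf hxy using hex
  obtain ⟨H, hH, hrig⟩ := rigid_padic hζ
  have hpat : ∀ A₀ : Finset k, ∃ z, ∀ a ∈ A₀, z ≠ a ∧ clsm p (x a) = clsm p (z - a) := by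
    intro A₀
    obtain ⟨r', A, hA⟩ := exists_fine (p := p) A₀
    refine hrig r' A₀ Set.univ (fun _ _ => trivial) hA.bound hA.sep (fun x hx => ?_)
      (fun a => clsm p (x a)) ?_
    · refine ⟨x, trivial, ?_⟩
      rw [sub_self]
      have h1 : spectralNorm ℚ_[p] k 0 = 0 := spectralNorm_zero
      rw [h1]
      exact inv_nonneg.2 (pow_nonneg hpR0.le _)
    intro a _ b _ c _ hba hca hcls
    have hba' : b - a ≠ 0 := sub_ne_zero.2 hba
    have hca' : c - a ≠ 0 := sub_ne_zero.2 hca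
    have h4 : clsm p (x a) - clsm p (c - a) = - clsm p ((c - a) / (b - a)) := by
      rw [clsm_div _ _ hca' hba', ← hcls]
      abel
    have h5 : clsm p (x c) - clsm p (x a) = clsm p (x c / (b - a)) := by
      rw [clsm_div _ _ (hx0 c) hba', ← hcls]
    rw [h4, h5, map_neg, LinearMap.neg_apply, neg_eq_zero]
    -- the function `y`
    obtain ⟨e, he⟩ : ∃ e : k, x a / (b - a) = e ^ p := by
      have h2 : clsm p (x a / (b - a)) = 0 := by
        rw [clsm_div _ _ (hx0 a) hba', hcls, sub_self]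
      exact (clsm_eq_zero hpp.ne_zero _ (div_ne_zero (hx0 a) hba')).1 h2
    have hxe : x a = (b - a) * e ^ p := by rw [← he, mul_div_cancel₀ _ hba']
    set κ : k →+* Om := (algebraMap Kb Om).comp (algebraMap k Kb) with hκ
    have hκf : ∀ (c : k) (σ : Gal(Kb/k)), D.rho σ (κ c) = κ c := by
      intro c σ
      rw [hκ, RingHom.comp_apply, D.const, AlgEquiv.commutes]
    have hκR : ∀ c : k, κ c ∈ D.R := fun c => D.R_const _
    have hxy' : ∀ a, t - κ a = κ (x a) * y a ^ p := hxy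
    have hba'' : κ (b - a) ≠ 0 := (_root_.map_ne_zero _).2 hba'
    set y1 := κ e * y a with hy1
    have hy1p : y1 ^ p = (t - κ a) / κ (b - a) := by
      rw [hxy', hxe, hy1, map_mul, map_pow, mul_pow]
      field_simp
    set γ := (c - a) / (b - a) with hγ
    have hyγ : y1 ^ p - κ γ = (t - κ c) / κ (b - a) := by
      rw [hy1p, hγ, map_div₀, ← sub_div, map_sub, map_sub]
      congr 1
      ring
    have h1 := D.norm_rel hζ γ (x c / (b - a)) (div_ne_zero hca' hba') y1 (y c)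
      (by
        show y1 ^ p ∈ D.R
        rw [hy1p, div_eq_mul_inv, ← map_inv₀]
        exact D.R.mul_mem (D.R.sub_mem htR (hκR _)) (hκR _))
      (fun σ => by rw [hy1, map_mul, hκf, hyf]) (hy0 c) (hyf c)
      (by
        show y1 ^ p - κ γ = κ (x c / (b - a)) * y c ^ p
        rw [hyγ, hxy', map_div₀]
        ring)
      (by
        show (y1 ^ p - κ γ)⁻¹ ∈ D.R
        rw [hyγ, inv_div, div_eq_mul_inv]
        exact D.R.mul_mem (hκR _) (hunit c))
      (by
        show y1 ^ p - κ γ ≠ 0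
        rw [hyγ]
        exact div_ne_zero (sub_ne_zero.2 (htne c)) hba'')
    rcases h1 with ⟨θ0, hθ0⟩ | ⟨f, hf⟩
    · have h6 : clsm p γ = 0 :=
        (clsm_eq_zero hpp.ne_zero _ (div_ne_zero hca' hba')).2 ⟨θ0, hθ0⟩
      rw [h6, map_zero]
      rfl
    · exact hH _ _ f (div_ne_zero hca' hba') (div_ne_zero (hx0 c) hba') hf
  refine no_point ((p : ℝ) ^ 3)⁻¹ (inv_pos.2 (pow_pos hpR0 3))
    (fun x δ hx hδ => R.clsm_near hn x δ hx hδ) hv (fun a => clsm p (x a)) hpat r ?_ ?_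
  · intro b
    obtain ⟨δ, hδ, hloc⟩ := hloc b
    refine ⟨δ, hδ, fun a hab => ?_⟩
    obtain ⟨u, hu, h⟩ := hloc a hab
    refine D.cls_congr hζ (x a) (x b) (y a) (y b * u) (hx0 a) (hx0 b) (hy0 a) (hyf a)
      (fun σ => by rw [map_mul, hyf, hu]) ?_
    rw [← hxy, h, hxy b]
    ring
  · intro a ha
    obtain ⟨u, hu, h⟩ := hinf a ha
    by_cases ha0 : a = 0
    · subst ha0
      rw [map_zero, map_zero, neg_zero, zero_mul, sub_zero] at h
      exact absurd h (by simpa using htne 0)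
    refine D.cls_congr hζ (x a) (-a) (y a) u (hx0 a) (neg_ne_zero.2 ha0) (hy0 a) (hyf a) hu ?_
    rw [← hxy, h, map_neg, map_neg]

end UnitAct

end main

end P025H440
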