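import Vale.Agent.P025.R2.H440.M2
import Vale.Agent.P025.R2.H855.Defs

/-! # Partial characters from a fixed vertex -/

open Polynomial

namespace P025H440

open P025H641 P025H855

universe u v w z

variable {p : ℕ} [Fact p.Prime] {k : Type u} [Field k] {Kb : Type v} {Om : Type w} [Field Kb]
  [Algebra k Kb] [Field Om] [Algebra Kb Om]

namespace UnitAct

variable (D : UnitAct p k Kb Om)

/-- fixed units -/
structure Good (f : Om) : Prop where
  ne : f ≠ 0
  mem : f ∈ D.R
  inv_mem : f⁻¹ ∈ D.R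
  fix : ∀ σ, D.rho σ f = f

variable {D} in
omit [Fact p.Prime] in
lemma Good.mul {f g : Om} (hf : D.Good f) (hg : D.Good g) : D.Good (f * g) where
  ne := mul_ne_zero hf.ne hg.ne
  mem := D.R.mul_mem hf.mem hg.mem
  inv_mem := by rw [mul_inv]; exact D.R.mul_mem hf.inv_mem hg.inv_mem
  fix σ := by rw [map_mul, hf.fix, hg.fix]

omit [Fact p.Prime] in
lemma good_const (c : k) (hc : c ≠ 0) : D.Good (algebraMap Kb Om (algebraMap k Kb c)) where
  ne := (_root_.map_ne_zero _).2 ((_root_.map_ne_zero _).2 hc)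
  mem := D.R_const _
  inv_mem := by rw [← map_inv₀, ← map_inv₀]; exact D.R_const _
  fix σ := by rw [D.const, AlgEquiv.commutes]

/-- `f` has the class of `c` -/
def HasC (f : Om) (c : k) : Prop :=
  c ≠ 0 ∧ ∃ y : Om, y ≠ 0 ∧ (∀ σ, D.rho σ y = y) ∧
    f = algebraMap Kb Om (algebraMap k Kb c) * y ^ p

open Classical in
/-- the class of a fixed unit -/
noncomputable def chiU (f : Om) : Cl p k := if h : ∃ c : k, D.HasC f c then clsm p h.choose else 0

lemma chiU_eq [IsGalois k Kb] [IsAlgClosed Kb] {ζ : k} (hζ : IsPrimitiveRoot ζ p) {f : Om} {c : k}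
    (h : D.HasC f c) : D.chiU f = clsm p c := by
  have hex : ∃ c : k, D.HasC f c := ⟨c, h⟩
  rw [chiU, dif_pos hex]
  obtain ⟨hc', y', hy', hyf', he'⟩ := hex.choose_spec
  obtain ⟨hc, y, hy, hyf, he⟩ := h
  exact D.cls_congr hζ _ _ _ _ hc' hc hy' hyf' hyf (he'.symm.trans he)

lemma Good.hasC [IsGalois k Kb] {ζ : k} (hζ : IsPrimitiveRoot ζ p) {D : UnitAct p k Kb Om}
    {f : Om} (hf : D.Good f) : ∃ c : k, D.HasC f c := by
  obtain ⟨c, y, hc, hy, hyf, he⟩ := D.exists_cls_top hζ f hf.ne hf.mem hf.inv_mem hf.fix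
  exact ⟨c, hc, y, hy, hyf, he⟩

/-- the pattern of the differences with constants -/
theorem pattern [Algebra ℚ_[p] k] [FiniteDimensional ℚ_[p] k] [IsGalois k Kb] [IsAlgClosed Kb]
    {ζ : k} (hζ : IsPrimitiveRoot ζ p) (t : Om) {r : ℕ} {A₀ A : Finset k}
    (hA : IsFine p r A₀ A)
    (hgood : ∀ a ∈ A, D.Good (t - algebraMap Kb Om (algebraMap k Kb a))) :
    ∃ z, ∀ a ∈ A₀, z ≠ a ∧ D.chiU (t - algebraMap Kb Om (algebraMap k Kb a)) = clsm p (z - a) := by
  classical
  have hpp : p.Prime := Fact.out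
  have hex : ∀ a ∈ A, ∃ c : k, D.HasC (t - algebraMap Kb Om (algebraMap k Kb a)) c :=
    fun a ha => (hgood a ha).hasC hζ
  choose! x hx using hex
  have hx0 : ∀ a ∈ A, x a ≠ 0 := fun a ha => (hx a ha).1
  have hex2 : ∀ a ∈ A, ∃ y : Om, y ≠ 0 ∧ (∀ σ, D.rho σ y = y) ∧
    t - algebraMap Kb Om (algebraMap k Kb a) = algebraMap Kb Om (algebraMap k Kb (x a)) * y ^ p :=
    fun a ha => (hx a ha).2
  choose! y hy0 hyf hxy using hex2
  obtain ⟨H, hH, hrig⟩ := rigid_padic hζ
  obtain ⟨z, hz⟩ := hrig r A₀ (A : Set k) (fun a ha => hA.subset ha) hA.bound hA.sep hA.dense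
    (fun a => clsm p (x a)) (by
      intro a ha b hb c hc hba hca hcls
      have ha : a ∈ A := ha
      have hb : b ∈ A := hb
      have hc : c ∈ A := hc
      have hba' : b - a ≠ 0 := sub_ne_zero.2 hba
      have hca' : c - a ≠ 0 := sub_ne_zero.2 hca
      have h4 : clsm p (x a) - clsm p (c - a) = - clsm p ((c - a) / (b - a)) := by
        rw [clsm_div _ _ hca' hba', ← hcls]
        abel
      have h5 : clsm p (x c) - clsm p (x a) = clsm p (x c / (b - a)) := by
        rw [clsm_div _ _ (hx0 c hc) hba', ← hcls]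
      rw [h4, h5, map_neg, LinearMap.neg_apply, neg_eq_zero]
      obtain ⟨e, he⟩ : ∃ e : k, x a / (b - a) = e ^ p := by
        have h2 : clsm p (x a / (b - a)) = 0 := by
          rw [clsm_div _ _ (hx0 a ha) hba', hcls, sub_self]
        exact (clsm_eq_zero hpp.ne_zero _ (div_ne_zero (hx0 a ha) hba')).1 h2
      have hxe : x a = (b - a) * e ^ p := by rw [← he, mul_div_cancel₀ _ hba']
      set κ : k →+* Om := (algebraMap Kb Om).comp (algebraMap k Kb) with hκ
      have hκf : ∀ (c : k) (σ : Gal(Kb/k)), D.rho σ (κ c) = κ c := by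
        intro c σ
        rw [hκ, RingHom.comp_apply, D.const, AlgEquiv.commutes]
      have hκR : ∀ c : k, κ c ∈ D.R := fun c => D.R_const _
      have hxy' : ∀ a ∈ A, t - κ a = κ (x a) * y a ^ p := hxy
      have hgood' : ∀ a ∈ A, D.Good (t - κ a) := hgood
      have hba'' : κ (b - a) ≠ 0 := (_root_.map_ne_zero _).2 hba'
      set y1 := κ e * y a with hy1
      have hy1p : y1 ^ p = (t - κ a) / κ (b - a) := by
        rw [hxy' a ha, hxe, hy1, map_mul, map_pow, mul_pow]
        field_simp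
      set γ := (c - a) / (b - a) with hγ
      have hyγ : y1 ^ p - κ γ = (t - κ c) / κ (b - a) := by
        rw [hy1p, hγ, map_div₀, ← sub_div, map_sub, map_sub]
        congr 1
        ring
      have h1 := D.norm_rel hζ γ (x c / (b - a)) (div_ne_zero hca' hba') y1 (y c)
        (by
          show y1 ^ p ∈ D.R
          rw [hy1p, div_eq_mul_inv, ← map_inv₀]
          exact D.R.mul_mem (hgood' a ha).mem (hκR _))
        (fun σ => by rw [hy1, map_mul, hκf, hyf a ha]) (hy0 c hc) (hyf c hc)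
        (by
          show y1 ^ p - κ γ = κ (x c / (b - a)) * y c ^ p
          rw [hyγ, hxy' c hc, map_div₀]
          ring)
        (by
          show (y1 ^ p - κ γ)⁻¹ ∈ D.R
          rw [hyγ, inv_div, div_eq_mul_inv]
          exact D.R.mul_mem (hκR _) (hgood' c hc).inv_mem)
        (by
          show y1 ^ p - κ γ ≠ 0
          rw [hyγ]
          exact div_ne_zero (hgood' c hc).ne hba'')
      rcases h1 with ⟨θ0, hθ0⟩ | ⟨f, hf⟩
      · have h6 : clsm p γ = 0 :=
          (clsm_eq_zero hpp.ne_zero _ (div_ne_zero hca' hba')).2 ⟨θ0, hθ0⟩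
        rw [h6, map_zero]
        rfl
      · exact hH _ _ f (div_ne_zero hca' hba') (div_ne_zero (hx0 c hc) hba') hf)
  refine ⟨z, fun a ha => ⟨(hz a ha).1, ?_⟩⟩
  rw [← (hz a ha).2]
  exact D.chiU_eq hζ (hx a (hA.subset ha))

/-- **Partial characters from a fixed vertex.** -/
theorem partChar [Algebra ℚ_[p] k] [FiniteDimensional ℚ_[p] k] [IsGalois k Kb] [IsAlgClosed Kb]
    {ζ : k} (hζ : IsPrimitiveRoot ζ p) {M : Type z} [Field M] [Algebra k M] (j : M →+* Om)
    (hj : ∀ c : k, j (algebraMap k M c) = algebraMap Kb Om (algebraMap k Kb c)) (S : Finset M)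
    (hS : ∀ f ∈ S, f ≠ 0 → D.Good (j f)) : PartChar p k S (fun f => D.chiU (j f)) where
  mul f hf g hg hf0 hg0 := by
    obtain ⟨c, hc, y, hy, hyf, he⟩ := (hS f hf hf0).hasC hζ
    obtain ⟨d, hd, z, hz, hzf, he'⟩ := (hS g hg hg0).hasC hζ
    have h1 : D.HasC (j (f * g)) (c * d) := by
      refine ⟨mul_ne_zero hc hd, y * z, mul_ne_zero hy hz, fun σ => by rw [map_mul, hyf, hzf], ?_⟩
      rw [map_mul, he, he', map_mul, map_mul, mul_pow]
      ring
    show D.chiU (j (f * g)) = D.chiU (j f) + D.chiU (j g)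
    rw [D.chiU_eq hζ h1, D.chiU_eq hζ ⟨hc, y, hy, hyf, he⟩, D.chiU_eq hζ ⟨hd, z, hz, hzf, he'⟩,
      clsm_mul _ _ hc hd]
  const c hc := by
    refine D.chiU_eq hζ ⟨hc, 1, one_ne_zero, fun σ => map_one _, ?_⟩
    rw [hj, one_pow, mul_one]
  pat f hf r A₀ A hA hfS := by
    have h1 : ∀ a, j (f - algebraMap k M a) = j f - algebraMap Kb Om (algebraMap k Kb a) := by
      intro a
      rw [map_sub, hj]
    obtain ⟨z, hz⟩ := D.pattern hζ (j f) hA (by
      intro a ha
      rw [← h1]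
      refine hS _ (hfS a ha) ?_
      intro h0
      exact hf ⟨a, (sub_eq_zero.1 h0).symm⟩)
    refine ⟨z, fun a ha => ⟨(hz a ha).1, ?_⟩⟩
    show D.chiU (j (f - algebraMap k M a)) = _
    rw [h1]
    exact (hz a ha).2

end UnitAct

end P025H440
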