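import Vale.Agent.P025.R2.H440.ZoomVal

/-! # The zoom map near its pole -/

open Polynomial

namespace P025H440

section general

variable {F : Type*} [Field F] {Γ : Type*} [LinearOrderedCommGroupWithZero Γ]
  (v : Valuation F Γ)

lemma val_eq_one_of_sub {w : F} (hw : v (w - 1) < 1) : v w = 1 := by
  have h : w = (w - 1) + 1 := by ring
  rw [h, Valuation.map_add_eq_of_lt_right, map_one]
  rwa [map_one]

lemma val_pow_sub_one_lt {w : F} (hw : v (w - 1) < 1) (i : ℕ) : v (w ^ i - 1) < 1 := by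
  induction i with
  | zero => simp
  | succ i ih =>
    have h : w ^ (i + 1) - 1 = w * (w ^ i - 1) + (w - 1) := by ring
    rw [h]
    refine lt_of_le_of_lt (v.map_add _ _) (max_lt ?_ hw)
    rw [map_mul, val_eq_one_of_sub v hw, one_mul]
    exact ih

lemma val_pow_sub_one {w : F} (hw : v (w - 1) < 1) {m : ℕ} (hm : v (m : F) = 1) :
    v (w ^ m - 1) = v (w - 1) := by
  have h1 : v (∑ i ∈ Finset.range m, w ^ i) = 1 := by
    have h2 : ∑ i ∈ Finset.range m, w ^ i = ∑ i ∈ Finset.range m, (w ^ i - 1) + (m : F) := by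
      rw [Finset.sum_sub_distrib]; simp
    rw [h2, Valuation.map_add_eq_of_lt_right, hm]
    rw [hm]
    exact v.map_sum_lt' zero_lt_one (fun i _ => val_pow_sub_one_lt v hw i)
  rw [← geom_sum_mul, map_mul, h1, one_mul]

/-- differences of powers of nearby elements -/
lemma val_pow_sub_pow {y y' : F} (hy' : y' ≠ 0) (h : v (y - y') < v y') {m : ℕ}
    (hm : v ((m + 1 : ℕ) : F) = 1) : v (y ^ (m + 1) - y' ^ (m + 1)) = v (y - y') * v y' ^ m := by
  have hpos : 0 < v y' := zero_lt_iff.2 ((_root_.map_ne_zero _).2 hy')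
  have h1 : v (y / y' - 1) < 1 := by
    have h2 : y / y' - 1 = (y - y') / y' := by field_simp
    rw [h2, map_div₀]
    exact (div_lt_one₀ hpos).2 h
  have h3 : y ^ (m + 1) - y' ^ (m + 1) = y' ^ (m + 1) * ((y / y') ^ (m + 1) - 1) := by
    rw [div_pow, mul_sub, mul_one, mul_div_cancel₀ _ (pow_ne_zero _ hy')]
  have h4 : v (y / y' - 1) * v y' = v (y - y') := by
    rw [← map_mul]
    congr 1
    field_simp
  rw [h3, map_mul, val_pow_sub_one v h1 hm, map_pow, pow_succ, ← h4]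
  rw [mul_assoc, mul_comm, mul_comm (v y') (v (y / y' - 1))]

end general

section small

variable {F : Type*} [Field F] {Γ : Type*} [LinearOrderedCommGroupWithZero Γ]
  {v : Valuation F Γ} {p : ℕ} [CharZero F]

/-- small coefficients -/
lemma IsPad.zc_lt (hv : IsPad v p) {n j : ℕ} (hj : j < n) {x : Γ} (hx : x ≤ v (p : F) ^ n) :
    v (zc n (j + 1) : F) * x ^ 2 < 1 := by
  have hp0 : 0 < v (p : F) := zero_lt_iff.2 hv.ne
  calc v (zc n (j + 1) : F) * x ^ 2 ≤ v (zc n (j + 1) : F) * (v (p : F) ^ n) ^ 2 := by gcongr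
    _ = (v (zc n (j + 1) : F) * v (p : F) ^ (2 * j)) * v (p : F) ^ (2 * n - 2 * j) := by
        rw [← pow_mul, mul_assoc, ← pow_add]
        congr 2
        omega
    _ ≤ 1 * v (p : F) ^ (2 * n - 2 * j) := mul_le_mul' (hv.zc_le n j) le_rfl
    _ < 1 := by
        rw [one_mul]
        exact pow_lt_one₀ zero_le hv.lt (by omega)

/-- the numerator is a unit near the pole -/
lemma IsPad.val_num (hv : IsPad v p) {n : ℕ} (hn : 1 ≤ n) (hpn : ¬ p ∣ 2 * n - 1) {y : F}
    (hy : v y ≤ v (p : F) ^ n) : v (((zA n).map (algebraMap ℚ F)).eval y) = 1 := by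
  obtain ⟨i, rfl⟩ : ∃ i, n = i + 1 := ⟨n - 1, by omega⟩
  have hy1 : v y < 1 := lt_of_le_of_lt hy (pow_lt_one₀ zero_le hv.lt (by omega))
  rw [zA_map_eval, Finset.sum_range_succ]
  have h1 : v ((zc (i + 1) (i + 1) : F) * y ^ (2 * (i + 1) - 2 * (i + 1))) = 1 := by
    rw [Nat.sub_self, pow_zero, mul_one]
    have h2 : (zc (i + 1) (i + 1) : F) = (-1) ^ (i + 1) / ((2 * (i + 1) - 1 : ℕ) : F) := by
      rw [zc, Nat.choose_self, Nat.cast_sub (by omega)]
      push_cast
      ring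
    rw [h2, map_div₀, hv.unit _ hpn, map_pow, Valuation.map_neg, map_one, one_pow, div_one]
  have h3 : v (y ^ (2 * (i + 1)) - ∑ j ∈ Finset.range i,
      (zc (i + 1) (j + 1) : F) * y ^ (2 * (i + 1) - 2 * (j + 1))) < 1 := by
    refine lt_of_le_of_lt (v.map_sub _ _) (max_lt ?_ ?_)
    · rw [map_pow]
      exact pow_lt_one₀ zero_le hy1 (by omega)
    · apply v.map_sum_lt' zero_lt_one
      intro j hj
      have hj' : j < i := Finset.mem_range.1 hj
      rw [map_mul, map_pow]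
      refine lt_of_le_of_lt ?_ (hv.zc_lt (show j < i + 1 by omega) hy)
      exact mul_le_mul' le_rfl (pow_le_pow_of_le_one zero_le hy1.le (by omega))
  rw [← sub_sub, Valuation.map_sub_eq_of_lt_right, h1]
  rw [h1]
  exact h3

lemma IsPad.val_Ψ_small (hv : IsPad v p) {n : ℕ} (hn : 1 ≤ n) (hpn : ¬ p ∣ 2 * n - 1) {y : F}
    (hy : v y ≤ v (p : F) ^ n) : v (zPsi n y) * v y ^ (2 * n - 1) = 1 ∨ y = 0 := by
  by_cases h0 : y = 0
  · exact Or.inr h0
  left
  rw [zPsi, map_div₀, hv.val_num hn hpn hy, map_pow]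
  exact one_div_mul_cancel (pow_ne_zero _ ((_root_.map_ne_zero _).2 h0))

/-- the root near `p ^ n` -/
lemma IsPad.exists_small (hv : IsPad v p) {n : ℕ} (hn : 1 ≤ n) (hpn : ¬ p ∣ 2 * n - 1) {τ : F}
    (hτ : v (τ - zPsi n ((p : F) ^ n)) < v (zPsi n ((p : F) ^ n))) (hs : (zP n τ).Splits) :
    ∃ y, (zP n τ).eval y = 0 ∧ v (y - (p : F) ^ n) < v ((p : F) ^ n) := by
  set y0 : F := (p : F) ^ n with hy0
  have hp0 : 0 < v (p : F) := zero_lt_iff.2 hv.ne
  have hpF : (p : F) ≠ 0 := (_root_.map_ne_zero v).1 hv.ne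
  have hy00 : y0 ≠ 0 := pow_ne_zero _ hpF
  have hpos : 0 < v y0 := zero_lt_iff.2 ((_root_.map_ne_zero _).2 hy00)
  have hy0v : v y0 ≤ v (p : F) ^ n := by rw [hy0, map_pow]
  have hy01 : v y0 < 1 := lt_of_le_of_lt hy0v (pow_lt_one₀ zero_le hv.lt (by omega))
  have h1 : v (zPsi n y0) * v y0 ^ (2 * n - 1) = 1 :=
    (hv.val_Ψ_small hn hpn hy0v).resolve_right hy00
  have h2 : v ((zP n τ).eval y0) < 1 := by
    have h3 : (zP n τ).eval y0 = -(τ - zPsi n y0) * y0 ^ (2 * n - 1) := by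
      rw [zP_eval, zPsi]
      field_simp
      ring
    rw [h3, map_mul, Valuation.map_neg, map_pow, ← h1]
    exact mul_lt_mul_of_pos_right hτ (pow_pos hpos _)
  have h4 : v (y0 * (derivative (zP n τ)).eval y0) = 1 := by
    have h5 : v ((y0 ^ 2 - 1) ^ n) = 1 := by
      rw [map_pow, Valuation.map_sub_eq_of_lt_right, map_one, one_pow]
      rw [map_one, map_pow]
      exact pow_lt_one₀ zero_le hy01 two_ne_zero
    rw [zP_deriv_eval n hn, Valuation.map_add_eq_of_lt_left, h5]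
    rw [h5, map_mul]
    have h6 : v (2 * (n : F) - 1) ≤ 1 := by
      have h7 : (2 * (n : F) - 1) = ((2 * n - 1 : ℕ) : F) := by
        rw [Nat.cast_sub (by omega)]; push_cast; ring
      rw [h7]; exact hv.nat_le _
    exact (mul_le_of_le_one_left' h6).trans_lt h2
  have hd : (derivative (zP n τ)).eval y0 ≠ 0 := by
    intro h0
    rw [h0, mul_zero, map_zero] at h4
    exact zero_ne_one h4
  obtain ⟨y, hy, hy2⟩ := exists_root_near v hs y0 hd
  refine ⟨y, hy, ?_⟩
  have h5 : v (y0 - y) * v ((derivative (zP n τ)).eval y0) < 1 := lt_of_le_of_lt hy2 h2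
  rw [Valuation.map_sub_swap]
  rw [map_mul] at h4
  have hdpos : 0 < v ((derivative (zP n τ)).eval y0) := zero_lt_iff.2 ((_root_.map_ne_zero _).2 hd)
  rw [← h4] at h5
  exact lt_of_mul_lt_mul_right h5 hdpos.le

/-- uniqueness of the root near `p ^ n` -/
lemma IsPad.small_unique (hv : IsPad v p) {n : ℕ} (hn : 1 ≤ n) (hpn : ¬ p ∣ 2 * n - 1) {y y' : F}
    (hy : v (y - (p : F) ^ n) < v ((p : F) ^ n)) (hy' : v (y' - (p : F) ^ n) < v ((p : F) ^ n))
    (h : zPsi n y = zPsi n y') : y = y' := by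
  set y0 : F := (p : F) ^ n with hy0
  have hpF : (p : F) ≠ 0 := (_root_.map_ne_zero v).1 hv.ne
  have hpos : 0 < v y0 := zero_lt_iff.2 ((_root_.map_ne_zero _).2 (pow_ne_zero _ hpF))
  have hval : ∀ {z : F}, v (z - y0) < v y0 → v z = v y0 := by
    intro z hz
    have h1 : z = (z - y0) + y0 := by ring
    rw [h1, Valuation.map_add_eq_of_lt_right _ hz]
  have hvy := hval hy
  have hvy' := hval hy'
  have hne : y ≠ 0 := by
    rintro rfl
    rw [map_zero] at hvy
    exact hpos.ne hvy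
  have hne' : y' ≠ 0 := by
    rintro rfl
    rw [map_zero] at hvy'
    exact hpos.ne hvy'
  by_contra hyy
  have hd : 0 < v (y - y') := zero_lt_iff.2 ((_root_.map_ne_zero _).2 (sub_ne_zero.2 hyy))
  have hdlt : v (y - y') < v y0 := by
    have h1 : y - y' = (y - y0) - (y' - y0) := by ring
    rw [h1]
    exact lt_of_le_of_lt (v.map_sub _ _) (max_lt hy hy')
  have hy0v : v y0 ≤ v (p : F) ^ n := by rw [hy0, map_pow]
  have hy01 : v y0 < 1 := lt_of_le_of_lt hy0v (pow_lt_one₀ zero_le hv.lt (by omega))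
  set τ := zPsi n y with hτ
  have hA : ((zA n).map (algebraMap ℚ F)).eval y = τ * y ^ (2 * n - 1) := by
    rw [hτ, zPsi, div_mul_cancel₀ _ (pow_ne_zero _ hne)]
  have hA' : ((zA n).map (algebraMap ℚ F)).eval y' = τ * y' ^ (2 * n - 1) := by
    rw [h, zPsi, div_mul_cancel₀ _ (pow_ne_zero _ hne')]
  have hτv : v τ * v y0 ^ (2 * n - 1) = 1 := by
    rw [← hvy]
    exact (hv.val_Ψ_small hn hpn (by rw [hvy]; exact hy0v)).resolve_right hne
  obtain ⟨i, rfl⟩ : ∃ i, n = i + 1 := ⟨n - 1, by omega⟩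
  -- the right hand side
  have h1 : v (τ * (y ^ (2 * (i + 1) - 1) - y' ^ (2 * (i + 1) - 1))) * v y0 = v (y - y') := by
    have h2 : 2 * (i + 1) - 1 = 2 * i + 1 := by omega
    rw [h2] at hτv hpn ⊢
    rw [map_mul, val_pow_sub_pow v hne' (by rw [hvy']; exact hdlt) (hv.unit _ hpn), hvy']
    calc v τ * (v (y - y') * v y0 ^ (2 * i)) * v y0 =
        (v τ * v y0 ^ (2 * i + 1)) * v (y - y') := by
          rw [pow_succ]
          simp only [mul_left_comm, mul_comm]
      _ = v (y - y') := by rw [hτv, one_mul]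
  -- the left hand side
  have h3 : v (((zA (i + 1)).map (algebraMap ℚ F)).eval y -
      ((zA (i + 1)).map (algebraMap ℚ F)).eval y') * v y0 < v (y - y') := by
    have hpw : ∀ l : ℕ, v (y ^ (l + 1) - y' ^ (l + 1)) ≤ v (y - y') * v y0 ^ l := fun l =>
      val_pow_sub_pow_le v hvy.le hvy'.le l
    rw [zA_map_eval, zA_map_eval, Finset.sum_range_succ, Finset.sum_range_succ, Nat.sub_self,
      pow_zero, pow_zero]
    have h4 : y ^ (2 * (i + 1)) - (∑ j ∈ Finset.range i, (zc (i + 1) (j + 1) : F) *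
        y ^ (2 * (i + 1) - 2 * (j + 1)) + (zc (i + 1) (i + 1) : F) * 1) -
        (y' ^ (2 * (i + 1)) - (∑ j ∈ Finset.range i, (zc (i + 1) (j + 1) : F) *
        y' ^ (2 * (i + 1) - 2 * (j + 1)) + (zc (i + 1) (i + 1) : F) * 1)) =
        (y ^ (2 * (i + 1)) - y' ^ (2 * (i + 1))) - ∑ j ∈ Finset.range i,
          (zc (i + 1) (j + 1) : F) * (y ^ (2 * (i + 1) - 2 * (j + 1)) -
            y' ^ (2 * (i + 1) - 2 * (j + 1))) := by
      simp only [mul_sub, Finset.sum_sub_distrib]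
      ring
    rw [h4]
    have h5 : v (∑ j ∈ Finset.range i, (zc (i + 1) (j + 1) : F) *
        (y ^ (2 * (i + 1) - 2 * (j + 1)) - y' ^ (2 * (i + 1) - 2 * (j + 1)))) * v y0 <
          v (y - y') := by
      rw [← lt_div_iff₀ hpos]
      apply v.map_sum_lt' (div_pos hd hpos)
      intro j hj
      have hj' : j < i := Finset.mem_range.1 hj
      obtain ⟨l, hl⟩ : ∃ l, 2 * (i + 1) - 2 * (j + 1) = (l + 1) + 1 :=
        ⟨2 * (i + 1) - 2 * (j + 1) - 2, by omega⟩
      rw [lt_div_iff₀ hpos, hl, map_mul]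
      calc v (zc (i + 1) (j + 1) : F) * v (y ^ (l + 1 + 1) - y' ^ (l + 1 + 1)) * v y0 ≤
            v (zc (i + 1) (j + 1) : F) * (v (y - y') * v y0 ^ (l + 1)) * v y0 := by
            gcongr
            exact hpw _
        _ ≤ v (zc (i + 1) (j + 1) : F) * (v (y - y') * v y0 ^ 1) * v y0 := by
            exact mul_le_mul' (mul_le_mul' le_rfl (mul_le_mul' le_rfl
              (pow_le_pow_of_le_one zero_le hy01.le (by omega)))) le_rfl
        _ = (v (zc (i + 1) (j + 1) : F) * v y0 ^ 2) * v (y - y') := by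
            rw [pow_one, pow_two]
            simp only [mul_left_comm, mul_comm]
        _ < 1 * v (y - y') := mul_lt_mul_of_pos_right (hv.zc_lt (by omega) hy0v) hd
        _ = v (y - y') := one_mul _
    have h6 : v (y ^ (2 * (i + 1)) - y' ^ (2 * (i + 1))) * v y0 < v (y - y') := by
      have h7 : 2 * (i + 1) = (2 * i + 1) + 1 := by ring
      rw [h7]
      calc _ ≤ v (y - y') * v y0 ^ (2 * i + 1) * v y0 := by gcongr; exact hpw _
        _ = v (y - y') * v y0 ^ (2 * i + 1 + 1) := by rw [mul_assoc, ← pow_succ]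
        _ < v (y - y') * 1 := by
            gcongr
            exact pow_lt_one₀ zero_le hy01 (by omega)
        _ = _ := mul_one _
    rw [← lt_div_iff₀ hpos] at h5 h6 ⊢
    exact lt_of_le_of_lt (v.map_sub _ _) (max_lt h6 h5)
  rw [hA, hA', ← mul_sub, h1] at h3
  exact lt_irrefl _ h3

end small

end P025H440
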