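import Vale.Agent.P025.H641.Attach
import Vale.Agent.P025.H641.Every
import Vale.Agent.P025.H641.GeoStmt

/-! # Valuative sections: definitions shared by the modules -/

open IntermediateField Polynomial

namespace P025H440

open P025H641

universe u v w

/-- coefficients of the numerator of the zoom map -/
noncomputable def zc (n j : ℕ) : ℚ := (-1) ^ j * (n.choose j : ℚ) / (2 * j - 1)

/-- the numerator of the zoom map `Ψ(y) = zA n (y) / y ^ (2 n - 1)` -/
noncomputable def zA (n : ℕ) : ℚ[X] :=
  -∑ j ∈ Finset.range (n + 1), C (zc n j) * X ^ (2 * n - 2 * j)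

/-- the critical value `β = Ψ(1) = - Ψ(-1)` -/
noncomputable def zβ (n : ℕ) : ℚ := 4 ^ n / (n.centralBinom : ℚ)

/-- the monic polynomial of degree `2 n` whose roots are the `y` with `Ψ(y) = τ` -/
noncomputable def zP (n : ℕ) {F : Type*} [Field F] [CharZero F] (τ : F) : F[X] :=
  (zA n).map (algebraMap ℚ F) - C τ * X ^ (2 * n - 1)

instance charZero_maxUnr (k : Type u) (K : Type v) [Field k] [CharZero k] [Field K]
    [Algebra k K] : CharZero (maxUnr k K) :=
  charZero_of_injective_algebraMap (algebraMap k (maxUnr k K)).injective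

/-- the set of full cusps of `t`: the `b` in `k'` such that `t - b` is an `m`-th power in the
maximal unramified extension -/
def Cusp {k : Type u} {K : Type v} [Field k] [Field K] [Algebra k K] (k' : Type w) [Field k']
    [Algebra k' (maxUnr k K)] (m : ℕ) (t : maxUnr k K) : Set k' :=
  {b | ∃ g : maxUnr k K, g ^ m = t - algebraMap k' (maxUnr k K) b}

/-- the common context: a section `s`, a closed subgroup `G` with field of constants `k'` (finite
over `k`), and a valuation ring `O` of the maximal unramified extension which is stable under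
`s G` and extends the valuation ring of the `p`-adic field `k'` -/
structure Ctx (p : ℕ) [Fact p.Prime] {k : Type u} {K : Type v} [Field k] [Field K] [Algebra k K]
    [CharZero k] (s : Gal(constClosure k K/k) →* Gal(maxUnr k K/K))
    (G : Subgroup Gal(constClosure k K/k)) (k' : Type w) [Field k'] [Algebra k' (maxUnr k K)]
    [Algebra ℚ_[p] k'] (O : ValuationSubring (maxUnr k K)) : Prop where
  isSection : IsSection k K s
  base : Base s G k'
  fin : ∃ F : IntermediateField K (AlgebraicClosure K), IsFinUnr k F ∧
    ∀ c : k', ((algebraMap k' (maxUnr k K) c : maxUnr k K) : AlgebraicClosure K) ∈ F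
  const : ∀ c : k', algebraMap k' (maxUnr k K) c ∈ O ↔ spectralNorm ℚ_[p] k' c ≤ 1
  stable : ∀ σ ∈ G, ∀ x ∈ O, s σ x ∈ O

/-- cusps of relative accuracy `ε` at all `z` with `ρ ≤ |z| ≤ R` -/
def RDs (p : ℕ) [Fact p.Prime] {k' : Type w} [Field k'] [Algebra ℚ_[p] k'] (C : Set k')
    (ε ρ R : ℝ) : Prop :=
  ∀ z : k', ρ ≤ spectralNorm ℚ_[p] k' z → spectralNorm ℚ_[p] k' z ≤ R →
    ∃ b ∈ C, spectralNorm ℚ_[p] k' (b - z) ≤ ε * spectralNorm ℚ_[p] k' z

/-- a state: an element fixed by `s G` whose nearest constant is `0` -/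
structure IsState {k : Type u} {K : Type v} [Field k] [Field K] [Algebra k K]
    [CharZero k] (s : Gal(constClosure k K/k) →* Gal(maxUnr k K/K))
    (G : Subgroup Gal(constClosure k K/k)) (k' : Type w) [Field k'] [Algebra k' (maxUnr k K)]
    (O : ValuationSubring (maxUnr k K)) (t : maxUnr k K) : Prop where
  fix : ∀ σ ∈ G, s σ t = t
  near : ∀ x : k', O.valuation (algebraMap k' (maxUnr k K) x) ≤
    O.valuation (t - algebraMap k' (maxUnr k K) x)

/-- `Ψ(y)` for constants `y` -/
noncomputable def zPsi {F : Type*} [Field F] [CharZero F] (n : ℕ) (y : F) : F :=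
  ((zA n).map (algebraMap ℚ F)).eval y / y ^ (2 * n - 1)

end P025H440
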