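import Vale.Agent.P025.H641.Kum
import Vale.Agent.P025.H641.Nrm
import Vale.Agent.P025.H641.Inst

/-! # Fixed vertices: classes of units and the norm relation -/

open Polynomial

namespace P025H440

open P025H641

universe u v w

/-- A field `Om` over the algebraic closure `Kb` with a semilinear action of `Gal(Kb / k)` and a
stable subring `R` all of whose units are `p`-th powers. -/
structure UnitAct (p : ℕ) (k : Type u) (Kb : Type v) (Om : Type w) [Field k] [Field Kb]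
    [Algebra k Kb] [Field Om] [Algebra Kb Om] where
  /-- the action -/
  rho : Gal(Kb/k) →* (Om ≃+* Om)
  const : ∀ (σ : Gal(Kb/k)) (c : Kb), rho σ (algebraMap Kb Om c) = algebraMap Kb Om (σ c)
  /-- the subring -/
  R : Subring Om
  R_const : ∀ c : Kb, algebraMap Kb Om c ∈ R
  R_root : ∀ x : Om, x ^ p ∈ R → x ∈ R
  R_stab : ∀ (σ : Gal(Kb/k)) (x : Om), x ∈ R → rho σ x ∈ R
  R_pow : ∀ x : Om, x ≠ 0 → x ∈ R → x⁻¹ ∈ R → ∃ y, y ^ p = x
  cont : ∀ x : Om, x ≠ 0 → ∃ U : Subgroup Gal(Kb/k), IsOpen (U : Set Gal(Kb/k)) ∧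
    ∀ σ ∈ U, ∀ z : Om, z ^ p = 1 → rho σ x = z * x → z = 1

variable {p : ℕ} [Fact p.Prime] {k : Type u} {Kb : Type v} {Om : Type w} [Field k] [Field Kb]
  [Algebra k Kb] [Field Om] [Algebra Kb Om]

namespace UnitAct

variable (D : UnitAct p k Kb Om)

/-- a unit of `R` fixed by a closed subgroup is a `p`-th power times a constant -/
lemma exists_cls [IsGalois k Kb] {ζ : k} (hζ : IsPrimitiveRoot ζ p) (H : Subgroup Gal(Kb/k))
    (hH : IsClosed (H : Set Gal(Kb/k))) (x : Om) (hx : x ≠ 0) (hxR : x ∈ D.R) (hxR' : x⁻¹ ∈ D.R)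
    (hfix : ∀ σ ∈ H, D.rho σ x = x) :
    ∃ (l : Kb) (y : Om), l ≠ 0 ∧ y ≠ 0 ∧ (∀ σ ∈ H, σ (l ^ p) = l ^ p) ∧
      (∀ σ ∈ H, D.rho σ y = y) ∧ x = algebraMap Kb Om (l ^ p) * y ^ p := by
  classical
  have hpp : p.Prime := Fact.out
  obtain ⟨y0, hy0⟩ := D.R_pow x hx hxR hxR'
  have hy00 : y0 ≠ 0 := by
    rintro rfl
    rw [zero_pow hpp.ne_zero] at hy0
    exact hx hy0.symm
  set Z := algebraMap k Kb ζ with hZ
  have hZp : IsPrimitiveRoot Z p := hζ.map_of_injective (algebraMap k Kb).injective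
  have hZO : IsPrimitiveRoot (algebraMap Kb Om Z) p :=
    hZp.map_of_injective (algebraMap Kb Om).injective
  have hZfix : ∀ σ : Gal(Kb/k), σ Z = Z := fun σ => σ.commutes ζ
  have hZO0 : algebraMap Kb Om Z ≠ 0 := hZO.ne_zero hpp.ne_zero
  -- the character
  have hex : ∀ σ : Gal(Kb/k), ∃ c : ZMod p, σ ∈ H →
      D.rho σ y0 = algebraMap Kb Om Z ^ c.val * y0 := by
    intro σ
    by_cases hσ : σ ∈ H
    · have h1 : (D.rho σ y0 / y0) ^ p = 1 := by
        rw [div_pow, ← map_pow, hy0, hfix σ hσ, div_self hx]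
      obtain ⟨j, hj, h2⟩ := hZO.eq_pow_of_pow_eq_one h1
      refine ⟨(j : ZMod p), fun _ => ?_⟩
      rw [ZMod.val_natCast, Nat.mod_eq_of_lt hj, h2, div_mul_cancel₀ _ hy00]
    · exact ⟨0, fun h => absurd h hσ⟩
  choose χ hχ using hex
  have huniq : ∀ c d : ZMod p, algebraMap Kb Om Z ^ c.val * y0 = algebraMap Kb Om Z ^ d.val * y0 →
      c = d := by
    intro c d h
    have h1 := mul_right_cancel₀ hy00 h
    have h2 := hZO.pow_inj (ZMod.val_lt c) (ZMod.val_lt d) h1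
    exact ZMod.val_injective p h2
  have hmul : ∀ σ ∈ H, ∀ τ ∈ H, χ (σ * τ) = χ σ + χ τ := by
    intro σ hσ τ hτ
    apply huniq
    rw [← hχ _ (H.mul_mem hσ hτ), map_mul]
    show D.rho σ (D.rho τ y0) = _
    rw [hχ τ hτ, map_mul, map_pow, D.const, hZfix, hχ σ hσ, ← mul_assoc, ← pow_add]
    congr 1
    rw [ZMod.val_add]
    rw [add_comm, ← pow_mod_orderOf (algebraMap Kb Om Z) ((χ σ).val + (χ τ).val), ← hZO.eq_orderOf]
  -- the kernel
  set N : Subgroup Gal(Kb/k) :=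
    { carrier := {σ | σ ∈ H ∧ D.rho σ y0 = y0}
      one_mem' := ⟨H.one_mem, by rw [map_one]; rfl⟩
      mul_mem' := by
        rintro a b ⟨ha, ha'⟩ ⟨hb, hb'⟩
        refine ⟨H.mul_mem ha hb, ?_⟩
        rw [map_mul]
        show D.rho a (D.rho b y0) = y0
        rw [hb', ha']
      inv_mem' := by
        rintro a ⟨ha, ha'⟩
        refine ⟨H.inv_mem ha, ?_⟩
        rw [map_inv]
        show (D.rho a).symm y0 = y0
        rw [RingEquiv.symm_apply_eq]
        exact ha'.symm } with hN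
  have hNmem : ∀ σ, σ ∈ N ↔ σ ∈ H ∧ D.rho σ y0 = y0 := fun σ => Iff.rfl
  have hNH : ∀ σ, σ ∈ N ↔ σ ∈ H ∧ χ σ = 0 := by
    intro σ
    rw [hNmem]
    refine and_congr_right (fun hσ => ?_)
    constructor
    · intro h
      apply huniq
      rw [← hχ σ hσ, h, ZMod.val_zero, pow_zero, one_mul]
    · intro h
      rw [hχ σ hσ, h, ZMod.val_zero, pow_zero, one_mul]
  obtain ⟨U, hU, hU'⟩ := D.cont y0 hy00
  have hNcl : IsClosed (N : Set Gal(Kb/k)) := by
    rw [← isOpen_compl_iff, isOpen_iff_mem_nhds]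
    intro σ hσ
    by_cases hσH : σ ∈ H
    · have h1 : IsOpen ((fun τ => σ⁻¹ * τ) ⁻¹' (U : Set Gal(Kb/k))) :=
        hU.preimage (continuous_const.mul continuous_id)
      refine Filter.mem_of_superset (h1.mem_nhds ?_) ?_
      · show σ⁻¹ * σ ∈ U
        rw [inv_mul_cancel]
        exact U.one_mem
      · intro τ hτ hτN
        have hτH : τ ∈ H := ((hNmem τ).1 hτN).1
        have h2 : σ⁻¹ * τ ∈ H := H.mul_mem (H.inv_mem hσH) hτH
        have h3 := hχ _ h2
        have h4 := hU' _ hτ _ (by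
          rw [← pow_mul, mul_comm, pow_mul, hZO.pow_eq_one, one_pow]) h3
        have h5 : D.rho (σ⁻¹ * τ) y0 = y0 := by rw [h3, h4, one_mul]
        have h6 : σ⁻¹ * τ ∈ N := (hNmem _).2 ⟨h2, h5⟩
        apply hσ
        have h7 := N.mul_mem hτN (N.inv_mem h6)
        rw [mul_inv_rev, inv_inv, mul_inv_cancel_left] at h7
        exact h7
    · have h1 : IsOpen ((H : Set Gal(Kb/k))ᶜ) := hH.isOpen_compl
      refine Filter.mem_of_superset (h1.mem_nhds hσH) ?_
      intro τ hτ hτN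
      exact hτ ((hNmem τ).1 hτN).1
  obtain ⟨l, hl0, hl⟩ := kummer_p H N hNcl χ hmul hNH Z hZp (fun σ _ => hZfix σ)
  have hl0' : algebraMap Kb Om l ≠ 0 := (_root_.map_ne_zero _).2 hl0
  refine ⟨l, y0 / algebraMap Kb Om l, hl0, div_ne_zero hy00 hl0', ?_, ?_, ?_⟩
  · intro σ hσ
    rw [map_pow, hl σ hσ, mul_pow, ← pow_mul, mul_comm _ p, pow_mul, hZp.pow_eq_one, one_pow,
      one_mul]
  · intro σ hσ
    rw [map_div₀, D.const, hl σ hσ, hχ σ hσ, map_mul, map_pow,
      mul_div_mul_left _ _ (pow_ne_zero _ hZO0)]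
  · rw [div_pow, map_pow, mul_div_cancel₀ _ (pow_ne_zero _ hl0'), hy0]

/-- a fixed `p`-th root of a constant is a constant -/
lemma const_of_pow [IsGalois k Kb] [IsAlgClosed Kb] {ζ : k} (hζ : IsPrimitiveRoot ζ p)
    (e : Om) (c : k) (hfix : ∀ σ, D.rho σ e = e)
    (hc : e ^ p = algebraMap Kb Om (algebraMap k Kb c)) :
    ∃ e0 : k, e = algebraMap Kb Om (algebraMap k Kb e0) ∧ c = e0 ^ p := by
  have hpp : p.Prime := Fact.out
  obtain ⟨d, hd⟩ := IsAlgClosed.exists_pow_nat_eq (algebraMap k Kb c) hpp.pos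
  by_cases hc0 : c = 0
  · subst hc0
    refine ⟨0, ?_, (zero_pow hpp.ne_zero).symm⟩
    rw [map_zero, map_zero] at hc ⊢
    exact pow_eq_zero_iff hpp.ne_zero |>.1 hc
  have hd0 : d ≠ 0 := by
    rintro rfl
    rw [zero_pow hpp.ne_zero] at hd
    exact hc0 ((map_eq_zero _).1 hd.symm)
  have hd0' : algebraMap Kb Om d ≠ 0 := (_root_.map_ne_zero _).2 hd0
  have hZO : IsPrimitiveRoot (algebraMap Kb Om (algebraMap k Kb ζ)) p :=
    (hζ.map_of_injective (algebraMap k Kb).injective).map_of_injective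
      (algebraMap Kb Om).injective
  have h1 : (e / algebraMap Kb Om d) ^ p = 1 := by
    rw [div_pow, hc, ← map_pow, hd, div_self]
    rw [← hd, map_pow]
    exact pow_ne_zero _ hd0'
  obtain ⟨j, -, h2⟩ := hZO.eq_pow_of_pow_eq_one h1
  set e1 : Kb := algebraMap k Kb ζ ^ j * d with he1
  have h3 : e = algebraMap Kb Om e1 := by
    rw [he1, map_mul, map_pow, h2, div_mul_cancel₀ _ hd0']
  have h4 : ∀ σ : Gal(Kb/k), σ e1 = e1 := by
    intro σ
    have h5 := hfix σ
    rw [h3, D.const] at h5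
    exact (algebraMap Kb Om).injective h5
  obtain ⟨e0, he0⟩ := (InfiniteGalois.mem_range_algebraMap_iff_fixed e1).2 h4
  refine ⟨e0, by rw [h3, he0], ?_⟩
  apply (algebraMap k Kb).injective
  apply (algebraMap Kb Om).injective
  rw [← hc, h3, ← he0, map_pow, map_pow]

/-- an automorphism which moves a Kummer generator in the standard way -/
lemma exists_move [IsGalois k Kb] {ζ : k} (hζ : IsPrimitiveRoot ζ p) (γ : k) (hγ0 : γ ≠ 0)
    (hγ : ∀ e : k, γ ≠ e ^ p) (θ : Kb) (hθ : θ ^ p = algebraMap k Kb γ) :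
    ∃ τ : Gal(Kb/k), τ θ = algebraMap k Kb ζ * θ := by
  have hpp : p.Prime := Fact.out
  set Z := algebraMap k Kb ζ with hZ
  have hZp : IsPrimitiveRoot Z p := hζ.map_of_injective (algebraMap k Kb).injective
  have hZG : ∀ σ : Gal(Kb/k), σ Z = Z := fun σ => σ.commutes ζ
  have hθ0 : θ ≠ 0 := by
    rintro rfl
    rw [zero_pow hpp.ne_zero] at hθ
    exact hγ0 ((map_eq_zero _).1 hθ.symm)
  have hfix : ∃ τ : Gal(Kb/k), τ θ ≠ θ := by
    by_contra h
    push Not at h
    obtain ⟨e0, he0⟩ := (InfiniteGalois.mem_range_algebraMap_iff_fixed θ).2 h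
    apply hγ e0
    apply (algebraMap k Kb).injective
    rw [← hθ, ← he0, map_pow]
  obtain ⟨τ', hτ'⟩ := hfix
  have h1 : (τ' θ / θ) ^ p = 1 := by
    rw [div_pow, ← map_pow, hθ, τ'.commutes, div_self ((_root_.map_ne_zero _).2 hγ0)]
  obtain ⟨j, hj, h2⟩ := hZp.eq_pow_of_pow_eq_one h1
  have h3 : τ' θ = Z ^ j * θ := by rw [h2, div_mul_cancel₀ _ hθ0]
  have hj0 : j ≠ 0 := by
    rintro rfl
    rw [pow_zero, one_mul] at h3
    exact hτ' h3
  obtain ⟨m, -, hm⟩ := Nat.exists_mul_mod_eq_one_of_coprime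
    ((Nat.coprime_of_lt_prime hj0 hj hpp).symm) hpp.one_lt
  refine ⟨τ' ^ m, ?_⟩
  have h4 : ∀ i : ℕ, (τ' ^ i) θ = Z ^ (j * i) * θ := by
    intro i
    induction i with
    | zero => rw [pow_zero, mul_zero, pow_zero, one_mul]; rfl
    | succ i ih =>
      rw [pow_succ', AlgEquiv.mul_apply, ih, map_mul, map_pow, hZG τ', h3, mul_add,
        mul_one, pow_add]
      ring
  rw [h4]
  congr 1
  rw [← pow_mod_orderOf Z (j * m), ← hZp.eq_orderOf, hm, pow_one]

/-- **The norm relation** -/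
lemma norm_rel [IsGalois k Kb] [IsAlgClosed Kb] {ζ : k} (hζ : IsPrimitiveRoot ζ p) (γ x : k)
    (hγ0 : γ ≠ 0) (y yc : Om) (hyR : y ^ p ∈ D.R) (hyfix : ∀ σ, D.rho σ y = y)
    (hyc0 : yc ≠ 0) (hycfix : ∀ σ, D.rho σ yc = yc)
    (hy : y ^ p - algebraMap Kb Om (algebraMap k Kb γ) =
      algebraMap Kb Om (algebraMap k Kb x) * yc ^ p)
    (hunit : (y ^ p - algebraMap Kb Om (algebraMap k Kb γ))⁻¹ ∈ D.R)
    (hne : y ^ p - algebraMap Kb Om (algebraMap k Kb γ) ≠ 0) :
    (∃ θ0 : k, γ = θ0 ^ p) ∨ ∃ f : k[X], x = nrm p ζ f γ := by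
  classical
  have hpp : p.Prime := Fact.out
  by_cases hγ : ∃ θ0 : k, γ = θ0 ^ p
  · exact Or.inl hγ
  push Not at hγ
  right
  obtain ⟨θ, hθ⟩ := IsAlgClosed.exists_pow_nat_eq (algebraMap k Kb γ) hpp.pos
  obtain ⟨τ, hτ⟩ := exists_move hζ γ hγ0 hγ θ hθ
  set Z := algebraMap k Kb ζ with hZ
  have hZp : IsPrimitiveRoot Z p := hζ.map_of_injective (algebraMap k Kb).injective
  have hZO : IsPrimitiveRoot (algebraMap Kb Om Z) p :=
    hZp.map_of_injective (algebraMap Kb Om).injective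
  have hZG : ∀ σ : Gal(Kb/k), σ Z = Z := fun σ => σ.commutes ζ
  have hθint : IsIntegral k θ := Algebra.IsIntegral.isIntegral θ
  -- the stabilizer
  set F : IntermediateField k Kb := IntermediateField.adjoin k {θ} with hF
  set H : Subgroup Gal(Kb/k) := F.fixingSubgroup with hH
  have hθF : θ ∈ F := IntermediateField.mem_adjoin_simple_self k θ
  have hHmem : ∀ σ, σ ∈ H ↔ σ θ = θ := by
    intro σ
    rw [hH, IntermediateField.mem_fixingSubgroup_iff]
    constructor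
    · intro h
      exact h θ hθF
    · intro h x hx
      have h1 : F ≤ IntermediateField.fixedField (Subgroup.zpowers σ) := by
        rw [hF, IntermediateField.adjoin_simple_le_iff, IntermediateField.mem_fixedField_iff]
        have h2 : σ ∈ MulAction.stabilizer Gal(Kb/k) θ := h
        intro g hg
        have h3 : Subgroup.zpowers σ ≤ MulAction.stabilizer Gal(Kb/k) θ :=
          (Subgroup.zpowers_le).2 h2
        exact h3 hg
      exact (IntermediateField.mem_fixedField_iff _ x).1 (h1 hx) σ (Subgroup.mem_zpowers σ)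
  have hFfin : FiniteDimensional k F := IntermediateField.adjoin.finiteDimensional hθint
  have hHcl : IsClosed (H : Set Gal(Kb/k)) := IntermediateField.fixingSubgroup_isClosed F
  have hτi : ∀ i : ℕ, (τ ^ i) θ = Z ^ i * θ := by
    intro i
    induction i with
    | zero => rw [pow_zero, pow_zero, one_mul]; rfl
    | succ i ih =>
      rw [pow_succ', AlgEquiv.mul_apply, ih, map_mul, map_pow, hZG τ, hτ, pow_succ]
      ring
  -- the function `y - θ`
  set c := algebraMap Kb Om with hc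
  set r := y - c θ with hr
  have hprod : ∏ i ∈ Finset.range p, (y - c Z ^ i * c θ) = y ^ p - c (algebraMap k Kb γ) := by
    have h1 := hZO.pow_sub_pow_eq_prod_sub_mul y (c θ) hpp.pos
    rw [← map_pow, hθ] at h1
    rw [h1]
    have h2 : Polynomial.nthRootsFinset p (1 : Om) =
        (Finset.range p).image (fun i => c Z ^ i) := by
      ext z
      rw [Polynomial.mem_nthRootsFinset hpp.pos, Finset.mem_image]
      constructor
      · intro hz
        obtain ⟨i, hi, h⟩ := hZO.eq_pow_of_pow_eq_one hz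
        exact ⟨i, Finset.mem_range.2 hi, h⟩
      · rintro ⟨i, -, rfl⟩
        rw [← pow_mul, mul_comm, pow_mul, hZO.pow_eq_one, one_pow]
    rw [h2, Finset.prod_image]
    intro i hi j hj h
    exact hZO.pow_inj (Finset.mem_range.1 hi) (Finset.mem_range.1 hj) h
  have hyR' : y ∈ D.R := D.R_root y hyR
  have hfac : ∀ i, y - c Z ^ i * c θ ∈ D.R := fun i =>
    D.R.sub_mem hyR' (D.R.mul_mem (D.R.pow_mem (D.R_const Z) i) (D.R_const θ))
  have hr0 : r ≠ 0 := by
    intro h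
    apply hne
    rw [← hprod]
    refine Finset.prod_eq_zero (Finset.mem_range.2 hpp.pos) ?_
    rw [pow_zero, one_mul]
    exact h
  have hrR : r ∈ D.R := D.R.sub_mem hyR' (D.R_const θ)
  have hrR' : r⁻¹ ∈ D.R := by
    have h1 : r⁻¹ = (y ^ p - c (algebraMap k Kb γ))⁻¹ *
        ∏ i ∈ (Finset.range p).erase 0, (y - c Z ^ i * c θ) := by
      rw [← hprod, ← Finset.mul_prod_erase _ _ (Finset.mem_range.2 hpp.pos), pow_zero, one_mul,
        mul_inv, mul_assoc, inv_mul_cancel₀, mul_one]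
      intro h0
      apply hne
      rw [← hprod, ← Finset.mul_prod_erase _ _ (Finset.mem_range.2 hpp.pos), h0, mul_zero]
    rw [h1]
    exact D.R.mul_mem hunit (D.R.prod_mem (fun i _ => hfac i))
  have hrH : ∀ σ ∈ H, D.rho σ r = r := by
    intro σ hσ
    rw [hr, map_sub, hyfix, hc, D.const, (hHmem σ).1 hσ]
  obtain ⟨l, z, hl0, hz0, hlH, hzH, hrz⟩ := D.exists_cls hζ H hHcl r hr0 hrR hrR' hrH
  -- the constant as a polynomial in `θ`
  obtain ⟨f, hf⟩ : ∃ f : k[X], aeval θ f = l ^ p := by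
    have h1 : l ^ p ∈ IntermediateField.fixedField H :=
      (IntermediateField.mem_fixedField_iff H _).2 hlH
    rw [hH, InfiniteGalois.fixedField_fixingSubgroup F] at h1
    have h2 : l ^ p ∈ (IntermediateField.adjoin k {θ}).toSubalgebra := h1
    rw [IntermediateField.adjoin_simple_toSubalgebra_of_isAlgebraic hθint.isAlgebraic] at h2
    rw [Algebra.adjoin_singleton_eq_range_aeval] at h2
    exact h2
  -- the product over the conjugates
  set w := ∏ i ∈ Finset.range p, D.rho (τ ^ i) z with hw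
  have hri : ∀ i : ℕ, D.rho (τ ^ i) r = y - c Z ^ i * c θ := by
    intro i
    rw [hr, map_sub, hyfix, hc, D.const, hτi, map_mul, map_pow]
  have hprod2 : y ^ p - c (algebraMap k Kb γ) =
      c (∏ i ∈ Finset.range p, aeval (algebraMap k Kb (ζ ^ i) * θ) f) * w ^ p := by
    rw [← hprod, hw, ← Finset.prod_pow, map_prod, ← Finset.prod_mul_distrib]
    refine Finset.prod_congr rfl (fun i _ => ?_)
    have h3 : (τ ^ i) (l ^ p) = aeval (algebraMap k Kb (ζ ^ i) * θ) f := by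
      have h4 := Polynomial.aeval_algHom_apply ((τ ^ i : Gal(Kb/k)) : Kb →ₐ[k] Kb) θ f
      have h5 : ((τ ^ i : Gal(Kb/k)) : Kb →ₐ[k] Kb) θ = algebraMap k Kb (ζ ^ i) * θ := by
        rw [map_pow]
        exact hτi i
      rw [h5, hf] at h4
      exact h4.symm
    rw [← hri i, hrz, (D.rho (τ ^ i)).map_mul, D.const, h3, (D.rho (τ ^ i)).map_pow]
  rw [← nrm_spec hpp.pos hζ f γ θ hθ] at hprod2
  -- `w` is fixed
  have hτp : τ ^ p ∈ H := by
    rw [hHmem, hτi, hZp.pow_eq_one, one_mul]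
  have hconj : ∀ σ ∈ H, ∀ i : ℕ, (τ ^ i)⁻¹ * σ * τ ^ i ∈ H := by
    intro σ hσ i
    rw [hHmem] at hσ ⊢
    rw [AlgEquiv.mul_apply, AlgEquiv.mul_apply, hτi, map_mul, map_pow, hZG, hσ, ← hτi,
      ← AlgEquiv.mul_apply, inv_mul_cancel, AlgEquiv.one_apply]
  have hwH : ∀ σ ∈ H, D.rho σ w = w := by
    intro σ hσ
    rw [hw, map_prod]
    refine Finset.prod_congr rfl (fun i _ => ?_)
    have h1 : D.rho σ (D.rho (τ ^ i) z) = D.rho (σ * τ ^ i) z := by rw [map_mul]; rfl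
    have h2 : σ * τ ^ i = τ ^ i * ((τ ^ i)⁻¹ * σ * τ ^ i) := by group
    have h3 : D.rho (τ ^ i * ((τ ^ i)⁻¹ * σ * τ ^ i)) z =
        D.rho (τ ^ i) (D.rho ((τ ^ i)⁻¹ * σ * τ ^ i) z) := by rw [map_mul]; rfl
    rw [h1, h2, h3, hzH _ (hconj σ hσ i)]
  have hwτ : D.rho τ w = w := by
    have h1 : ∀ i, D.rho τ (D.rho (τ ^ i) z) = D.rho (τ ^ (i + 1)) z := by
      intro i
      rw [pow_succ', map_mul]
      rfl
    have h2 : ∀ (g : ℕ → Om) (n : ℕ), 0 < n → g n = g 0 →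
        ∏ i ∈ Finset.range n, g (i + 1) = ∏ i ∈ Finset.range n, g i := by
      intro g n hn hg
      obtain ⟨m, rfl⟩ : ∃ m, n = m + 1 := ⟨n - 1, by omega⟩
      rw [Finset.prod_range_succ, Finset.prod_range_succ' g, hg]
    rw [hw, map_prod, Finset.prod_congr rfl (fun i _ => h1 i)]
    refine h2 (fun i => D.rho (τ ^ i) z) p hpp.pos ?_
    show D.rho (τ ^ p) z = D.rho (τ ^ 0) z
    rw [hzH _ hτp, pow_zero, map_one]
    rfl
  have hwfix : ∀ σ, D.rho σ w = w := by
    have hpow : ∀ i : ℕ, D.rho (τ ^ i) w = w := by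
      intro i
      induction i with
      | zero => rw [pow_zero, map_one]; rfl
      | succ i ih =>
        rw [pow_succ, map_mul]
        show D.rho (τ ^ i) (D.rho τ w) = w
        rw [hwτ, ih]
    intro σ
    have hθ0 : θ ≠ 0 := by
      rintro rfl
      rw [zero_pow hpp.ne_zero] at hθ
      exact hγ0 ((map_eq_zero _).1 hθ.symm)
    have h1 : (σ θ / θ) ^ p = 1 := by
      rw [div_pow, ← map_pow, hθ, σ.commutes, div_self ((_root_.map_ne_zero _).2 hγ0)]
    obtain ⟨j, -, h2⟩ := hZp.eq_pow_of_pow_eq_one h1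
    have h3 : σ θ = Z ^ j * θ := by rw [h2, div_mul_cancel₀ _ hθ0]
    have h4 : (τ ^ j)⁻¹ * σ ∈ H := by
      rw [hHmem, AlgEquiv.mul_apply, h3, ← hτi, ← AlgEquiv.mul_apply, inv_mul_cancel,
        AlgEquiv.one_apply]
    have h5 : σ = τ ^ j * ((τ ^ j)⁻¹ * σ) := by group
    rw [h5, map_mul]
    show D.rho (τ ^ j) (D.rho ((τ ^ j)⁻¹ * σ) w) = w
    rw [hwH _ h4, hpow]
  -- conclusion
  have hx0 : x ≠ 0 := by
    rintro rfl
    rw [map_zero, map_zero, zero_mul] at hy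
    exact hne hy
  have hn0 : nrm p ζ f γ ≠ 0 := by
    intro h
    rw [h, map_zero, map_zero, zero_mul] at hprod2
    exact hne hprod2
  have hw0 : w ≠ 0 := by
    intro h
    rw [h, zero_pow hpp.ne_zero, mul_zero] at hprod2
    exact hne hprod2
  obtain ⟨e0, -, he0⟩ := D.const_of_pow hζ (w / yc) (x / nrm p ζ f γ)
    (fun σ => by rw [map_div₀, hwfix, hycfix]) (by
      have h1 : c (algebraMap k Kb x) * yc ^ p = c (algebraMap k Kb (nrm p ζ f γ)) * w ^ p := by
        rw [← hy, hprod2]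
      have h2 : c (algebraMap k Kb (nrm p ζ f γ)) ≠ 0 :=
        (_root_.map_ne_zero _).2 ((_root_.map_ne_zero _).2 hn0)
      have h3 : yc ^ p ≠ 0 := pow_ne_zero _ hyc0
      rw [div_pow, map_div₀, map_div₀, div_eq_div_iff h3 h2]
      rw [mul_comm, ← h1])
  refine ⟨C e0 * f, ?_⟩
  have h1 : nrm p ζ (C e0 * f) γ = e0 ^ p * nrm p ζ f γ := by
    apply (algebraMap k Kb).injective
    rw [nrm_spec hpp.pos hζ (C e0 * f) γ θ hθ, map_mul, nrm_spec hpp.pos hζ f γ θ hθ]
    simp only [map_mul, aeval_C]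
    rw [Finset.prod_mul_distrib, Finset.prod_const, Finset.card_range, map_pow]
  rw [h1, ← he0, div_mul_cancel₀ _ hn0]

end UnitAct

end P025H440
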