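import Mathlib

/-! # Continuity of semilinear actions: roots of unity as eigenvalues -/

namespace P025H440

universe u v w

/-- eigenvalues which are roots of unity are trivial on an open subgroup -/
theorem cont_of_span {G : Type u} [Group G] [TopologicalSpace G] {F : Type v} {Om : Type w}
    [NormedField F] [Field Om] [Algebra F Om] (rho : G →* (Om ≃+* Om)) (act : G → F → F)
    (hact : ∀ g f, rho g (algebraMap F Om f) = algebraMap F Om (act g f))
    (hcont : ∀ f : F, ∀ ε > 0, ∃ U : Subgroup G, IsOpen (U : Set G) ∧ ∀ g ∈ U, ‖act g f - f‖ < ε)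
    (hspan : Submodule.span F {θ : Om | ∃ U : Subgroup G, IsOpen (U : Set G) ∧
      ∀ g ∈ U, rho g θ = θ} = ⊤) (p : ℕ) (hp : 0 < p)
    (hroots : ∀ z : Om, z ^ p = 1 → ∃ z' : F, algebraMap F Om z' = z) (x : Om) (hx : x ≠ 0) :
    ∃ U : Subgroup G, IsOpen (U : Set G) ∧ ∀ g ∈ U, ∀ z : Om, z ^ p = 1 → rho g x = z * x →
      z = 1 := by
  classical
  -- the distance of the nontrivial roots of unity from one
  obtain ⟨δ, hδ, hδ'⟩ : ∃ δ : ℝ, 0 < δ ∧ ∀ z : F, z ^ p = 1 → ‖z - 1‖ < δ → z = 1 := by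
    have hfin : {z : F | z ^ p = 1}.Finite := by
      refine (Polynomial.nthRoots p (1 : F)).toFinset.finite_toSet.subset (fun z hz => ?_)
      rw [Finset.mem_coe, Multiset.mem_toFinset, Polynomial.mem_nthRoots hp]
      exact hz
    have hfin' : {z : F | z ^ p = 1 ∧ z ≠ 1}.Finite := hfin.subset (fun z hz => hz.1)
    obtain h0 | h0 := Set.eq_empty_or_nonempty {z : F | z ^ p = 1 ∧ z ≠ 1}
    · refine ⟨1, one_pos, fun z hz _ => ?_⟩
      by_contra hne
      have : z ∈ ({z : F | z ^ p = 1 ∧ z ≠ 1} : Set F) := ⟨hz, hne⟩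
      rw [h0] at this
      exact this
    · obtain ⟨z0, hz0, hmin⟩ := Set.exists_min_image _ (fun z : F => ‖z - 1‖) hfin' h0
      refine ⟨‖z0 - 1‖, norm_pos_iff.2 (sub_ne_zero.2 hz0.2), fun z hz hlt => ?_⟩
      by_contra hne
      exact absurd hlt (not_lt.2 (hmin z ⟨hz, hne⟩))
  set S : Set Om := {θ : Om | ∃ U : Subgroup G, IsOpen (U : Set G) ∧ ∀ g ∈ U, rho g θ = θ}
    with hS
  have hxs : x ∈ Submodule.span F S := by rw [hspan]; trivial
  obtain ⟨t, htS, hxt⟩ := Submodule.mem_span_finite_of_mem_span hxs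
  obtain ⟨b, hbt, hbspan, hbli⟩ := exists_linearIndependent F (t : Set Om)
  have hbfin : b.Finite := t.finite_toSet.subset hbt
  have hxb : x ∈ Submodule.span F b := by rw [hbspan]; exact hxt
  let bt : Finset Om := hbfin.toFinset
  have hbt' : ∀ θ, θ ∈ bt ↔ θ ∈ b := fun θ => hbfin.mem_toFinset
  have hxb' : x ∈ Submodule.span F (bt : Set Om) := by
    rw [hbfin.coe_toFinset]
    exact hxb
  obtain ⟨c, -, hc⟩ := Submodule.mem_span_finset.1 hxb'
  -- linear independence over the finset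
  have hli : ∀ d : Om → F, ∑ θ ∈ bt, d θ • θ = 0 → ∀ θ ∈ bt, d θ = 0 := by
    intro d hd θ hθ
    have h1 := (linearIndepOn_iff' (R := F) (v := fun θ : Om => θ) (s := b)).1 hbli bt d
      (fun θ hθ => (hbt' θ).1 hθ) hd θ hθ
    exact h1
  obtain ⟨θ0, hθ0, hcθ0⟩ : ∃ θ0 ∈ bt, c θ0 ≠ 0 := by
    by_contra hcon
    push Not at hcon
    apply hx
    rw [← hc]
    exact Finset.sum_eq_zero (fun θ hθ => by rw [hcon θ hθ, zero_smul])
  -- the open subgroups
  have hU1 : ∃ U : Subgroup G, IsOpen (U : Set G) ∧ ∀ g ∈ U, ∀ θ ∈ bt, rho g θ = θ := by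
    have key : ∀ s : Finset Om, (∀ θ ∈ s, θ ∈ S) →
        ∃ U : Subgroup G, IsOpen (U : Set G) ∧ ∀ g ∈ U, ∀ θ ∈ s, rho g θ = θ := by
      intro s
      induction s using Finset.induction_on with
      | empty => exact fun _ => ⟨⊤, isOpen_univ, fun g _ θ hθ => by simp at hθ⟩
      | insert a s ha ih =>
        intro hs
        obtain ⟨U, hU, hU'⟩ := ih (fun θ hθ => hs θ (Finset.mem_insert_of_mem hθ))
        obtain ⟨W, hW, hW'⟩ := hs a (Finset.mem_insert_self a s)
        refine ⟨U ⊓ W, hU.inter hW, fun g hg θ hθ => ?_⟩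
        rcases Finset.mem_insert.1 hθ with rfl | hθ
        · exact hW' g hg.2
        · exact hU' g hg.1 θ hθ
    exact key bt (fun θ hθ => htS (hbt ((hbt' θ).1 hθ)))
  obtain ⟨U1, hU1o, hU1⟩ := hU1
  obtain ⟨U2, hU2o, hU2⟩ := hcont (c θ0) (‖c θ0‖ * δ) (mul_pos (norm_pos_iff.2 hcθ0) hδ)
  refine ⟨U1 ⊓ U2, hU1o.inter hU2o, fun g hg z hz hzx => ?_⟩
  obtain ⟨z', hz'⟩ := hroots z hz
  have h1 : ∑ θ ∈ bt, (act g (c θ) - z' * c θ) • θ = 0 := by
    have h2 : rho g x = ∑ θ ∈ bt, act g (c θ) • θ := by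
      rw [← hc, map_sum]
      refine Finset.sum_congr rfl (fun θ hθ => ?_)
      rw [Algebra.smul_def, map_mul, hact, hU1 g hg.1 θ hθ, Algebra.smul_def]
    have h3 : z * x = ∑ θ ∈ bt, (z' * c θ) • θ := by
      rw [← hc, Finset.mul_sum]
      refine Finset.sum_congr rfl (fun θ _ => ?_)
      rw [← hz', Algebra.smul_def, Algebra.smul_def, map_mul, mul_assoc]
    simp only [sub_smul, Finset.sum_sub_distrib]
    rw [← h2, ← h3, hzx, sub_self]
  have h4 := hli (fun θ => act g (c θ) - z' * c θ) h1 θ0 hθ0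
  have h5 : act g (c θ0) - c θ0 = (z' - 1) * c θ0 := by linear_combination h4
  have h6 := hU2 g hg.2
  rw [h5, norm_mul, mul_comm] at h6
  have h7 : ‖z' - 1‖ < δ := lt_of_mul_lt_mul_left h6 (norm_nonneg _)
  have h8 : z' ^ p = 1 := by
    apply (algebraMap F Om).injective
    rw [map_pow, hz', hz, map_one]
  rw [← hz', hδ' z' h8 h7, map_one]

end P025H440
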