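import Vale.Agent.P025.R2.H440.M2Int

/-! # Fixed vertices near the base field are impossible: version for complete rings -/

open Polynomial Filter Topology

namespace P025H440

open P025H641

universe u v w z

/-- A field `Om` over a complete ring `A` (functions on one side of the circle) with a semilinear
action of `Gal(Kb / k)`, such that elements which are units over `A` are `p`-th powers. -/
structure IntAct (p : ℕ) (k : Type u) (Kb : Type v) (A : Type z) (Om : Type w) [Field k] [Field Kb]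
    [Algebra k Kb] [NormedCommRing A] [Field Om] [Algebra Kb A] [Algebra A Om] [Algebra Kb Om] where
  /-- the action -/
  rho : Gal(Kb/k) →* (Om ≃+* Om)
  const : ∀ (σ : Gal(Kb/k)) (c : Kb), rho σ (algebraMap Kb Om c) = algebraMap Kb Om (σ c)
  ball : ∀ (σ : Gal(Kb/k)) (f : A), ∃ g : A, ‖g‖ ≤ ‖f‖ ∧
    rho σ (algebraMap A Om f) = algebraMap A Om g
  pow : ∀ x : Om, x ≠ 0 → IsIntegral A x → IsIntegral A x⁻¹ → ∃ y, y ^ p = x
  cont : ∀ x : Om, x ≠ 0 → ∃ U : Subgroup Gal(Kb/k), IsOpen (U : Set Gal(Kb/k)) ∧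
    ∀ σ ∈ U, ∀ z : Om, z ^ p = 1 → rho σ x = z * x → z = 1

section

variable {p : ℕ} [Fact p.Prime] {k : Type u} {Kb : Type v} {A : Type z} {Om : Type w} [Field k]
  [Field Kb] [Algebra k Kb] [NormedCommRing A] [NormMulClass A] [NormOneClass A]
  [IsUltrametricDist A] [CompleteSpace A] [Field Om] [Algebra Kb A] [Algebra A Om] [Algebra Kb Om]
  [IsScalarTower Kb A Om]

namespace IntAct

variable (D : IntAct p k Kb A Om)

include D in
omit [Fact p.Prime] [NormMulClass A] [NormOneClass A] [IsUltrametricDist A]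
  [CompleteSpace A] [IsScalarTower Kb A Om] in
/-- the action on the ring -/
lemma exists_hom (hinj : Function.Injective (algebraMap A Om)) (σ : Gal(Kb/k)) :
    ∃ g : A →+* A, (∀ f, ‖g f‖ ≤ ‖f‖) ∧
      ∀ f, D.rho σ (algebraMap A Om f) = algebraMap A Om (g f) := by
  choose g hg1 hg2 using D.ball σ
  refine ⟨{ toFun := g, map_one' := ?_, map_mul' := ?_, map_zero' := ?_, map_add' := ?_ }, hg1,
    hg2⟩
  · apply hinj
    rw [← hg2, map_one, map_one]
  · intro a b
    apply hinj
    rw [← hg2, map_mul, map_mul, hg2, hg2, map_mul]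
  · apply hinj
    rw [← hg2, map_zero, map_zero]
  · intro a b
    apply hinj
    rw [← hg2, map_add, map_add, hg2, hg2, map_add]

omit [Fact p.Prime] [NormMulClass A] [NormOneClass A] [IsUltrametricDist A]
  [CompleteSpace A] [IsScalarTower Kb A Om] in
lemma integral_rho (hinj : Function.Injective (algebraMap A Om)) (σ : Gal(Kb/k)) {x : Om}
    (hx : IsIntegral A x) : IsIntegral A (D.rho σ x) := by
  obtain ⟨g, hg1, hg2⟩ := D.exists_hom hinj σ
  obtain ⟨P, hP, hPx⟩ := hx
  refine ⟨P.map g, hP.map g, ?_⟩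
  have h1 := congrArg (D.rho σ) hPx
  rw [map_zero] at h1
  rw [eval₂_map, ← h1]
  have h2 : (algebraMap A Om).comp g = ((D.rho σ : Om ≃+* Om) : Om →+* Om).comp
      (algebraMap A Om) := by
    ext f
    exact (hg2 f).symm
  rw [h2]
  exact (Polynomial.hom_eval₂ P (algebraMap A Om) ((D.rho σ : Om ≃+* Om) : Om →+* Om) x).symm

omit [Fact p.Prime] [CompleteSpace A] [IsScalarTower Kb A Om] in
lemma integral_rho' (hinj : Function.Injective (algebraMap A Om)) (σ : Gal(Kb/k)) {x : Om}
    (hx : IsIntegral (unitBall A) x) : IsIntegral (unitBall A) (D.rho σ x) := by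
  obtain ⟨g, hg1, hg2⟩ := D.exists_hom hinj σ
  let g' : unitBall A →+* unitBall A :=
    (g.comp (unitBall A).subtype).codRestrict (unitBall A)
      (fun f => (hg1 (f : A)).trans f.2)
  obtain ⟨P, hP, hPx⟩ := hx
  refine ⟨P.map g', hP.map g', ?_⟩
  have h1 := congrArg (D.rho σ) hPx
  rw [map_zero] at h1
  rw [eval₂_map, ← h1]
  have h2 : (algebraMap (unitBall A) Om).comp g' = ((D.rho σ : Om ≃+* Om) : Om →+* Om).comp
      (algebraMap (unitBall A) Om) := by
    ext f
    exact (hg2 (f : A)).symm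
  rw [h2]
  exact (Polynomial.hom_eval₂ P (algebraMap (unitBall A) Om)
    ((D.rho σ : Om ≃+* Om) : Om →+* Om) x).symm

/-- the ring of integral elements -/
noncomputable def toUnitAct (hp : 0 < p) (hinj : Function.Injective (algebraMap A Om)) :
    UnitAct p k Kb Om where
  rho := D.rho
  const := D.const
  R := (integralClosure A Om).toSubring
  R_const c := by
    show IsIntegral A _
    rw [IsScalarTower.algebraMap_apply Kb A Om]
    exact isIntegral_algebraMap
  R_root x hx := IsIntegral.of_pow hp hx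
  R_stab σ x hx := D.integral_rho hinj σ hx
  R_pow x hx h1 h2 := D.pow x hx h1 h2
  cont := D.cont

end IntAct

end

section main

variable {p : ℕ} [Fact p.Prime] {k : Type u} {Kb : Type v} {A : Type z} {Om : Type w} [Field k]
  [Field Kb] [Algebra k Kb] [NormedCommRing A] [NormMulClass A] [NormOneClass A]
  [IsUltrametricDist A] [CompleteSpace A] [Field Om] [Algebra Kb A] [Algebra A Om] [Algebra Kb Om]
  [IsScalarTower Kb A Om]

namespace IntAct

variable (D : IntAct p k Kb A Om)

omit [Fact p.Prime] [NormMulClass A] [NormOneClass A] [IsUltrametricDist A]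
  [CompleteSpace A] [IsScalarTower Kb A Om] in
lemma rho_const (σ : Gal(Kb/k)) (c : k) :
    D.rho σ (algebraMap Kb Om (algebraMap k Kb c)) = algebraMap Kb Om (algebraMap k Kb c) := by
  rw [D.const, AlgEquiv.commutes]

omit [Fact p.Prime] [CompleteSpace A] in
/-- integral constants have norm at most one -/
lemma norm_const_le (hinj : Function.Injective (algebraMap A Om)) (c : Kb)
    (hc : IsIntegral (unitBall A) (algebraMap Kb Om c)) : ‖algebraMap Kb A c‖ ≤ 1 := by
  apply norm_le_one_of_integral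
  rw [IsScalarTower.algebraMap_apply Kb A Om] at hc
  exact (isIntegral_algHom_iff (IsScalarTower.toAlgHom (unitBall A) A Om) hinj).1 hc

omit [Fact p.Prime] [CompleteSpace A] in
lemma integral_const (c : Kb) (hc : ‖algebraMap Kb A c‖ ≤ 1) :
    IsIntegral (unitBall A) (algebraMap Kb Om c) := by
  have h1 : algebraMap Kb Om c = algebraMap (unitBall A) Om ⟨algebraMap Kb A c, hc⟩ := by
    rw [IsScalarTower.algebraMap_apply Kb A Om]
    rfl
  rw [h1]
  exact isIntegral_algebraMap

omit [CompleteSpace A] in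
/-- roots of unity are not close to one -/
lemma norm_root {ζ : k} (hζ : IsPrimitiveRoot ζ p) :
    ‖(p : A)‖ ≤ ‖algebraMap Kb A (algebraMap k Kb (1 - ζ))‖ := by
  have hpp : p.Prime := Fact.out
  obtain ⟨n, hn⟩ : ∃ n, p = n + 1 := ⟨p - 1, by have := hpp.pos; omega⟩
  set κ : k →+* A := (algebraMap Kb A).comp (algebraMap k Kb) with hκ
  have h1 := IsPrimitiveRoot.prod_one_sub_pow_eq_order (n := n) (μ := ζ) (by rwa [← hn])
  have h2 := congrArg κ h1
  rw [map_prod] at h2
  have h3 : κ ((n : k) + 1) = (p : A) := by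
    rw [hn]
    push_cast
    rw [map_add, map_natCast, map_one]
  rw [h3] at h2
  have hζn : ‖κ ζ‖ ≤ 1 := by
    have h4 : ‖κ ζ‖ ^ p = 1 := by
      rw [← norm_pow, ← map_pow, hζ.pow_eq_one, map_one, norm_one]
    exact le_of_eq ((pow_eq_one_iff_of_nonneg (norm_nonneg _) hpp.ne_zero).1 h4)
  have h4 : ∀ m : ℕ, ‖κ (1 - ζ ^ m)‖ ≤ 1 := by
    intro m
    rw [map_sub, map_one, map_pow, sub_eq_add_neg]
    refine (IsUltrametricDist.norm_add_le_max _ _).trans (max_le (by rw [norm_one]) ?_)
    rw [norm_neg, norm_pow]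
    exact pow_le_one₀ (norm_nonneg _) hζn
  have hn1 : 0 < n := by have := hpp.two_le; omega
  show ‖(p : A)‖ ≤ ‖κ (1 - ζ)‖
  rw [← h2]
  have h5 : ∏ i ∈ Finset.range n, κ (1 - ζ ^ (i + 1)) =
      κ (1 - ζ) * ∏ i ∈ (Finset.range n).erase 0, κ (1 - ζ ^ (i + 1)) := by
    rw [← Finset.mul_prod_erase _ _ (Finset.mem_range.2 hn1), zero_add, pow_one]
  rw [h5, norm_mul]
  refine mul_le_of_le_one_right (norm_nonneg _) ?_
  have h6 : ∀ s : Finset ℕ, ‖∏ i ∈ s, κ (1 - ζ ^ (i + 1))‖ ≤ 1 := by
    intro s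
    induction s using Finset.induction_on with
    | empty => rw [Finset.prod_empty, norm_one]
    | insert a s ha ih =>
      rw [Finset.prod_insert ha, norm_mul]
      exact mul_le_one₀ (h4 _) (norm_nonneg _) ih
  exact h6 _

/-- fixed `p`-th roots of fixed elements close to one -/
lemma exists_fixed_root (hinj : Function.Injective (algebraMap A Om)) (hp0 : (p : k) ≠ 0)
    (hpA : ‖(p : A)‖ < 1) {ζ : k} (hζ : IsPrimitiveRoot ζ p) (x : Om)
    (hx : IsIntegral (unitBall A) x) (hxf : ∀ σ, D.rho σ x = x) :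
    ∃ v, (∀ σ, D.rho σ v = v) ∧ v ^ p = 1 + (p : Om) ^ 3 * x := by
  have hpp : p.Prime := Fact.out
  set κ : k →+* A := (algebraMap Kb A).comp (algebraMap k Kb) with hκ
  have hκp : κ (p : k) = (p : A) := map_natCast κ p
  have hpi : (p : A) * κ ((p : k)⁻¹) = 1 := by
    rw [← hκp, ← map_mul, mul_inv_cancel₀ hp0, map_one]
  have hpnorm : 0 < ‖(p : A)‖ := by
    rw [norm_pos_iff]
    intro h0
    rw [h0, zero_mul] at hpi
    have : ‖(1 : A)‖ = 0 := by rw [← hpi, norm_zero]
    rw [norm_one] at this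
    exact one_ne_zero this
  have hcomp : PiComplete (unitBall A) (p : unitBall A) := by
    have h1 := piComplete_unitBall (p : A) _ hpi hpA
    have h2 : (⟨(p : A), hpA.le⟩ : unitBall A) = (p : unitBall A) := Subtype.ext rfl
    rwa [h2] at h1
  obtain ⟨u, hu, hv⟩ := exists_root_integral hcomp x hx
  set v := 1 + (p : Om) ^ 2 * u with hvdef
  refine ⟨v, fun σ => ?_, hv⟩
  have hpO : (p : Om) ≠ 0 := by
    intro h0
    apply hp0
    apply (algebraMap k Kb).injective
    apply (algebraMap Kb Om).injective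
    rw [map_natCast, map_natCast, map_zero, map_zero, h0]
  have hpu : IsIntegral (unitBall A) (p : Om) := by
    have : (p : Om) = algebraMap (unitBall A) Om (p : unitBall A) := by rw [map_natCast]
    rw [this]
    exact isIntegral_algebraMap
  have hvint : IsIntegral (unitBall A) v := isIntegral_one.add ((hpu.pow 2).mul hu)
  -- `v ≠ 0`
  have hv0 : v ≠ 0 := by
    intro h0
    rw [h0, zero_pow hpp.ne_zero] at hv
    have h1 : x = algebraMap Kb Om (algebraMap k Kb (-(p : k)⁻¹ ^ 3)) := by
      simp only [map_neg, map_pow, map_inv₀, map_natCast]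
      field_simp
      linear_combination -hv
    have h2 : ‖κ (-(p : k)⁻¹ ^ 3)‖ ≤ 1 := norm_const_le hinj _ (h1 ▸ hx)
    have h3 : ‖κ ((p : k)⁻¹)‖ = ‖(p : A)‖⁻¹ := by
      have h4 := congrArg norm hpi
      rw [norm_mul, norm_one] at h4
      exact eq_inv_of_mul_eq_one_right h4
    rw [map_neg, norm_neg, map_pow, norm_pow, h3, inv_pow] at h2
    have h5 : 1 < (‖(p : A)‖ ^ 3)⁻¹ := (one_lt_inv₀ (pow_pos hpnorm 3)).2
      (pow_lt_one₀ (norm_nonneg _) hpA (by norm_num))
    linarith
  have h1 : (D.rho σ v / v) ^ p = 1 := by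
    rw [div_pow, ← map_pow, hv, map_add, map_mul, map_pow, map_natCast, map_one, hxf, ← hv,
      div_self (pow_ne_zero p hv0)]
  have hZO : IsPrimitiveRoot (algebraMap Kb Om (algebraMap k Kb ζ)) p :=
    (hζ.map_of_injective (algebraMap k Kb).injective).map_of_injective
      (algebraMap Kb Om).injective
  obtain ⟨j, hj, h2⟩ := hZO.eq_pow_of_pow_eq_one h1
  by_cases hj0 : j = 0
  · rw [hj0, pow_zero] at h2
    exact (div_eq_one_iff_eq hv0).1 h2.symm
  exfalso
  have hζj : IsPrimitiveRoot (ζ ^ j) p := hζ.pow_of_coprime j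
    (Nat.Coprime.symm ((Nat.Prime.coprime_iff_not_dvd hpp).2
      (Nat.not_dvd_of_pos_of_lt (Nat.pos_of_ne_zero hj0) hj)))
  set z := algebraMap Kb Om (algebraMap k Kb (ζ ^ j)) with hz
  have hz' : z = D.rho σ v / v := by rw [hz, map_pow, map_pow, h2]
  have h3 : z * v = D.rho σ v := by rw [hz', div_mul_cancel₀ _ hv0]
  have h4 : (z - 1) * v = (p : Om) ^ 2 * (D.rho σ u - u) := by
    rw [sub_mul, h3, one_mul, hvdef, map_add, map_mul, map_pow, map_natCast, map_one]
    ring
  obtain ⟨m, hm⟩ : ∃ m, p = m + 1 := ⟨p - 1, by have := hpp.pos; omega⟩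
  have h5 : z - 1 = (p : Om) ^ 2 * ((D.rho σ u - u) * v ^ m - (p : Om) * (z - 1) * x) := by
    have h6 : (z - 1) * v ^ p = (p : Om) ^ 2 * (D.rho σ u - u) * v ^ m := by
      have h7 : v ^ p = v * v ^ m := by rw [hm, pow_succ']
      rw [h7, ← mul_assoc, h4]
    rw [hv] at h6
    linear_combination h6
  set w := (D.rho σ u - u) * v ^ m - (p : Om) * (z - 1) * x with hw
  have hzint : IsIntegral (unitBall A) z := by
    refine IsIntegral.of_pow hpp.pos ?_
    rw [hz, ← map_pow, ← map_pow, hζj.pow_eq_one, map_one, map_one]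
    exact isIntegral_one
  have hwint : IsIntegral (unitBall A) w := by
    rw [hw]
    refine (((D.integral_rho' hinj σ hu).sub hu).mul (hvint.pow m)).sub ?_
    exact (hpu.mul (hzint.sub isIntegral_one)).mul hx
  have h8 : w = algebraMap Kb Om (algebraMap k Kb ((ζ ^ j - 1) * ((p : k)⁻¹) ^ 2)) := by
    have h9 : algebraMap Kb Om (algebraMap k Kb ((ζ ^ j - 1) * ((p : k)⁻¹) ^ 2)) =
        (z - 1) / (p : Om) ^ 2 := by
      rw [hz]
      simp only [map_mul, map_sub, map_one, map_pow, map_inv₀, map_natCast]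
      field_simp
    rw [h9, h5]
    field_simp
  have h10 : ‖κ ((ζ ^ j - 1) * ((p : k)⁻¹) ^ 2)‖ ≤ 1 := norm_const_le hinj _ (h8 ▸ hwint)
  have h11 : ‖κ ((p : k)⁻¹)‖ = ‖(p : A)‖⁻¹ := by
    have h4 := congrArg norm hpi
    rw [norm_mul, norm_one] at h4
    exact eq_inv_of_mul_eq_one_right h4
  rw [map_mul, map_pow, norm_mul, norm_pow, h11, inv_pow,
    mul_inv_le_iff₀ (pow_pos hpnorm 2), one_mul] at h10
  have h12 := norm_root (A := A) (Kb := Kb) hζj
  have h13 : ‖κ (ζ ^ j - 1)‖ = ‖κ (1 - ζ ^ j)‖ := by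
    rw [← norm_neg, ← map_neg, neg_sub]
  rw [h13] at h10
  have h14 : ‖(p : A)‖ ≤ ‖(p : A)‖ ^ 2 := h12.trans h10
  nlinarith

/-- **Fixed vertices near the base field are impossible.** -/
theorem false_of_fixed [Algebra ℚ_[p] k] [FiniteDimensional ℚ_[p] k] [IsGalois k Kb]
    [IsAlgClosed Kb] {ζ : k} (hζ : IsPrimitiveRoot ζ p)
    (hinj : Function.Injective (algebraMap A Om))
    (hnorm : ∀ c : k, ‖algebraMap Kb A (algebraMap k Kb c)‖ = spectralNorm ℚ_[p] k c)
    (t : Om) (htfix : ∀ σ, D.rho σ t = t)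
    (htne : ∀ a : k, t ≠ algebraMap Kb Om (algebraMap k Kb a)) (htint : IsIntegral A t)
    (hunit : ∀ a : k, IsIntegral A (t - algebraMap Kb Om (algebraMap k Kb a))⁻¹) : False := by
  have hpp : p.Prime := Fact.out
  have hchar : CharZero k := charZero_of_injective_algebraMap (algebraMap ℚ_[p] k).injective
  have hp0 : (p : k) ≠ 0 := by exact_mod_cast hpp.ne_zero
  set κ : k →+* A := (algebraMap Kb A).comp (algebraMap k Kb) with hκ
  have hκn : ∀ c : k, ‖κ c‖ = spectralNorm ℚ_[p] k c := hnorm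
  have hκO : ∀ c : k, algebraMap Kb Om (algebraMap k Kb c) = algebraMap A Om (κ c) := fun c =>
    IsScalarTower.algebraMap_apply Kb A Om _
  have hκp : κ (p : k) = (p : A) := map_natCast κ p
  have hpn : ‖(p : A)‖ = (p : ℝ)⁻¹ := by
    rw [← hκp, hκn]
    have h1 : (p : k) = algebraMap ℚ_[p] k (p : ℚ_[p]) := by rw [map_natCast]
    rw [h1, spectralNorm_extends]
    exact Padic.norm_p
  have hpR : (1 : ℝ) < p := by exact_mod_cast hpp.one_lt
  have hpR0 : (0 : ℝ) < p := by linarith
  have hpA : ‖(p : A)‖ < 1 := by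
    rw [hpn]
    exact inv_lt_one_of_one_lt₀ hpR
  have hpi : (p : A) * κ ((p : k)⁻¹) = 1 := by
    rw [← hκp, ← map_mul, mul_inv_cancel₀ hp0, map_one]
  have hpin : ‖κ ((p : k)⁻¹)‖ = p := by
    have h4 := congrArg norm hpi
    rw [norm_mul, norm_one, hpn] at h4
    rw [inv_mul_eq_one₀ hpR0.ne'] at h4
    exact h4.symm
  have hpO : (p : Om) ≠ 0 := by
    intro h0
    apply hp0
    apply (algebraMap k Kb).injective
    apply (algebraMap Kb Om).injective
    rw [map_natCast, map_natCast, map_zero, map_zero, h0]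
  have hfix : ∀ (c : k) (σ : Gal(Kb/k)), D.rho σ (algebraMap Kb Om (algebraMap k Kb c)) =
      algebraMap Kb Om (algebraMap k Kb c) := fun c σ => D.rho_const σ c
  refine (D.toUnitAct hpp.pos hinj).false_of_fixed hζ t htfix htne htint hunit
    ?_ ?_ ?_
  · exact (p : ℝ) ^ ((exists_scale (p : A) _ hpi hpA t htint).choose + 3)
  · intro b
    obtain ⟨N, hN⟩ := exists_scale (p : A) _ hpi hpA _ (hunit b)
    rw [map_natCast] at hN
    refine ⟨((p : ℝ) ^ (N + 3))⁻¹, by positivity, fun a hab => ?_⟩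
    set κO : k →+* Om := (algebraMap Kb Om).comp (algebraMap k Kb) with hκO'
    have htb : t - κO b ≠ 0 := sub_ne_zero.2 (htne b)
    set e : k := (b - a) * ((p : k)⁻¹) ^ (N + 3) with he
    have heint : IsIntegral (unitBall A) (κO e) := by
      apply integral_const
      show ‖κ e‖ ≤ 1
      have h1 : ‖κ (b - a)‖ ≤ ((p : ℝ) ^ (N + 3))⁻¹ := by
        rw [← neg_sub, map_neg, norm_neg, hκn]
        exact hab.le
      rw [he, map_mul, map_pow, norm_mul, norm_pow, hpin]
      calc ‖κ (b - a)‖ * (p : ℝ) ^ (N + 3) ≤ ((p : ℝ) ^ (N + 3))⁻¹ * (p : ℝ) ^ (N + 3) := by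
            gcongr
        _ = 1 := inv_mul_cancel₀ (by positivity)
    set x := κO e * ((p : Om) ^ N * (t - κO b)⁻¹) with hx
    have hxint : IsIntegral (unitBall A) x := heint.mul hN
    obtain ⟨v, hv, hvp⟩ := D.exists_fixed_root hinj hp0 hpA hζ x hxint (fun σ => by
      have h1 : ∀ c : k, D.rho σ (κO c) = κO c := fun c => hfix c σ
      rw [hx, (D.rho σ).map_mul, h1, (D.rho σ).map_mul, (D.rho σ).map_pow, map_natCast,
        map_inv₀, (D.rho σ).map_sub, htfix, h1])
    refine ⟨v, hv, ?_⟩
    show t - κO a = (t - κO b) * v ^ p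
    have h2 : (p : Om) ^ (N + 3) * κO e = κO (b - a) := by
      have h3 : (p : Om) ^ (N + 3) = κO ((p : k) ^ (N + 3)) := by rw [map_pow, map_natCast]
      rw [h3, ← map_mul, he, inv_pow]
      congr 1
      field_simp
    have h4 : (p : Om) ^ 3 * x = κO (b - a) * (t - κO b)⁻¹ := by
      rw [← h2, hx, pow_add]
      ring
    rw [hvp, h4, mul_add, mul_one, mul_comm (κO (b - a)), mul_inv_cancel_left₀ htb, map_sub]
    ring
  · intro a ha
    have hN := (exists_scale (p : A) _ hpi hpA t htint).choose_spec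
    set N := (exists_scale (p : A) _ hpi hpA t htint).choose with hNdef
    rw [map_natCast] at hN
    set κO : k →+* Om := (algebraMap Kb Om).comp (algebraMap k Kb) with hκO'
    have ha' : (p : ℝ) ^ (N + 3) < ‖κ a‖ := by rw [hκn]; exact ha
    have ha0 : a ≠ 0 := by
      rintro rfl
      rw [map_zero, norm_zero] at ha'
      exact absurd ha' (not_lt.2 (by positivity))
    set e : k := -a⁻¹ * ((p : k)⁻¹) ^ (N + 3) with he
    have heint : IsIntegral (unitBall A) (κO e) := by
      apply integral_const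
      show ‖κ e‖ ≤ 1
      have h2 : ‖κ a⁻¹‖ = ‖κ a‖⁻¹ := by
        have h3 : κ a * κ a⁻¹ = 1 := by rw [← map_mul, mul_inv_cancel₀ ha0, map_one]
        have h4 := congrArg norm h3
        rw [norm_mul, norm_one] at h4
        exact eq_inv_of_mul_eq_one_right h4
      rw [he, map_mul, map_neg, map_pow, norm_mul, norm_neg, norm_pow, hpin, h2,
        inv_mul_le_iff₀ ((by positivity : (0 : ℝ) < (p : ℝ) ^ (N + 3)).trans ha'), mul_one]
      exact ha'.le
    set x := κO e * ((p : Om) ^ N * t) with hx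
    have hxint : IsIntegral (unitBall A) x := heint.mul hN
    obtain ⟨v, hv, hvp⟩ := D.exists_fixed_root hinj hp0 hpA hζ x hxint (fun σ => by
      have h1 : ∀ c : k, D.rho σ (κO c) = κO c := fun c => hfix c σ
      rw [hx, (D.rho σ).map_mul, h1, (D.rho σ).map_mul, (D.rho σ).map_pow, map_natCast, htfix])
    refine ⟨v, hv, ?_⟩
    show t - κO a = -κO a * v ^ p
    have hκa : κO a ≠ 0 := (_root_.map_ne_zero _).2 ha0
    have h2 : (p : Om) ^ (N + 3) * κO e = κO (-a⁻¹) := by
      have h3 : (p : Om) ^ (N + 3) = κO ((p : k) ^ (N + 3)) := by rw [map_pow, map_natCast]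
      rw [h3, ← map_mul, he, inv_pow]
      congr 1
      field_simp
    have h4 : (p : Om) ^ 3 * x = κO (-a⁻¹) * t := by
      rw [← h2, hx, pow_add]
      ring
    rw [hvp, h4, map_neg, map_inv₀]
    field_simp
    ring

end IntAct

end main

section rel

variable {k : Type u} {A : Type z} {Om : Type w} [Field k] [NormedCommRing A] [NormMulClass A]
  [NormOneClass A] [CompleteSpace A] [Field Om] [Algebra k A] [Algebra A Om]

omit [NormMulClass A] [NormOneClass A] [CompleteSpace A] in
/-- roots of polynomials over `A` whose leading coefficient is a constant -/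
lemma integral_of_rel (P Q : k[X]) (hdeg : Q.degree < P.degree) (T : A) (t : Om)
    (h : eval₂ ((algebraMap A Om).comp (algebraMap k A)) t P =
      algebraMap A Om T * eval₂ ((algebraMap A Om).comp (algebraMap k A)) t Q) :
    IsIntegral A t := by
  have hP0 : P ≠ 0 := by
    rintro rfl
    rw [degree_zero] at hdeg
    exact absurd hdeg not_lt_bot
  set c := P.leadingCoeff with hc
  have hc0 : c ≠ 0 := leadingCoeff_ne_zero.2 hP0
  set P' := C c⁻¹ * P with hP'
  set Q' := C c⁻¹ * Q with hQ'
  have hP'm : P'.Monic := by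
    rw [hP', Monic, leadingCoeff_mul, leadingCoeff_C]
    exact inv_mul_cancel₀ hc0
  have hdeg' : Q'.degree < P'.degree := by
    rw [hP', hQ', degree_C_mul (inv_ne_zero hc0), degree_C_mul (inv_ne_zero hc0)]
    exact hdeg
  rcases subsingleton_or_nontrivial A with hA | hA
  · exact ⟨1, monic_one, by
      rw [eval₂_one]
      have : (algebraMap A Om) 1 = (algebraMap A Om) 0 := by rw [Subsingleton.elim (1 : A) 0]
      rwa [map_one, map_zero] at this⟩
  refine ⟨P'.map (algebraMap k A) - C T * Q'.map (algebraMap k A), ?_, ?_⟩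
  · refine Monic.sub_of_left (hP'm.map _) ?_
    rw [hP'm.degree_map]
    rw [← smul_eq_C_mul]
    exact (degree_smul_le _ _).trans_lt ((degree_map_le).trans_lt hdeg')
  · rw [eval₂_sub, eval₂_mul, eval₂_C, eval₂_map, eval₂_map, hP', hQ', eval₂_mul, eval₂_mul,
      eval₂_C, h]
    ring

omit [NormMulClass A] [NormOneClass A] in
/-- inverses of differences -/
lemma integral_inv_of_rel (P Q : k[X]) (T : A) (t : Om) (ht : IsIntegral A t)
    (h : eval₂ ((algebraMap A Om).comp (algebraMap k A)) t P =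
      algebraMap A Om T * eval₂ ((algebraMap A Om).comp (algebraMap k A)) t Q) (a : k)
    (hPa : P.eval a ≠ 0) (hlt : ‖T * algebraMap k A (Q.eval a / P.eval a)‖ < 1) :
    IsIntegral A (t - algebraMap A Om (algebraMap k A a))⁻¹ := by
  set B := integralClosure A Om with hB
  have hunit : IsUnit (algebraMap k A (P.eval a) - T * algebraMap k A (Q.eval a)) := by
    have h1 : algebraMap k A (P.eval a) - T * algebraMap k A (Q.eval a) =
        algebraMap k A (P.eval a) * (1 - T * algebraMap k A (Q.eval a / P.eval a)) := by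
      have h2 : algebraMap k A (P.eval a) * algebraMap k A (Q.eval a / P.eval a) =
          algebraMap k A (Q.eval a) := by rw [← map_mul, mul_div_cancel₀ _ hPa]
      linear_combination T * h2
    rw [h1]
    refine IsUnit.mul ((isUnit_iff_ne_zero.2 hPa).map _) ?_
    exact isUnit_one_sub_of_norm_lt_one hlt
  let t' : B := ⟨t, ht⟩
  let a' : B := algebraMap A B (algebraMap k A a)
  let F : B[X] := (P.map ((algebraMap A B).comp (algebraMap k A))) -
    C (algebraMap A B T) * Q.map ((algebraMap A B).comp (algebraMap k A))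
  have h1 := sub_dvd_eval_sub t' a' F
  have h2 : F.eval t' = 0 := by
    apply Subtype.ext
    show (algebraMap B Om) (F.eval t') = 0
    simp only [F, eval_sub, eval_mul, eval_C, eval_map, map_sub, map_mul, hom_eval₂]
    have e1 : (algebraMap B Om).comp ((algebraMap A B).comp (algebraMap k A)) =
        (algebraMap A Om).comp (algebraMap k A) := rfl
    have e2 : algebraMap B Om t' = t := rfl
    have e3 : algebraMap B Om (algebraMap A B T) = algebraMap A Om T := rfl
    rw [e1, e2, e3, h, sub_self]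
  have h3 : F.eval a' = algebraMap A B (algebraMap k A (P.eval a) - T * algebraMap k A (Q.eval a)) := by
    simp only [F, eval_sub, eval_mul, eval_C, eval_map, map_sub, map_mul, a']
    have e4 : ∀ R : k[X], eval₂ ((algebraMap A B).comp (algebraMap k A))
        (algebraMap A B (algebraMap k A a)) R = algebraMap A B (algebraMap k A (R.eval a)) := by
      intro R
      have := (hom_eval₂ R (RingHom.id k) ((algebraMap A B).comp (algebraMap k A)) a).symm
      rw [RingHom.comp_id] at this
      exact this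
    rw [e4, e4]
  rw [h2, h3, zero_sub, dvd_neg] at h1
  have h4 : IsUnit (t' - a') := isUnit_of_dvd_unit h1 (hunit.map _)
  obtain ⟨w, hw⟩ := h4.exists_right_inv
  have h5 : (t - algebraMap A Om (algebraMap k A a)) * (w : Om) = 1 := congrArg Subtype.val hw
  rw [← eq_inv_of_mul_eq_one_right h5]
  exact w.2

end rel

end P025H440
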