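import Mathlib

/-! # Roots of elements close to one in integral extensions of complete rings -/

open Polynomial

namespace P025H440

universe u v w

section adic

/-- divisibility form of adic completeness -/
structure PiComplete (S : Type u) [CommRing S] (π : S) : Prop where
  haus : ∀ x : S, (∀ n : ℕ, π ^ n ∣ x) → x = 0
  prec : ∀ f : ℕ → S, (∀ n : ℕ, π ^ n ∣ f (n + 1) - f n) → ∃ L, ∀ n : ℕ, π ^ n ∣ f n - L

lemma smod_iff {S : Type u} [CommRing S] (π : S) (n : ℕ) (x y : S) :
    x ≡ y [SMOD ((Ideal.span {π}) ^ n • ⊤ : Submodule S S)] ↔ π ^ n ∣ x - y := by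
  rw [SModEq.sub_mem, Ideal.span_singleton_pow, smul_eq_mul, Ideal.mul_top,
    Ideal.mem_span_singleton]

lemma PiComplete.isAdicComplete {S : Type u} [CommRing S] {π : S} (h : PiComplete S π) :
    IsAdicComplete (Ideal.span {π}) S where
  haus' x hx := h.haus x (fun n => by
    have h1 := (smod_iff π n x 0).1 (hx n)
    rwa [sub_zero] at h1)
  prec' f hf := by
    obtain ⟨L, hL⟩ := h.prec f (fun n => by
      have h1 := (smod_iff π n _ _).1 (hf (Nat.le_succ n))
      rw [← dvd_neg, neg_sub] at h1
      exact h1)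
    exact ⟨L, fun n => (smod_iff π n _ _).2 (hL n)⟩

lemma PiComplete.of_basis {B : Type u} {S : Type v} [CommRing B] [CommRing S] [Algebra B S]
    {ι : Type w} [Fintype ι] (b : Module.Basis ι B S) {π : B} (h : PiComplete B π) :
    PiComplete S (algebraMap B S π) := by
  classical
  have key : ∀ (n : ℕ) (x : S), (algebraMap B S π) ^ n ∣ x ↔ ∀ i, π ^ n ∣ b.repr x i := by
    intro n x
    constructor
    · rintro ⟨y, rfl⟩ i
      rw [← map_pow, ← Algebra.smul_def, map_smul]
      exact ⟨b.repr y i, rfl⟩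
    · intro hx
      choose c hc using hx
      refine ⟨∑ i, c i • b i, ?_⟩
      rw [← map_pow, ← Algebra.smul_def, Finset.smul_sum]
      conv_lhs => rw [← b.sum_repr x]
      refine Finset.sum_congr rfl (fun i _ => ?_)
      rw [smul_smul, ← hc i]
  constructor
  · intro x hx
    apply b.repr.injective
    ext i
    rw [map_zero, Finsupp.coe_zero, Pi.zero_apply]
    exact h.haus _ (fun n => (key n x).1 (hx n) i)
  · intro f hf
    have h1 : ∀ i, ∃ L, ∀ n : ℕ, π ^ n ∣ b.repr (f n) i - L := by
      intro i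
      apply h.prec (fun n => b.repr (f n) i)
      intro n
      have h2 := (key n _).1 (hf n) i
      rwa [map_sub, Finsupp.coe_sub, Pi.sub_apply] at h2
    choose L hL using h1
    refine ⟨∑ i, L i • b i, fun n => (key n _).2 (fun i => ?_)⟩
    have h3 : b.repr (∑ j, L j • b j) i = L i := by
      rw [map_sum, Finsupp.coe_finsetSum, Finset.sum_apply]
      simp [Finsupp.single_apply]
    rw [map_sub, Finsupp.coe_sub, Pi.sub_apply, h3]
    exact hL i n

end adic

section root

variable {p : ℕ} [Fact p.Prime]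

/-- `p`-th roots of elements close to one -/
lemma exists_root_of_complete {S : Type u} [CommRing S] (h : PiComplete S (p : S)) (x : S) :
    ∃ u : S, (1 + (p : S) ^ 2 * u) ^ p = 1 + (p : S) ^ 3 * x := by
  classical
  have hpp : p.Prime := Fact.out
  have hadic := h.isAdicComplete
  have hens : HenselianRing S (Ideal.span {(p : S)}) := inferInstance
  rcases subsingleton_or_nontrivial S with hS | hS
  · exact ⟨0, Subsingleton.elim _ _⟩
  obtain ⟨m, hm⟩ : ∃ m, p = m + 2 := ⟨p - 2, by have := hpp.two_le; omega⟩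
  -- the polynomial
  set c : ℕ → S := fun i => (p.choose (i + 2) : S) * (p : S) ^ (2 * i + 1) * x ^ (i + 1) with hc
  have hcI : ∀ i, c i ∈ Ideal.span {(p : S)} := by
    intro i
    rw [Ideal.mem_span_singleton, hc]
    exact (Dvd.dvd.mul_left (dvd_pow_self _ (by omega)) _).mul_right _
  set g : S[X] := X ^ (m + 1) + ∑ i ∈ Finset.range (m + 1), C (c i) * X ^ (m - i) with hg
  set F : S[X] := X ^ (m + 2) - g with hF
  have hgdeg : g.degree ≤ (m + 1 : ℕ) := by
    refine (degree_add_le _ _).trans (max_le (degree_X_pow_le _) ?_)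
    refine (degree_sum_le _ _).trans (Finset.sup_le (fun i _ => ?_))
    refine (degree_C_mul_X_pow_le _ _).trans ?_
    exact_mod_cast (by omega : m - i ≤ m + 1)
  have hFm : F.Monic := monic_X_pow_sub (hgdeg.trans_lt (by
    exact_mod_cast (Nat.lt_succ_self (m + 1))))
  have h1 : F.eval 1 ∈ Ideal.span {(p : S)} := by
    have : F.eval 1 = - ∑ i ∈ Finset.range (m + 1), c i := by
      rw [hF, hg]
      simp [eval_finsetSum]
    rw [this]
    exact neg_mem (sum_mem (fun i _ => hcI i))
  have h2 : F.derivative.eval 1 - 1 ∈ Ideal.span {(p : S)} := by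
    have : F.derivative.eval 1 - 1 =
        - ∑ i ∈ Finset.range (m + 1), c i * ((m - i : ℕ) : S) := by
      rw [hF, hg]
      simp only [derivative_sub, derivative_add, derivative_X_pow, derivative_sum,
        derivative_C_mul_X_pow, eval_sub, eval_add, eval_finsetSum, eval_mul, eval_C, eval_pow,
        eval_X, one_pow, mul_one]
      push_cast
      ring
    rw [this]
    exact neg_mem (sum_mem (fun i _ => Ideal.mul_mem_right _ _ (hcI i)))
  have h2' : IsUnit (Ideal.Quotient.mk (Ideal.span {(p : S)}) (F.derivative.eval 1)) := by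
    rw [(Ideal.Quotient.eq).2 h2, map_one]
    exact isUnit_one
  obtain ⟨V, hV, hV1⟩ := hens.is_henselian F hFm 1 h1 h2'
  have hVu : IsUnit V := by
    have := isLocalHom_of_le_jacobson_bot (Ideal.span {(p : S)})
      (IsAdicComplete.le_jacobson_bot _)
    apply IsUnit.of_map (Ideal.Quotient.mk (Ideal.span {(p : S)}))
    rw [(Ideal.Quotient.eq).2 hV1, map_one]
    exact isUnit_one
  obtain ⟨W, hW⟩ := hVu.exists_right_inv
  have hVW : ∀ a b : ℕ, V ^ a * W ^ (a + b) = W ^ b := by
    intro a b
    rw [pow_add, ← mul_assoc, ← mul_pow, hW, one_pow, one_mul]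
  have h3 : V ^ (m + 2) = V ^ (m + 1) + ∑ i ∈ Finset.range (m + 1), c i * V ^ (m - i) := by
    have h4 : F.eval V = 0 := hV
    rw [hF, hg] at h4
    simp only [eval_sub, eval_add, eval_finsetSum, eval_mul, eval_C, eval_pow, eval_X] at h4
    exact sub_eq_zero.1 h4
  have h4 : 1 = W + ∑ i ∈ Finset.range (m + 1), c i * W ^ (i + 2) := by
    have h5 := congrArg (fun z => z * W ^ (m + 2)) h3
    simp only [add_mul, Finset.sum_mul] at h5
    have e1 : V ^ (m + 2) * W ^ (m + 2) = 1 := by rw [← mul_pow, hW, one_pow]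
    have e2 : V ^ (m + 1) * W ^ (m + 2) = W := by
      have := hVW (m + 1) 1
      rwa [pow_one] at this
    rw [e1, e2] at h5
    rw [h5]
    congr 1
    refine Finset.sum_congr rfl (fun i hi => ?_)
    have hi' : i ≤ m := by have := Finset.mem_range.1 hi; omega
    have e3 := hVW (m - i) (i + 2)
    rw [show m - i + (i + 2) = m + 2 by omega] at e3
    rw [mul_assoc, e3]
  refine ⟨x * W, ?_⟩
  have h5 : (1 + (p : S) ^ 2 * (x * W)) ^ p =
      1 + (p : S) ^ 3 * x * (W + ∑ i ∈ Finset.range (m + 1), c i * W ^ (i + 2)) := by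
    rw [add_comm 1, add_pow]
    have e4 : p + 1 = (m + 1) + 1 + 1 := by omega
    rw [e4, Finset.sum_range_succ', Finset.sum_range_succ']
    simp only [one_pow, mul_one, pow_zero, Nat.choose_zero_right, Nat.cast_one, zero_add, pow_one,
      Nat.choose_one_right]
    rw [mul_add, Finset.mul_sum]
    have e5 : ∀ i ∈ Finset.range (m + 1), (↑p ^ 2 * (x * W)) ^ (i + 1 + 1) *
        (p.choose (i + 1 + 1) : S) = ↑p ^ 3 * x * (c i * W ^ (i + 2)) := by
      intro i _
      rw [hc]
      simp only
      ring
    rw [Finset.sum_congr rfl e5]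
    ring
  rw [h5, ← h4, mul_one]

/-- `p`-th roots of elements close to one in an integral extension of a complete ring -/
lemma exists_root_integral {B : Type u} {Om : Type v} [CommRing B] [CommRing Om] [Algebra B Om]
    (h : PiComplete B (p : B)) (x : Om) (hx : IsIntegral B x) :
    ∃ u : Om, IsIntegral B u ∧ (1 + (p : Om) ^ 2 * u) ^ p = 1 + (p : Om) ^ 3 * x := by
  obtain ⟨g, hg, hgx⟩ := hx
  let b := (AdjoinRoot.powerBasis' hg).basis
  have h1 : PiComplete (AdjoinRoot g) (p : AdjoinRoot g) := by
    have h2 := h.of_basis b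
    rwa [map_natCast] at h2
  obtain ⟨u, hu⟩ := exists_root_of_complete h1 (AdjoinRoot.root g)
  let φ : AdjoinRoot g →ₐ[B] Om := AdjoinRoot.liftAlgHom g (Algebra.ofId B Om) x hgx
  refine ⟨φ u, ?_, ?_⟩
  · have hfin : Module.Finite B (AdjoinRoot g) := Module.Finite.of_basis b
    exact (Algebra.IsIntegral.isIntegral (R := B) u).map φ
  · have h3 := congrArg φ hu
    simp only [map_pow, map_add, map_one, map_mul, map_natCast] at h3
    rw [h3]
    congr 2
    exact AdjoinRoot.liftAlgHom_root _ _ _ _

end root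

end P025H440
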