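import Vale.Agent.P025.R2.H440.M2
import Vale.Agent.P025.R2.H440.M2Hens

/-! # Fixed vertices: integral closures of complete rings -/

open Polynomial Filter Topology

namespace P025H440

open P025H641

universe u v w z

section ball

variable {A : Type z} [NormedCommRing A] [NormMulClass A] [NormOneClass A] [IsUltrametricDist A]

/-- the unit ball -/
def unitBall (A : Type z) [NormedCommRing A] [NormMulClass A] [NormOneClass A]
    [IsUltrametricDist A] : Subring A where
  carrier := {f | ‖f‖ ≤ 1}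
  mul_mem' := by
    intro a b ha hb
    show ‖a * b‖ ≤ 1
    rw [norm_mul]
    exact mul_le_one₀ ha (norm_nonneg _) hb
  one_mem' := by show ‖(1 : A)‖ ≤ 1; rw [norm_one]
  add_mem' := by
    intro a b ha hb
    exact (IsUltrametricDist.norm_add_le_max a b).trans (max_le ha hb)
  zero_mem' := by show ‖(0 : A)‖ ≤ 1; rw [norm_zero]; exact zero_le_one
  neg_mem' := by
    intro a ha
    show ‖-a‖ ≤ 1
    rw [norm_neg]
    exact ha

lemma mem_unitBall (f : A) : f ∈ unitBall A ↔ ‖f‖ ≤ 1 := Iff.rfl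

/-- integral elements have norm at most one -/
lemma norm_le_one_of_integral (x : A) (hx : IsIntegral (unitBall A) x) : ‖x‖ ≤ 1 := by
  by_contra hcon
  push Not at hcon
  obtain ⟨P, hP, hPx⟩ := hx
  have h1 : eval₂ (algebraMap (unitBall A) A) x P = 0 := hPx
  rw [hP.as_sum, eval₂_add, eval₂_X_pow, eval₂_finsetSum, add_comm] at h1
  have hx0 : 0 < ‖x‖ := zero_lt_one.trans hcon
  have h2 : ‖x‖ ^ P.natDegree ≤ ‖x‖ ^ P.natDegree / ‖x‖ := by
    have h3 : x ^ P.natDegree = -∑ i ∈ Finset.range P.natDegree,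
        eval₂ (algebraMap (unitBall A) A) x (C (P.coeff i) * X ^ i) :=
      eq_neg_of_add_eq_zero_right h1
    have h3' : ‖x‖ ^ P.natDegree = ‖∑ i ∈ Finset.range P.natDegree,
        eval₂ (algebraMap (unitBall A) A) x (C (P.coeff i) * X ^ i)‖ := by
      rw [← norm_pow, h3, norm_neg]
    refine h3'.le.trans ?_
    refine IsUltrametricDist.norm_sum_le_of_forall_le_of_nonneg (by positivity) (fun i hi => ?_)
    rw [eval₂_mul, eval₂_C, eval₂_X_pow, norm_mul, norm_pow]
    have h4 : ‖(algebraMap (unitBall A) A) (P.coeff i)‖ ≤ 1 := (P.coeff i).2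
    have h5 : i + 1 ≤ P.natDegree := Finset.mem_range.1 hi
    have h6 : ‖x‖ ^ (i + 1) ≤ ‖x‖ ^ P.natDegree := pow_le_pow_right₀ hcon.le h5
    rw [le_div_iff₀ hx0]
    calc ‖(algebraMap (unitBall A) A) (P.coeff i)‖ * ‖x‖ ^ i * ‖x‖
        ≤ 1 * ‖x‖ ^ i * ‖x‖ := by gcongr
      _ = ‖x‖ ^ (i + 1) := by rw [one_mul, pow_succ]
      _ ≤ _ := h6
  rw [le_div_iff₀ hx0] at h2
  have h7 : 0 < ‖x‖ ^ P.natDegree := pow_pos hx0 _
  nlinarith

/-- the unit ball is complete -/
lemma piComplete_unitBall [CompleteSpace A] (π π' : A) (hπ : π * π' = 1) (hlt : ‖π‖ < 1) :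
    PiComplete (unitBall A) (⟨π, hlt.le⟩ : unitBall A) := by
  have hπ0 : 0 < ‖π‖ := by
    rw [norm_pos_iff]
    rintro rfl
    rw [zero_mul] at hπ
    have : ‖(1 : A)‖ = 0 := by rw [← hπ, norm_zero]
    rw [norm_one] at this
    exact one_ne_zero this
  have hπ' : ‖π'‖ = ‖π‖⁻¹ := by
    have h1 := congrArg norm hπ
    rw [norm_mul, norm_one] at h1
    exact eq_inv_of_mul_eq_one_right h1
  have key : ∀ (n : ℕ) (x : unitBall A), (⟨π, hlt.le⟩ : unitBall A) ^ n ∣ x ↔
      ‖(x : A)‖ ≤ ‖π‖ ^ n := by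
    intro n x
    constructor
    · rintro ⟨y, rfl⟩
      have h1 : (((⟨π, hlt.le⟩ : unitBall A) ^ n * y : unitBall A) : A) = π ^ n * (y : A) := rfl
      rw [h1, norm_mul, norm_pow]
      exact mul_le_of_le_one_right (pow_nonneg (norm_nonneg _) _) y.2
    · intro hx
      refine ⟨⟨π' ^ n * (x : A), ?_⟩, ?_⟩
      · show ‖π' ^ n * (x : A)‖ ≤ 1
        rw [norm_mul, norm_pow, hπ', inv_pow, inv_mul_le_iff₀ (pow_pos hπ0 n), mul_one]
        exact hx
      · apply Subtype.ext
        show (x : A) = π ^ n * (π' ^ n * (x : A))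
        rw [← mul_assoc, ← mul_pow, hπ, one_pow, one_mul]
  constructor
  · intro x hx
    have h1 : ‖(x : A)‖ ≤ 0 := by
      refine ge_of_tendsto' (tendsto_pow_atTop_nhds_zero_of_lt_one (norm_nonneg π) hlt)
        (fun n => (key n x).1 (hx n))
    apply Subtype.ext
    exact norm_le_zero_iff.1 h1
  · intro f hf
    have h1 : ∀ n, ‖((f (n + 1) : unitBall A) : A) - (f n : A)‖ ≤ ‖π‖ ^ n := fun n =>
      (key n _).1 (hf n)
    have h2 : ∀ n m, ‖((f (n + m) : unitBall A) : A) - (f n : A)‖ ≤ ‖π‖ ^ n := by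
      intro n m
      induction m with
      | zero =>
        rw [add_zero, sub_self, norm_zero]
        positivity
      | succ m ih =>
        have h3 : ((f (n + (m + 1)) : unitBall A) : A) - (f n : A) =
            (((f (n + m + 1) : unitBall A) : A) - (f (n + m) : A)) +
              (((f (n + m) : unitBall A) : A) - (f n : A)) := by
          rw [← add_assoc]; ring
        rw [h3]
        refine (IsUltrametricDist.norm_add_le_max _ _).trans (max_le ((h1 _).trans ?_) ih)
        exact pow_le_pow_of_le_one (norm_nonneg _) hlt.le (Nat.le_add_right n m)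
    have hC : CauchySeq (fun n => ((f n : unitBall A) : A)) := by
      refine cauchySeq_of_le_tendsto_0 (fun n => ‖π‖ ^ n) ?_
        (tendsto_pow_atTop_nhds_zero_of_lt_one (norm_nonneg π) hlt)
      intro n m N hn hm
      obtain ⟨a, rfl⟩ := Nat.exists_eq_add_of_le hn
      obtain ⟨b, rfl⟩ := Nat.exists_eq_add_of_le hm
      rw [dist_eq_norm]
      have h3 : ((f (N + a) : unitBall A) : A) - (f (N + b) : A) =
          (((f (N + a) : unitBall A) : A) - (f N : A)) -
            (((f (N + b) : unitBall A) : A) - (f N : A)) := by ring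
      rw [h3]
      rw [sub_eq_add_neg]
      refine (IsUltrametricDist.norm_add_le_max _ _).trans (max_le (h2 N a) ?_)
      rw [norm_neg]
      exact h2 N b
    obtain ⟨L, hL⟩ := cauchySeq_tendsto_of_complete hC
    have hLn : ∀ n, ‖L - (f n : A)‖ ≤ ‖π‖ ^ n := by
      intro n
      have h3 : Tendsto (fun m => ((f (n + m) : unitBall A) : A) - (f n : A)) atTop
          (𝓝 (L - (f n : A))) :=
        ((hL.comp (tendsto_add_atTop_nat n)).congr (fun m => by
          rw [Function.comp_apply, add_comm])).sub_const _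
      exact le_of_tendsto' h3.norm (fun m => h2 n m)
    have hL1 : ‖L‖ ≤ 1 := by
      have h3 := hLn 0
      rw [pow_zero] at h3
      have h4 : L = (L - (f 0 : A)) + (f 0 : A) := by ring
      rw [h4]
      exact (IsUltrametricDist.norm_add_le_max _ _).trans (max_le h3 (f 0).2)
    refine ⟨⟨L, hL1⟩, fun n => (key n _).2 ?_⟩
    show ‖(f n : A) - L‖ ≤ _
    rw [norm_sub_rev]
    exact hLn n

/-- integral elements become integral over the unit ball after scaling -/
lemma exists_scale {Om : Type w} [CommRing Om] [Algebra A Om] (π π' : A)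
    (hπ : π * π' = 1) (hlt : ‖π‖ < 1) (x : Om) (hx : IsIntegral A x) :
    ∃ N : ℕ, IsIntegral (unitBall A) (algebraMap A Om π ^ N * x) := by
  have hπ0 : 0 < ‖π‖ := by
    rw [norm_pos_iff]
    rintro rfl
    rw [zero_mul] at hπ
    have : ‖(1 : A)‖ = 0 := by rw [← hπ, norm_zero]
    rw [norm_one] at this
    exact one_ne_zero this
  obtain ⟨P, hP, hPx⟩ := hx
  -- a bound for the coefficients
  obtain ⟨N, hN⟩ : ∃ N : ℕ, ∀ i, ‖P.coeff i‖ * ‖π‖ ^ N ≤ 1 := by
    have h1 : ∃ B : ℝ, ∀ i, ‖P.coeff i‖ ≤ B := by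
      refine ⟨∑ i ∈ P.support, ‖P.coeff i‖, fun i => ?_⟩
      by_cases hi : i ∈ P.support
      · exact Finset.single_le_sum (f := fun i => ‖P.coeff i‖) (fun _ _ => norm_nonneg _) hi
      · rw [notMem_support_iff.1 hi, norm_zero]
        exact Finset.sum_nonneg (fun _ _ => norm_nonneg _)
    obtain ⟨B, hB⟩ := h1
    have hB0 : 0 ≤ B := (norm_nonneg _).trans (hB 0)
    obtain ⟨N, hN⟩ := exists_pow_lt_of_lt_one (inv_pos.2 (by linarith : (0 : ℝ) < B + 1)) hlt
    refine ⟨N, fun i => ?_⟩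
    calc ‖P.coeff i‖ * ‖π‖ ^ N ≤ (B + 1) * (B + 1)⁻¹ := by
          refine mul_le_mul ((hB i).trans (by linarith)) hN.le (by positivity) (by positivity)
      _ = 1 := mul_inv_cancel₀ (by positivity)
  refine ⟨N, ?_⟩
  set d := P.natDegree with hd
  -- the scaled polynomial
  let Q : (unitBall A)[X] := X ^ d + ∑ i ∈ Finset.range d,
    C (⟨P.coeff i * π ^ N * π ^ (N * (d - 1 - i)), by
      show ‖P.coeff i * π ^ N * π ^ (N * (d - 1 - i))‖ ≤ 1
      rw [norm_mul, norm_mul, norm_pow, norm_pow]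
      exact mul_le_one₀ (hN i) (by positivity) (pow_le_one₀ (norm_nonneg _) hlt.le)⟩ :
        unitBall A) * X ^ i
  have hQ : Q.Monic := by
    apply monic_X_pow_add
    refine (degree_sum_le _ _).trans_lt ?_
    rw [Finset.sup_lt_iff (by exact_mod_cast WithBot.bot_lt_coe d)]
    intro i hi
    refine (degree_C_mul_X_pow_le _ _).trans_lt ?_
    exact_mod_cast Finset.mem_range.1 hi
  refine ⟨Q, hQ, ?_⟩
  set c := algebraMap A Om π with hc
  have hbase : ∀ b : unitBall A, algebraMap (unitBall A) Om b = algebraMap A Om (b : A) :=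
    fun b => IsScalarTower.algebraMap_apply (unitBall A) A Om b
  have h1 : eval₂ (algebraMap A Om) x P = 0 := hPx
  rw [hP.as_sum, eval₂_add, eval₂_X_pow, eval₂_finsetSum] at h1
  have h2 : eval₂ (algebraMap (unitBall A) Om) (c ^ N * x) Q = c ^ (N * d) *
      (x ^ d + ∑ i ∈ Finset.range d, eval₂ (algebraMap A Om) x (C (P.coeff i) * X ^ i)) := by
    show eval₂ _ _ (X ^ d + ∑ i ∈ Finset.range d, _) = _
    rw [eval₂_add, eval₂_X_pow, eval₂_finsetSum, mul_add, mul_pow, ← pow_mul, Finset.mul_sum]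
    congr 1
    refine Finset.sum_congr rfl (fun i hi => ?_)
    have hi' : i < d := Finset.mem_range.1 hi
    rw [eval₂_mul, eval₂_C, eval₂_X_pow, eval₂_mul, eval₂_C, eval₂_X_pow, hbase]
    simp only [map_mul, map_pow, ← hc]
    have e1 : N * d = N + N * (d - 1 - i) + N * i := by
      have : d = 1 + (d - 1 - i) + i := by omega
      conv_lhs => rw [this]
      ring
    rw [e1, pow_add, pow_add, mul_pow, ← pow_mul]
    ring
  rw [h2, h1, mul_zero]

end ball

end P025H440
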