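import Vale.Agent.P025.R2.H440.VFix

/-!
# Partial characters from a fixed `V`-vertex of the tree: the end
-/

set_option linter.unusedSectionVars false

open scoped TensorProduct
open Polynomial

namespace P025H440

open P025H720 P025H544 P025H373 P025H641 P025H855

universe u v w x

section

variable {C : Type u} {kb : Type v} {N : Type w}
  [Field kb] [IsAlgClosed kb]
  [NontriviallyNormedField C] [IsUltrametricDist C] [CompleteSpace C] [IsAlgClosed C] [CharZero C]
  [Field N] [Algebra kb C] [Algebra kb N] [TrdegOne kb N]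
  {T : N} [Fact (Transcendental kb T)]

/-- (A2.2) at `v`: elements which are units over `A1` are `q`-th powers -/
def DivV (q : ℕ) (v : VT C kb N T) : Prop :=
  ∀ x x' : OmV v, x * x' = 1 → (iA1 v).IsIntegralElem x → (iA1 v).IsIntegralElem x' →
    ∃ y, y ^ q = x

variable (v : VT C kb N T)

lemma iA1_const (c : C) : iA1 v (algebraMap C (A1 C) c) =
    iF1 v (algebraMap (RatFunc C) (F1 C) (RatFunc.C c)) := by
  show iF1 v (iA1F1 C (algebraMap C (A1 C) c)) = _
  congr 1

lemma iK_mem_range (c : kb) : iK v c ∈ (iA1 v).range :=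
  ⟨algebraMap C (A1 C) (algebraMap kb C c), iA1_const v _⟩

lemma iN_T_mem_range : iN v T ∈ (iA1 v).range := by
  refine ⟨⟨tt C, Subalgebra.le_topologicalClosure _ (Algebra.subset_adjoin rfl)⟩, ?_⟩
  rw [iN_T]
  show iF1 v (iA1F1 C ⟨tt C, _⟩) = _
  congr 1

lemma iN_adjoin_mem_range (c : N) (hc : c ∈ Algebra.adjoin kb {T}) :
    iN v c ∈ (iA1 v).range := by
  induction hc using Algebra.adjoin_induction with
  | mem x hx =>
    rw [Set.mem_singleton_iff] at hx
    rw [hx]
    exact iN_T_mem_range v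
  | algebraMap c => rw [iN_const]; exact iK_mem_range v c
  | add a b _ _ ha hb => rw [map_add]; exact add_mem ha hb
  | mul a b _ _ ha hb => rw [map_mul]; exact mul_mem ha hb

/-- integral elements of `N` are integral in the residue field -/
lemma integralElem_of_adjoin (f : N) (hf : IsIntegral (Algebra.adjoin kb {T}) f) :
    (iA1 v).IsIntegralElem (iN v f) := by
  obtain ⟨P, hP, hPf⟩ := hf
  set φ : Algebra.adjoin kb {T} →+* OmV v :=
    (iN v).comp (algebraMap (Algebra.adjoin kb {T}) N) with hφ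
  have h1 : P.map φ ∈ Polynomial.lifts (iA1 v) := by
    rw [Polynomial.lifts_iff_coeff_lifts]
    intro n
    rw [coeff_map]
    exact iN_adjoin_mem_range v _ (P.coeff n).2
  obtain ⟨Q, hQ, -, hQm⟩ := Polynomial.lifts_and_natDegree_eq_and_monic h1 (hP.map φ)
  refine ⟨Q, hQm, ?_⟩
  rw [← eval_map, hQ, eval_map, hφ, ← hom_eval₂, hPf, map_zero]

/-- elements without poles outside the poles of `T` are integral -/
lemma integral_of_valuation (f : N) (hf : ∀ V : ValuationSubring N,
    (∀ c : kb, algebraMap kb N c ∈ V) → T ∈ V → f ∈ V) :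
    IsIntegral (Algebra.adjoin kb {T}) f := by
  set s : Set N := Set.range (algebraMap kb N) ∪ {T} with hs
  have h1 : f ∈ (⨅ V : {V : ValuationSubring N // s ⊆ V.toSubring}, V.1.toSubring) := by
    rw [Subring.mem_iInf]
    rintro ⟨V, hV⟩
    exact hf V (fun c => hV (Or.inl ⟨c, rfl⟩)) (hV (Or.inr rfl))
  rw [iInf_valuationSubring_superset] at h1
  have h2 : IsIntegral (Subring.closure s) f := h1
  have hle : Subring.closure s ≤ (Algebra.adjoin kb {T}).toSubring := by
    rw [Subring.closure_le]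
    rintro x (⟨c, rfl⟩ | hx)
    · exact (Algebra.adjoin kb {T}).algebraMap_mem c
    · rw [Set.mem_singleton_iff] at hx
      rw [hx]
      exact Algebra.subset_adjoin rfl
  let ι : Subring.closure s →+* Algebra.adjoin kb {T} := Subring.inclusion hle
  have h3 : ((algebraMap (Algebra.adjoin kb {T}) N).comp ι).IsIntegralElem f := h2
  obtain ⟨P, hP, hPf⟩ := h3
  exact ⟨P.map ι, hP.map ι, by rw [eval₂_map]; exact hPf⟩

end

section main

variable {p : ℕ} [Fact p.Prime] {k : Type x} [Field k] {C : Type u} {kb : Type v} {N : Type w}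
  [Field kb] [IsAlgClosed kb] [Algebra k kb] [IsGalois k kb]
  [NontriviallyNormedField C] [IsUltrametricDist C] [CompleteSpace C] [IsAlgClosed C] [CharZero C]
  [Field N] [Algebra kb C] [Algebra kb N] [TrdegOne kb N]
  [MulSemiringAction Gal(kb/k) C] [MulSemiringAction Gal(kb/k) N]
  [NormAct Gal(kb/k) C] [OpenStab Gal(kb/k) N] [Equi Gal(kb/k) kb C] [Equi Gal(kb/k) kb N]
  {T : N} [Fact (Transcendental kb T)] [FixedT Gal(kb/k) T]
  (v : VT C kb N T) (hv : ∀ g : Gal(kb/k), g • v = v)

noncomputable local instance algK : Algebra kb (OmV v) := (iK v).toAlgebra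

noncomputable local instance algA : Algebra (A1 C) (OmV v) := (iA1 v).toAlgebra

omit [FixedT Gal(kb/k) T] in
/-- the action on `A1` -/
lemma exists_homA (g : Gal(kb/k)) : ∃ φ : A1 C →+* A1 C, ∀ f : A1 C, g • iA1F1 C f =
    iA1F1 C (φ f) := by
  refine ⟨{ toFun := fun f => ⟨g • (f : F0 C), smul_mem_A1 g f.2⟩
            map_one' := Subtype.ext (smul_one g)
            map_mul' := fun a b => Subtype.ext (smul_mul' g (a : F0 C) b)
            map_zero' := Subtype.ext (smul_zero g)
            map_add' := fun a b => Subtype.ext (smul_add g (a : F0 C) b) }, fun f => ?_⟩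
  rfl

lemma integral_rhoV (g : Gal(kb/k)) (x : OmV v) (hx : IsIntegral (A1 C) x) :
    IsIntegral (A1 C) (rhoV v hv g x) := by
  obtain ⟨φ, hφ⟩ := exists_homA (C := C) (kb := kb) g
  obtain ⟨P, hP, hPx⟩ := hx
  refine ⟨P.map φ, hP.map φ, ?_⟩
  have h1 := congrArg (rhoV v hv g) hPx
  rw [map_zero] at h1
  rw [eval₂_map, ← h1]
  have h2 : (algebraMap (A1 C) (OmV v)).comp φ =
      ((rhoV v hv g : OmV v ≃+* OmV v) : OmV v →+* OmV v).comp (algebraMap (A1 C) (OmV v)) := by
    ext f
    show iF1 v (iA1F1 C (φ f)) = rhoV v hv g (iF1 v (iA1F1 C f))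
    rw [rhoV_F1, hφ]
  rw [h2]
  exact (Polynomial.hom_eval₂ P (algebraMap (A1 C) (OmV v))
    ((rhoV v hv g : OmV v ≃+* OmV v) : OmV v →+* OmV v) x).symm

/-- the structure on the residue field of a fixed vertex -/
noncomputable def unitActV {ζ : k} (hζ : IsPrimitiveRoot ζ p) (hdiv : DivV p v) :
    UnitAct p k kb (OmV v) where
  rho := rhoV v hv
  const σ c := rhoV_K v hv σ c
  R := (integralClosure (A1 C) (OmV v)).toSubring
  R_const c := by
    obtain ⟨f, hf⟩ := iK_mem_range v c
    show IsIntegral (A1 C) (iK v c)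
    rw [← hf]
    exact isIntegral_algebraMap
  R_root x hx := IsIntegral.of_pow (Fact.out : p.Prime).pos hx
  R_stab σ x hx := integral_rhoV v hv σ x hx
  R_pow x hx h1 h2 := hdiv x x⁻¹ (mul_inv_cancel₀ hx) h1 h2
  cont x hx := cont_V v hv (Fact.out : p.Prime).pos
    (hζ.map_of_injective (algebraMap k kb).injective) x hx

/-- **Partial characters from a fixed `V`-vertex.** -/
theorem exists_partChar (hv : ∀ g : Gal(kb/k), g • v = v) [Algebra ℚ_[p] k]
    [FiniteDimensional ℚ_[p] k] [Algebra k N] [IsScalarTower k kb N] {ζ : k} (hζ : IsPrimitiveRoot ζ p) (hdiv : DivV p v) (S : Finset N)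
    (hfix : ∀ f ∈ S, ∀ g : Gal(kb/k), g • f = f)
    (hint : ∀ f ∈ S, f ≠ 0 → IsIntegral (Algebra.adjoin kb {T}) f ∧
      IsIntegral (Algebra.adjoin kb {T}) f⁻¹) : ∃ χ : N → Cl p k, PartChar p k S χ := by
  refine ⟨_, (unitActV v hv hζ hdiv).partChar hζ (iN v) (fun c => ?_) S (fun f hf hf0 => ?_)⟩
  · rw [IsScalarTower.algebraMap_apply k kb N, iN_const]
    rfl
  · refine ⟨(_root_.map_ne_zero _).2 hf0, integralElem_of_adjoin v f (hint f hf hf0).1, ?_,
      fun σ => ?_⟩
    · rw [← map_inv₀]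
      exact integralElem_of_adjoin v f⁻¹ (hint f hf hf0).2
    · show rhoV v hv σ (iN v f) = iN v f
      rw [rhoV_N, hfix f hf]

/-- the same with valuation rings -/
theorem exists_partChar' (hv : ∀ g : Gal(kb/k), g • v = v) [Algebra ℚ_[p] k]
    [FiniteDimensional ℚ_[p] k] [Algebra k N] [IsScalarTower k kb N] {ζ : k} (hζ : IsPrimitiveRoot ζ p) (hdiv : DivV p v) (S : Finset N)
    (hfix : ∀ f ∈ S, ∀ g : Gal(kb/k), g • f = f)
    (hint : ∀ f ∈ S, f ≠ 0 → ∀ V : ValuationSubring N, (∀ c : kb, algebraMap kb N c ∈ V) →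
      T ∈ V → f ∈ V ∧ f⁻¹ ∈ V) : ∃ χ : N → Cl p k, PartChar p k S χ :=
  exists_partChar v hv hζ hdiv S hfix (fun f hf hf0 =>
    ⟨integral_of_valuation f (fun V h1 h2 => (hint f hf hf0 V h1 h2).1),
      integral_of_valuation f⁻¹ (fun V h1 h2 => (hint f hf hf0 V h1 h2).2)⟩)

end main

end P025H440
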