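import Mathlib

/-! # Group actions on quotients by stable ideals -/

namespace P025H440

universe u v

variable {G : Type u} [Group G] {R : Type v} [CommRing R] [MulSemiringAction G R] (I : Ideal R)
  (hI : ∀ (g : G) (x : R), x ∈ I → g • x ∈ I)

/-- the homomorphism of the quotient induced by `g` -/
noncomputable def quotHom (hI : ∀ (g : G) (x : R), x ∈ I → g • x ∈ I) (g : G) : R ⧸ I →+* R ⧸ I :=
  Ideal.quotientMap I (MulSemiringAction.toRingHom G R g) (by
    intro x hx
    rw [Ideal.mem_comap, MulSemiringAction.toRingHom_apply]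
    exact hI g x hx)

lemma quotHom_mk (g : G) (x : R) :
    quotHom I hI g (Ideal.Quotient.mk I x) = Ideal.Quotient.mk I (g • x) := by
  rw [quotHom, Ideal.quotientMap_mk, MulSemiringAction.toRingHom_apply]

/-- the action on the quotient -/
noncomputable def quotAct (hI : ∀ (g : G) (x : R), x ∈ I → g • x ∈ I) :
    G →* (R ⧸ I ≃+* R ⧸ I) where
  toFun g :=
    { toFun := quotHom I hI g
      invFun := quotHom I hI g⁻¹
      left_inv := by
        intro x
        obtain ⟨x, rfl⟩ := Ideal.Quotient.mk_surjective x
        rw [quotHom_mk, quotHom_mk, inv_smul_smul]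
      right_inv := by
        intro x
        obtain ⟨x, rfl⟩ := Ideal.Quotient.mk_surjective x
        rw [quotHom_mk, quotHom_mk, smul_inv_smul]
      map_mul' := map_mul _
      map_add' := map_add _ }
  map_one' := by
    ext x
    obtain ⟨x, rfl⟩ := Ideal.Quotient.mk_surjective x
    show quotHom I hI 1 (Ideal.Quotient.mk I x) = _
    rw [quotHom_mk, one_smul]
    rfl
  map_mul' g h := by
    ext x
    obtain ⟨x, rfl⟩ := Ideal.Quotient.mk_surjective x
    show quotHom I hI (g * h) (Ideal.Quotient.mk I x) =
      quotHom I hI g (quotHom I hI h (Ideal.Quotient.mk I x))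
    rw [quotHom_mk, quotHom_mk, quotHom_mk, mul_smul]

lemma quotAct_mk (g : G) (x : R) :
    quotAct I hI g (Ideal.Quotient.mk I x) = Ideal.Quotient.mk I (g • x) := quotHom_mk I hI g x

end P025H440
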