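import Vale.Agent.P025.R2.H720.Tree
import Vale.Agent.P025.R2.H440.M2Chi
import Vale.Agent.P025.R2.H440.M2Cont
import Vale.Agent.P025.R2.H440.VQuot

/-!
# Partial characters from a fixed `V`-vertex of the tree
-/

set_option linter.unusedSectionVars false

open scoped TensorProduct
open Polynomial

namespace P025H440

open P025H720 P025H544 P025H373

universe u v w x

section

variable {C : Type u} {kb : Type v} {N : Type w}
  [Field kb] [IsAlgClosed kb]
  [NontriviallyNormedField C] [IsUltrametricDist C] [CompleteSpace C] [IsAlgClosed C] [CharZero C]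
  [Field N] [Algebra kb C] [Algebra kb N] [TrdegOne kb N]
  {T : N} [Fact (Transcendental kb T)]

/-- the inclusion of `A1` in `F1` -/
noncomputable def iA1F1 (C : Type u) [NontriviallyNormedField C] [IsUltrametricDist C]
    [CompleteSpace C] [IsAlgClosed C] : A1 C →+* F1 C where
  toFun f := ⟨(f : F0 C), IntermediateField.subset_adjoin _ _ f.2⟩
  map_one' := rfl
  map_mul' _ _ := rfl
  map_zero' := rfl
  map_add' _ _ := rfl

variable (v : VT C kb N T)

/-- the residue field of a `V`-vertex -/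
def OmV : Type _ := Res (RatFunc C) (F1 C) (NCT C kb N T) v

noncomputable instance : Field (OmV v) :=
  @Ideal.Quotient.field _ _ v.asIdeal ((absFlat_NCT C kb N T (F1 C)).isMaximal v.asIdeal)

/-- the residue class map -/
noncomputable def mkV : F1 C ⊗[RatFunc C] NCT C kb N T →+* OmV v := Ideal.Quotient.mk v.asIdeal

lemma mkV_surjective : Function.Surjective (mkV v) := Ideal.Quotient.mk_surjective

lemma mkV_eq_zero (z : F1 C ⊗[RatFunc C] NCT C kb N T) : mkV v z = 0 ↔ z ∈ v.asIdeal :=
  Ideal.Quotient.eq_zero_iff_mem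

/-- functions on the `V`-side -/
noncomputable def iF1 : F1 C →+* OmV v :=
  (mkV v).comp (Algebra.TensorProduct.includeLeft : F1 C →ₐ[RatFunc C]
    F1 C ⊗[RatFunc C] NCT C kb N T).toRingHom

lemma iF1_apply (f : F1 C) : iF1 v f = mkV v (f ⊗ₜ[RatFunc C] (1 : NCT C kb N T)) := rfl

/-- functions on the closed disc -/
noncomputable def iA1 : A1 C →+* OmV v := (iF1 v).comp (iA1F1 C)

/-- elements of `NCT` in the residue field -/
noncomputable def iNCT : NCT C kb N T →+* OmV v :=
  (mkV v).comp (Algebra.TensorProduct.includeRight : NCT C kb N T →ₐ[RatFunc C]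
    F1 C ⊗[RatFunc C] NCT C kb N T).toRingHom

lemma iNCT_apply (n : NCT C kb N T) : iNCT v n = mkV v ((1 : F1 C) ⊗ₜ[RatFunc C] n) := rfl

/-- elements of `N` in the residue field -/
noncomputable def iN : N →+* OmV v := (iNCT v).comp (algebraMap N (NCT C kb N T))

lemma iN_apply (n : N) : iN v n = iNCT v (algebraMap N (NCT C kb N T) n) := rfl

lemma iNCT_rat (r : RatFunc C) :
    iNCT v (algebraMap (RatFunc C) (NCT C kb N T) r) = iF1 v (algebraMap (RatFunc C) (F1 C) r) := by
  rw [iNCT_apply, iF1_apply]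
  congr 1
  rw [Algebra.algebraMap_eq_smul_one, Algebra.algebraMap_eq_smul_one, TensorProduct.smul_tmul]

/-- constants -/
noncomputable def iK : kb →+* OmV v :=
  (iF1 v).comp ((algebraMap (RatFunc C) (F1 C)).comp ((RatFunc.C).comp (algebraMap kb C)))

lemma iK_apply (c : kb) : iK v c = iF1 v (algebraMap (RatFunc C) (F1 C)
      (RatFunc.C (algebraMap kb C c))) := rfl

lemma iN_const (c : kb) : iN v (algebraMap kb N c) = iK v c := by
  rw [iK_apply, ← iNCT_rat, iN_apply, algebraMap_T_C, ← IsScalarTower.algebraMap_apply,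
    ← IsScalarTower.algebraMap_apply]

lemma iN_T : iN v T = iF1 v (algebraMap (RatFunc C) (F1 C) RatFunc.X) := by
  rw [← iNCT_rat, iN_apply, algebraMap_T_X]

end

section action

variable {G : Type x} [Group G] [TopologicalSpace G] [IsTopologicalGroup G]
  {C : Type u} {kb : Type v} {N : Type w}
  [Field kb] [IsAlgClosed kb]
  [NontriviallyNormedField C] [IsUltrametricDist C] [CompleteSpace C] [IsAlgClosed C] [CharZero C]
  [Field N] [Algebra kb C] [Algebra kb N] [TrdegOne kb N]
  [MulSemiringAction G kb] [MulSemiringAction G C] [MulSemiringAction G N]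
  [NormAct G C] [OpenStab G N] [Equi G kb C] [Equi G kb N]
  {T : N} [Fact (Transcendental kb T)] [FixedT G T]
  (v : VT C kb N T)

/-- shortcut -/
noncomputable local instance (priority := 5000) smulT :
    SMul G (F1 C ⊗[RatFunc C] NCT C kb N T) :=
  ((inferInstance : MulSemiringAction G
    (F1 C ⊗[RatFunc C] NCT C kb N T)).toDistribMulAction).toDistribSMul.toSMulZeroClass.toSMul

lemma smul_mem_ideal (hv : ∀ g : G, g • v = v) (g : G)
    (z : F1 C ⊗[RatFunc C] NCT C kb N T) (hz : z ∈ v.asIdeal) : g • z ∈ v.asIdeal := by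
  have h := (smul_mem_smul_pt g v z).2 hz
  rwa [hv g] at h

/-- the action on the residue field of a fixed vertex -/
noncomputable def rhoV (hv : ∀ g : G, g • v = v) : G →* (OmV v ≃+* OmV v) :=
  quotAct v.asIdeal (smul_mem_ideal v hv)

variable (hv : ∀ g : G, g • v = v)

lemma rhoV_mk (g : G) (z : F1 C ⊗[RatFunc C] NCT C kb N T) :
    rhoV v hv g (mkV v z) = mkV v (g • z) :=
  quotAct_mk _ _ _ _

lemma rhoV_F1 (g : G) (f : F1 C) : rhoV v hv g (iF1 v f) = iF1 v (g • f) := by
  rw [iF1_apply, iF1_apply, rhoV_mk, smul_tmul_semi, smul_one]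

lemma rhoV_NCT (g : G) (n : NCT C kb N T) :
    rhoV v hv g (iNCT v n) = iNCT v (g • n) := by
  rw [iNCT_apply, iNCT_apply, rhoV_mk, smul_tmul_semi, smul_one]

lemma rhoV_N (g : G) (n : N) : rhoV v hv g (iN v n) = iN v (g • n) := by
  rw [iN_apply, iN_apply, rhoV_NCT, Equi.smul_algebraMap (G := G) (F := N)]

lemma rhoV_K (g : G) (c : kb) : rhoV v hv g (iK v c) = iK v (g • c) := by
  rw [← iN_const, rhoV_N, Equi.smul_algebraMap (G := G) (F := kb), iN_const]

lemma open_F1 (f : F1 C) (ε : ℝ) (hε : 0 < ε) :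
    ∃ U : Subgroup G, IsOpen (U : Set G) ∧ ∀ g ∈ U, ‖(g • f : F1 C) - f‖ < ε := by
  have hcont : Continuous (fun g : G => g • (f : F0 C)) := continuous_smul_F0 _
  refine ⟨{ carrier := {g | ‖g • (f : F0 C) - (f : F0 C)‖ < ε}
            mul_mem' := ?_
            one_mem' := ?_
            inv_mem' := ?_ }, ?_, fun g hg => hg⟩
  · intro g h hg hh
    show ‖(g * h) • (f : F0 C) - (f : F0 C)‖ < ε
    have e1 : (g * h) • (f : F0 C) - (f : F0 C) =
        g • (h • (f : F0 C) - (f : F0 C)) + (g • (f : F0 C) - (f : F0 C)) := by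
      rw [mul_smul, smul_sub]; ring
    rw [e1]
    refine (IsUltrametricDist.norm_add_le_max _ _).trans_lt (max_lt ?_ hg)
    rw [norm_smul_F0]
    exact hh
  · show ‖(1 : G) • (f : F0 C) - (f : F0 C)‖ < ε
    rw [one_smul, sub_self, norm_zero]
    exact hε
  · intro g hg
    show ‖g⁻¹ • (f : F0 C) - (f : F0 C)‖ < ε
    have e1 : g⁻¹ • (f : F0 C) - (f : F0 C) = g⁻¹ • ((f : F0 C) - g • (f : F0 C)) := by
      rw [smul_sub, inv_smul_smul]
    rw [e1, norm_smul_F0, norm_sub_rev]
    exact hg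
  · have h1 : IsOpen ((fun g : G => ‖g • (f : F0 C) - (f : F0 C)‖) ⁻¹' Set.Iio ε) :=
      isOpen_Iio.preimage (hcont.sub continuous_const).norm
    exact h1

noncomputable local instance algF1 : Algebra (F1 C) (OmV v) := (iF1 v).toAlgebra

lemma smul_OmV (f : F1 C) (x : OmV v) : f • x = iF1 v f * x := rfl

lemma mem_span_NCT (n : NCT C kb N T) : iNCT v n ∈ Submodule.span (F1 C)
    {θ : OmV v | ∃ U : Subgroup G, IsOpen (U : Set G) ∧ ∀ g ∈ U, rhoV v hv g θ = θ} := by
  have h1 : n ∈ Submodule.span (RatFunc C)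
      {θ : NCT C kb N T | IsOpen (MulAction.stabilizer G θ : Set G)} := by
    rw [span_openStab]
    trivial
  induction h1 using Submodule.span_induction with
  | mem θ hθ =>
    refine Submodule.subset_span ⟨MulAction.stabilizer G θ, hθ, fun g hg => ?_⟩
    rw [rhoV_NCT, MulAction.mem_stabilizer_iff.1 hg]
  | zero => rw [map_zero]; exact zero_mem _
  | add a b _ _ ha hb => rw [map_add]; exact add_mem ha hb
  | smul r a _ ha =>
    have e1 : iNCT v (r • a) = (algebraMap (RatFunc C) (F1 C) r) • iNCT v a := by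
      rw [Algebra.smul_def, map_mul, iNCT_rat, smul_OmV]
    rw [e1]
    exact Submodule.smul_mem _ _ ha

lemma span_eq_top : Submodule.span (F1 C)
    {θ : OmV v | ∃ U : Subgroup G, IsOpen (U : Set G) ∧ ∀ g ∈ U, rhoV v hv g θ = θ} = ⊤ := by
  rw [eq_top_iff]
  rintro x -
  obtain ⟨z, rfl⟩ := mkV_surjective v x
  induction z using TensorProduct.induction_on with
  | zero => rw [map_zero]; exact zero_mem _
  | add a b ha hb => rw [map_add]; exact add_mem ha hb
  | tmul f n =>
    have e1 : mkV v (f ⊗ₜ[RatFunc C] n) = f • iNCT v n := by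
      rw [smul_OmV, iF1_apply, iNCT_apply, ← map_mul, Algebra.TensorProduct.tmul_mul_tmul,
        mul_one, one_mul]
    rw [e1]
    exact Submodule.smul_mem _ _ (mem_span_NCT v hv n)

/-- roots of unity as eigenvalues -/
lemma cont_V {p : ℕ} (hp : 0 < p) {ζ : kb} (hζ : IsPrimitiveRoot ζ p) (x : OmV v) (hx : x ≠ 0) :
    ∃ U : Subgroup G, IsOpen (U : Set G) ∧
      ∀ g ∈ U, ∀ z : OmV v, z ^ p = 1 → rhoV v hv g x = z * x → z = 1 := by
  refine cont_of_span (G := G) (F := F1 C) (rhoV v hv) (fun g f => g • f)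
    (fun g f => rhoV_F1 v hv g f) (fun f ε hε => open_F1 f ε hε) (span_eq_top v hv) p hp ?_ x hx
  have : NeZero p := ⟨hp.ne'⟩
  intro z hz
  have hζ' : IsPrimitiveRoot (iK v ζ) p := hζ.map_of_injective (iK v).injective
  obtain ⟨i, -, hi⟩ := hζ'.eq_pow_of_pow_eq_one hz
  refine ⟨(algebraMap (RatFunc C) (F1 C) (RatFunc.C (algebraMap kb C ζ))) ^ i, ?_⟩
  rw [map_pow]
  exact hi

end action

end P025H440
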