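import Vale.Agent.P025.R2.H440.Defs

/-! # The zoom map: algebra -/

open Polynomial

namespace P025H440

lemma zc_zero (n : ℕ) : zc n 0 = -1 := by
  simp [zc]

lemma zc_mul (n j : ℕ) : zc n j * (2 * j - 1) = (-1) ^ j * (n.choose j : ℚ) := by
  have h : (2 * (j : ℚ) - 1) ≠ 0 := by
    intro h
    have h1 : (2 * (j : ℚ)) = 1 := by linarith
    have h2 : 2 * j = 1 := by exact_mod_cast h1
    omega
  rw [zc, div_mul_cancel₀ _ h]

/-- the differential equation of the numerator -/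
lemma zA_deriv (n : ℕ) :
    X * derivative (zA n) = (X ^ 2 - 1) ^ n + C (2 * (n : ℚ) - 1) * zA n := by
  have h1 : (X ^ 2 - 1 : ℚ[X]) ^ n =
      ∑ j ∈ Finset.range (n + 1), C ((-1) ^ j * (n.choose j : ℚ)) * X ^ (2 * n - 2 * j) := by
    rw [show (X ^ 2 - 1 : ℚ[X]) = -1 + X ^ 2 by ring, add_pow]
    refine Finset.sum_congr rfl (fun j hj => ?_)
    rw [← pow_mul, show 2 * (n - j) = 2 * n - 2 * j by omega]
    simp only [map_mul, map_pow, map_neg, map_one, map_natCast]
    ring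
  have h2 : X * derivative (zA n) =
      -∑ j ∈ Finset.range (n + 1), C (zc n j * ((2 * n - 2 * j : ℕ) : ℚ)) *
        X ^ (2 * n - 2 * j) := by
    rw [zA, derivative_neg, derivative_sum, mul_neg, Finset.mul_sum]
    congr 1
    refine Finset.sum_congr rfl (fun j hj => ?_)
    rw [derivative_C_mul_X_pow]
    rcases Nat.eq_zero_or_pos (2 * n - 2 * j) with h0 | h0
    · rw [h0]; simp
    · obtain ⟨i, hi⟩ := Nat.exists_eq_succ_of_ne_zero h0.ne'
      rw [hi]
      simp only [Nat.succ_eq_add_one, Nat.add_sub_cancel]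
      rw [pow_succ]
      ring
  rw [h2, h1, zA, mul_neg, Finset.mul_sum, ← sub_eq_add_neg, ← Finset.sum_sub_distrib,
    ← Finset.sum_neg_distrib]
  refine Finset.sum_congr rfl (fun j hj => ?_)
  have hj' : j ≤ n := by simpa [Nat.lt_succ_iff] using hj
  rw [← zc_mul n j]
  have h3 : ((2 * n - 2 * j : ℕ) : ℚ) = 2 * n - 2 * j := by
    rw [Nat.cast_sub (by omega)]; push_cast; ring
  rw [h3, ← mul_assoc, ← C_mul, ← sub_mul, ← C_sub, ← neg_mul, ← C_neg]
  congr 2
  ring

lemma zc_rec (n j : ℕ) (hj : j ≤ n + 1) :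
    2 * ((n : ℚ) + 1) * zc n j = (2 * ((n : ℚ) + 1) - 1) * zc (n + 1) j -
      (-1) ^ j * ((n + 1).choose j : ℚ) := by
  have h1 : ((n : ℚ) + 1) * (n.choose j : ℚ) = ((n : ℚ) + 1 - j) * ((n + 1).choose j : ℚ) := by
    have h2 : (n + 1) * n.choose j = (n + 1 - j) * (n + 1).choose j := by
      rw [mul_comm (n + 1 - j)]
      have := Nat.choose_mul_succ_eq n j
      rw [mul_comm]
      exact this
    have h3 : (((n + 1 - j : ℕ) : ℚ)) = (n : ℚ) + 1 - j := by
      rw [Nat.cast_sub hj]; push_cast; ring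
    have h4 : ((n : ℚ) + 1) * (n.choose j : ℚ) =
        ((n + 1 - j : ℕ) : ℚ) * ((n + 1).choose j : ℚ) := by exact_mod_cast h2
    rw [h3] at h4
    exact h4
  have h2 : (2 * (j : ℚ) - 1) ≠ 0 := by
    intro h
    have h1 : (2 * (j : ℚ)) = 1 := by linarith
    have h2 : 2 * j = 1 := by exact_mod_cast h1
    omega
  rw [zc, zc, mul_div_assoc', mul_div_assoc', div_sub' h2, div_eq_div_iff h2 h2]
  linear_combination 2 * (-1 : ℚ) ^ j * (2 * (j : ℚ) - 1) * h1

lemma zA_one_rec (n : ℕ) : (2 * ((n : ℚ) + 1) - 1) * (zA (n + 1)).eval 1 =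
    2 * ((n : ℚ) + 1) * (zA n).eval 1 := by
  have h1 : ∀ m : ℕ, (zA m).eval 1 = -∑ j ∈ Finset.range (m + 1), zc m j := by
    intro m
    rw [zA, eval_neg, eval_finsetSum]
    simp
  rw [h1, h1]
  have h2 : ∑ j ∈ Finset.range (n + 1), zc n j = ∑ j ∈ Finset.range (n + 1 + 1), zc n j := by
    rw [Finset.sum_range_succ _ (n + 1)]
    have : zc n (n + 1) = 0 := by simp [zc]
    rw [this, add_zero]
  rw [h2]
  have h3 : 2 * ((n : ℚ) + 1) * ∑ j ∈ Finset.range (n + 1 + 1), zc n j =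
      (2 * ((n : ℚ) + 1) - 1) * ∑ j ∈ Finset.range (n + 1 + 1), zc (n + 1) j -
        ∑ j ∈ Finset.range (n + 1 + 1), (-1) ^ j * ((n + 1).choose j : ℚ) := by
    rw [Finset.mul_sum, Finset.mul_sum, ← Finset.sum_sub_distrib]
    refine Finset.sum_congr rfl (fun j hj => zc_rec n j ?_)
    simpa [Nat.lt_succ_iff] using hj
  have h4 : ∑ j ∈ Finset.range (n + 1 + 1), (-1) ^ j * ((n + 1).choose j : ℚ) = 0 := by
    have h5 := Int.alternating_sum_range_choose (n := n + 1)
    rw [if_neg (by omega)] at h5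
    have h6 := congrArg (fun x : ℤ => (x : ℚ)) h5
    push_cast at h6
    exact h6
  rw [h4, sub_zero] at h3
  linarith

lemma zA_eval_one (n : ℕ) : (zA n).eval 1 = zβ n := by
  induction n with
  | zero => simp [zA, zβ, zc]
  | succ n ih =>
    have h1 := zA_one_rec n
    rw [ih] at h1
    have h2 : (2 * ((n : ℚ) + 1) - 1) ≠ 0 := by
      have : (0 : ℚ) ≤ n := Nat.cast_nonneg n
      linarith
    have h3 : (2 * ((n : ℚ) + 1) - 1) * zβ (n + 1) = 2 * ((n : ℚ) + 1) * zβ n := by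
      have h4 := Nat.succ_mul_centralBinom_succ n
      have h5 : ((n : ℚ) + 1) * ((n + 1).centralBinom : ℚ) =
          2 * (2 * n + 1) * (n.centralBinom : ℚ) := by exact_mod_cast h4
      have h6 : ((n + 1).centralBinom : ℚ) ≠ 0 := by
        exact_mod_cast (n + 1).centralBinom_ne_zero
      have h7 : (n.centralBinom : ℚ) ≠ 0 := by exact_mod_cast n.centralBinom_ne_zero
      rw [zβ, zβ, ← mul_div_assoc, ← mul_div_assoc, div_eq_div_iff h6 h7, pow_succ]
      linear_combination (-2 * 4 ^ n) * h5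
    exact mul_left_cancel₀ h2 (h1.trans h3.symm)

lemma zβ_ne_zero (n : ℕ) : zβ n ≠ 0 := by
  rw [zβ]
  exact div_ne_zero (pow_ne_zero _ (by norm_num)) (by exact_mod_cast n.centralBinom_ne_zero)

/-- the numerator minus its leading term -/
lemma zA_eq (n : ℕ) : zA n = X ^ (2 * n) -
    ∑ j ∈ Finset.range n, C (zc n (j + 1)) * X ^ (2 * n - 2 * (j + 1)) := by
  rw [zA, Finset.sum_range_succ', zc_zero]
  simp
  ring

section field

variable {F : Type*} [Field F] [CharZero F]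

lemma zP_deriv (n : ℕ) (hn : 1 ≤ n) (τ : F) :
    X * derivative (zP n τ) = (X ^ 2 - 1) ^ n + C (2 * (n : F) - 1) * zP n τ := by
  have h1 := congrArg (Polynomial.map (algebraMap ℚ F)) (zA_deriv n)
  rw [Polynomial.map_mul, map_X, ← derivative_map, Polynomial.map_add, Polynomial.map_pow,
    Polynomial.map_sub, Polynomial.map_pow, map_X, Polynomial.map_one, Polynomial.map_mul,
    map_C] at h1
  have h2 : algebraMap ℚ F (2 * (n : ℚ) - 1) = 2 * (n : F) - 1 := by
    simp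
  rw [h2] at h1
  rw [zP, derivative_sub, mul_sub, h1, derivative_C_mul_X_pow]
  obtain ⟨i, hi⟩ : ∃ i, 2 * n - 1 = i + 1 := ⟨2 * n - 2, by omega⟩
  have h3 : ((2 * n - 1 : ℕ) : F) = 2 * (n : F) - 1 := by
    rw [Nat.cast_sub (by omega)]; push_cast; ring
  rw [h3, hi, Nat.add_sub_cancel]
  simp only [map_mul, map_sub, map_one, map_natCast]
  ring

lemma zP_deriv_eval (n : ℕ) (hn : 1 ≤ n) (τ y : F) :
    y * (derivative (zP n τ)).eval y = (y ^ 2 - 1) ^ n + (2 * (n : F) - 1) * (zP n τ).eval y := by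
  have h := congrArg (eval y) (zP_deriv n hn τ)
  simpa using h

lemma zP_eval (n : ℕ) (τ y : F) :
    (zP n τ).eval y = ((zA n).map (algebraMap ℚ F)).eval y - τ * y ^ (2 * n - 1) := by
  rw [zP, eval_sub, eval_mul, eval_C, eval_pow, eval_X]

lemma zA_map_eval (n : ℕ) (y : F) : ((zA n).map (algebraMap ℚ F)).eval y =
    y ^ (2 * n) - ∑ j ∈ Finset.range n, (zc n (j + 1) : F) * y ^ (2 * n - 2 * (j + 1)) := by
  rw [zA_eq, Polynomial.map_sub, Polynomial.map_pow, map_X, eval_sub, eval_pow, eval_X,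
    Polynomial.map_sum, eval_finsetSum]
  simp

lemma natDegree_tail (n : ℕ) (hn : 1 ≤ n) (τ : F) :
    degree (-(∑ j ∈ Finset.range n, C (zc n (j + 1)) * X ^ (2 * n - 2 * (j + 1)) : ℚ[X]).map
      (algebraMap ℚ F) - C τ * X ^ (2 * n - 1)) < ((2 * n : ℕ) : WithBot ℕ) := by
  refine lt_of_le_of_lt (degree_sub_le _ _) (max_lt ?_ ?_)
  · rw [degree_neg, Polynomial.map_sum]
    refine lt_of_le_of_lt (degree_sum_le _ _) ?_
    rw [Finset.sup_lt_iff (WithBot.bot_lt_coe _)]
    intro j hj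
    have hj' : j < n := Finset.mem_range.1 hj
    rw [Polynomial.map_mul, map_C, Polynomial.map_pow, map_X]
    refine lt_of_le_of_lt (degree_C_mul_X_pow_le _ _) ?_
    exact_mod_cast (show 2 * n - 2 * (j + 1) < 2 * n by omega)
  · refine lt_of_le_of_lt (degree_C_mul_X_pow_le _ _) ?_
    exact_mod_cast (show 2 * n - 1 < 2 * n by omega)

lemma zP_eq (n : ℕ) (τ : F) : zP n τ = X ^ (2 * n) +
    (-(∑ j ∈ Finset.range n, C (zc n (j + 1)) * X ^ (2 * n - 2 * (j + 1)) : ℚ[X]).map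
      (algebraMap ℚ F) - C τ * X ^ (2 * n - 1)) := by
  rw [zP, zA_eq, Polynomial.map_sub, Polynomial.map_pow, map_X]
  ring

lemma zP_monic (n : ℕ) (hn : 1 ≤ n) (τ : F) : (zP n τ).Monic := by
  rw [zP_eq]
  exact monic_X_pow_add (natDegree_tail n hn τ)

lemma zP_natDegree (n : ℕ) (hn : 1 ≤ n) (τ : F) : (zP n τ).natDegree = 2 * n := by
  rw [zP_eq]
  refine natDegree_eq_of_degree_eq_some ?_
  rw [degree_add_eq_left_of_degree_lt, degree_X_pow]
  rw [degree_X_pow]
  exact natDegree_tail n hn τ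

lemma zP_eval_zero (n : ℕ) (hn : 1 ≤ n) (τ : F) :
    (zP n τ).eval 0 = -((-1) ^ n / (2 * (n : F) - 1)) := by
  rw [zP_eval, zA_map_eval]
  obtain ⟨i, rfl⟩ : ∃ i, n = i + 1 := ⟨n - 1, by omega⟩
  rw [Finset.sum_range_succ, Finset.sum_eq_zero]
  · have h1 : 2 * (i + 1) - 1 ≠ 0 := by omega
    have h2 : 2 * (i + 1) ≠ 0 := by omega
    rw [zero_pow h1, zero_pow h2]
    simp [zc]
  · intro j hj
    have hj' : j < i := Finset.mem_range.1 hj
    rw [zero_pow (by omega), mul_zero]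

lemma ne_zero_of_root {n : ℕ} (hn : 1 ≤ n) {τ y : F} (h : (zP n τ).eval y = 0) : y ≠ 0 := by
  rintro rfl
  rw [zP_eval_zero n hn] at h
  have h1 : (2 * (n : F) - 1) ≠ 0 := by
    intro h2
    have h3 : (2 * (n : F)) = 1 := by linear_combination h2
    have h4 : 2 * n = 1 := by exact_mod_cast h3
    omega
  rw [neg_eq_zero, div_eq_zero_iff] at h
  rcases h with h | h
  · exact pow_ne_zero n (by norm_num) h
  · exact h1 h

end field

/-- the factorization at the branch point -/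
lemma zA_factor (n : ℕ) (hn : 1 ≤ n) : ∃ g : ℚ[X], zP n (zβ n) = (X - C 1) ^ (n + 1) * g ∧
    g.eval 1 ≠ 0 := by
  set D : ℚ[X] := zP n (zβ n) with hD
  have hD0 : D ≠ 0 := (zP_monic n hn _).ne_zero
  have hroot : D.IsRoot 1 := by
    rw [IsRoot.def, hD, zP_eval, one_pow, mul_one, Polynomial.eval_one_map, zA_eval_one,
      eq_ratCast, Rat.cast_id, sub_self]
  obtain ⟨g, hg, hndvd⟩ := exists_eq_pow_rootMultiplicity_mul_and_not_dvd D hD0 1
  have hg1 : g.eval 1 ≠ 0 := by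
    intro h
    exact hndvd (dvd_iff_isRoot.2 h)
  set r := rootMultiplicity 1 D with hr
  have hr1 : 0 < r := (rootMultiplicity_pos hD0).2 hroot
  obtain ⟨i, hi⟩ : ∃ i, r = i + 1 := ⟨r - 1, by omega⟩
  rw [hi] at hg
  have h1 := zP_deriv n hn (zβ n)
  rw [← hD, hg] at h1
  have h2 : derivative ((X - C 1) ^ (i + 1) * g : ℚ[X]) =
      (X - C 1) ^ i * (C ((i : ℚ) + 1) * g + (X - C 1) * derivative g) := by
    rw [derivative_mul, derivative_X_sub_C_pow]
    simp only [Nat.add_sub_cancel, Nat.cast_add, Nat.cast_one, map_add, map_natCast, map_one]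
    ring
  rw [h2] at h1
  have h3 : (X - C 1 : ℚ[X]) ^ i * (X * (C ((i : ℚ) + 1) * g + (X - C 1) * derivative g) -
      C (2 * (n : ℚ) - 1) * (X - C 1) * g) = (X - C 1) ^ n * (X + C 1) ^ n := by
    rw [← mul_pow, show (X - C 1) * (X + C 1) = (X ^ 2 - 1 : ℚ[X]) by simp; ring]
    linear_combination h1
  have hx : (X - C 1 : ℚ[X]) ≠ 0 := X_sub_C_ne_zero 1
  have hin : i = n := by
    rcases lt_trichotomy i n with h | h | h
    · exfalso
      obtain ⟨d, rfl⟩ := Nat.exists_eq_add_of_lt h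
      rw [show i + d + 1 = i + (d + 1) by ring, pow_add (X - C 1 : ℚ[X]),
        mul_assoc ((X - C 1 : ℚ[X]) ^ i)] at h3
      have h4 := mul_left_cancel₀ (pow_ne_zero i hx) h3
      have h5 := congrArg (eval 1) h4
      simp at h5
      rcases h5 with h5 | h5
      · have : (0 : ℚ) ≤ i := Nat.cast_nonneg i
        linarith
      · exact hg1 h5
    · exact h
    · exfalso
      obtain ⟨d, rfl⟩ := Nat.exists_eq_add_of_lt h
      rw [show n + d + 1 = n + (d + 1) by ring, pow_add (X - C 1 : ℚ[X]), mul_assoc] at h3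
      have h4 := mul_left_cancel₀ (pow_ne_zero n hx) h3
      have h5 := congrArg (eval 1) h4
      simp at h5
      norm_num at h5
      exact pow_ne_zero n (two_ne_zero) h5.symm
  exact ⟨g, by rw [hg, hin], hg1⟩

end P025H440
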