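import Vale.Agent.P025.R2.H440.ZoomSmall
import Vale.Agent.P025.R2.H450.Unr
import Vale.Agent.P025.R2.H722.Near

/-! # The zoom step -/

open IntermediateField Polynomial

namespace P025H440

open P025H641 P025H450

universe u v w

lemma zP_map {F F' : Type*} [Field F] [CharZero F] [Field F'] [CharZero F'] (n : ℕ) (τ : F)
    (f : F →+* F') : (zP n τ).map f = zP n (f τ) := by
  rw [zP, zP, Polynomial.map_sub, Polynomial.map_map, Polynomial.map_mul, map_C,
    Polynomial.map_pow, map_X]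
  congr 2
  exact Subsingleton.elim _ _

lemma zPsi_map {F F' : Type*} [Field F] [CharZero F] [Field F'] [CharZero F'] (n : ℕ) (y : F)
    (f : F →+* F') : f (zPsi n y) = zPsi n (f y) := by
  rw [zPsi, zPsi, map_div₀, map_pow, ← Polynomial.eval_map_apply, Polynomial.map_map]
  congr 3
  exact Subsingleton.elim _ _

section ctx

variable {p : ℕ} [Fact p.Prime] {k : Type u} {K : Type v} [Field k] [Field K] [Algebra k K]
  [CharZero k] {s : Gal(constClosure k K/k) →* Gal(maxUnr k K/K)}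
  {G : Subgroup Gal(constClosure k K/k)} {k' : Type w} [Field k']
  [Algebra k' (maxUnr k K)] [Algebra ℚ_[p] k'] [FiniteDimensional ℚ_[p] k']
  {O : ValuationSubring (maxUnr k K)}

/-- values of constants, strict version -/
lemma Ctx.val_lt_iff (h : Ctx p s G k' O) (c d : k') :
    O.valuation (algebraMap k' (maxUnr k K) c) < O.valuation (algebraMap k' (maxUnr k K) d) ↔
      spectralNorm ℚ_[p] k' c < spectralNorm ℚ_[p] k' d := by
  rw [← not_le, ← not_le, h.val_le_iff]

omit [FiniteDimensional ℚ_[p] k'] in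
lemma norm_nat (m : ℕ) : spectralNorm ℚ_[p] k' (m : k') = ‖(m : ℚ_[p])‖ := by
  rw [← map_natCast (algebraMap ℚ_[p] k') m]
  exact spectralNorm_extends _

lemma norm_mul_pad (x y : k') : spectralNorm ℚ_[p] k' (x * y) =
    spectralNorm ℚ_[p] k' x * spectralNorm ℚ_[p] k' y := by
  let _ : NontriviallyNormedField k' := spectralNorm.nontriviallyNormedField ℚ_[p] k'
  exact norm_mul x y

/-- the valuation restricts to the `p`-adic one -/
lemma Ctx.isPad (h : Ctx p s G k' O) : IsPad O.valuation p where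
  prime := Fact.out
  lt := by
    have h1 := (h.val_lt_iff (p : k') 1).2 (by
      rw [norm_nat, ← Nat.cast_one (R := k'), norm_nat, Nat.cast_one, norm_one]
      exact Padic.norm_p_lt_one)
    rwa [map_natCast, map_one, map_one] at h1
  ne := by
    rw [_root_.map_ne_zero]
    exact_mod_cast (Fact.out : p.Prime).ne_zero
  unit := by
    intro m hm
    have h0 : ‖(m : ℚ_[p])‖ = 1 := by
      rw [Padic.norm_natCast_eq_one_iff]
      exact ((Nat.Prime.coprime_iff_not_dvd Fact.out).2 hm)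
    apply le_antisymm
    · have h1 := (h.val_le_iff (m : k') 1).2 (by
        rw [norm_nat, ← Nat.cast_one (R := k'), norm_nat, Nat.cast_one, norm_one, h0])
      rwa [map_natCast, map_one, map_one] at h1
    · have h1 := (h.val_le_iff 1 (m : k')).2 (by
        rw [norm_nat, ← Nat.cast_one (R := k'), norm_nat, Nat.cast_one, norm_one, h0])
      rwa [map_natCast, map_one, map_one] at h1

omit [Fact p.Prime] [Algebra ℚ_[p] k'] [FiniteDimensional ℚ_[p] k'] in
/-- roots of constants -/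
lemma exists_const_root (B : Base s G k') (c : k') {m : ℕ} (hm : 0 < m) :
    ∃ r : maxUnr k K, r ^ m = algebraMap k' (maxUnr k K) c := by
  obtain ⟨r, hr⟩ := IsAlgClosed.exists_pow_nat_eq
    ((algebraMap k' (maxUnr k K) c : maxUnr k K) : AlgebraicClosure K) hm
  have hint : IsIntegral k r := by
    apply isIntegral_of_pow' hm
    rw [hr]
    exact isIntegral_coe.2 (B.alg _)
  exact ⟨⟨r, mem_maxUnr_of_const _ hint⟩, Subtype.ext hr⟩

/-- polynomials whose roots lie in `M` split -/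
lemma splits_of_mem [CharZero K] (n : ℕ) (τ : maxUnr k K)
    (h : ∀ y : AlgebraicClosure K, (zP n (τ : AlgebraicClosure K)).eval y = 0 →
      y ∈ maxUnr k K) : (zP n τ).Splits := by
  have hmap : (zP n τ).map (algebraMap (maxUnr k K) (AlgebraicClosure K)) =
      zP n (τ : AlgebraicClosure K) := zP_map n τ _
  refine Splits.of_splits_map (algebraMap (maxUnr k K) (AlgebraicClosure K))
    (IsAlgClosed.splits _) ?_
  intro a ha
  have h1 : IsRoot ((zP n τ).map (algebraMap (maxUnr k K) (AlgebraicClosure K))) a :=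
    (mem_roots').1 ha |>.2
  rw [hmap] at h1
  exact ⟨⟨a, h a h1⟩, rfl⟩

/-- constants: the polynomials split -/
lemma Ctx.splits_const (h : Ctx p s G k' O) {n : ℕ} (hn : 1 ≤ n) (τ : k') :
    (zP n (algebraMap k' (maxUnr k K) τ)).Splits := by
  have : CharZero K := charZero_of_injective_algebraMap (algebraMap k K).injective
  apply splits_of_mem
  intro y hy
  apply mem_maxUnr_of_const
  -- `y` is integral over the constants
  have hk : IsIntegral (constClosure k K) y := by
    have hτ : IsIntegral k ((algebraMap k' (maxUnr k K) τ : maxUnr k K) : AlgebraicClosure K) :=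
      isIntegral_coe.2 (h.base.alg τ)
    set τC : constClosure k K := ⟨_, mem_algebraicClosure_iff.2 hτ.isAlgebraic⟩ with hτC
    have : CharZero (constClosure k K) :=
      charZero_of_injective_algebraMap (algebraMap k (constClosure k K)).injective
    refine ⟨zP n τC, zP_monic n hn _, ?_⟩
    rw [← eval_map, zP_map]
    exact hy
  have : Algebra.IsIntegral k (constClosure k K) :=
    ⟨fun x => (isIntegral_algHom_iff (constClosure k K).val Subtype.val_injective).1
      (mem_algebraicClosure_iff.1 x.2).isIntegral⟩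
  exact isIntegral_trans (A := constClosure k K) y hk

/-- comparison with constants is preserved by the section -/
lemma Ctx.stable_le (h : Ctx p s G k' O) {σ : Gal(constClosure k K/k)} (hσ : σ ∈ G)
    {x c : maxUnr k K} (hc : s σ c = c) (hx : O.valuation x ≤ O.valuation c) :
    O.valuation (s σ x) ≤ O.valuation c := by
  by_cases hc0 : c = 0
  · rw [hc0, map_zero, le_zero_iff, map_eq_zero] at hx
    rw [hx, map_zero, map_zero]
    exact zero_le
  have hpos : 0 < O.valuation c := zero_lt_iff.2 ((_root_.map_ne_zero _).2 hc0)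
  have h1 : x / c ∈ O := by
    rw [← O.valuation_le_one_iff, map_div₀]
    exact (div_le_one₀ hpos).2 hx
  have h2 := h.stable σ hσ _ h1
  rw [map_div₀, hc, ← O.valuation_le_one_iff, map_div₀] at h2
  exact (div_le_one₀ hpos).1 h2

lemma Ctx.stable_ge (h : Ctx p s G k' O) {σ : Gal(constClosure k K/k)} (hσ : σ ∈ G)
    {x c : maxUnr k K} (hc : s σ c = c) (hx : O.valuation c ≤ O.valuation x) :
    O.valuation c ≤ O.valuation (s σ x) := by
  by_cases hx0 : x = 0
  · rw [hx0, map_zero, le_zero_iff, map_eq_zero] at hx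
    rw [hx, map_zero]
    exact zero_le
  have hpos : 0 < O.valuation x := zero_lt_iff.2 ((_root_.map_ne_zero _).2 hx0)
  have hsx : s σ x ≠ 0 := (_root_.map_ne_zero (s σ)).2 hx0
  have hpos' : 0 < O.valuation (s σ x) := zero_lt_iff.2 ((_root_.map_ne_zero _).2 hsx)
  have h1 : c / x ∈ O := by
    rw [← O.valuation_le_one_iff, map_div₀]
    exact (div_le_one₀ hpos).2 hx
  have h2 := h.stable σ hσ _ h1
  rw [map_div₀, hc, ← O.valuation_le_one_iff, map_div₀] at h2
  exact (div_le_one₀ hpos').1 h2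

lemma Ctx.stable_lt (h : Ctx p s G k' O) {σ : Gal(constClosure k K/k)} (hσ : σ ∈ G)
    {x c : maxUnr k K} (hc : s σ c = c) (hx : O.valuation x < O.valuation c) :
    O.valuation (s σ x) < O.valuation c := by
  by_contra hcon
  push Not at hcon
  have h1 := h.stable_ge (G.inv_mem hσ) (c := c) (x := s σ x) (by
    have : s σ⁻¹ c = c := by
      conv_lhs => rw [← hc]
      rw [map_inv]
      exact (s σ).symm_apply_apply c
    exact this) hcon
  have h2 : s σ⁻¹ (s σ x) = x := by
    rw [map_inv]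
    exact (s σ).symm_apply_apply x
  rw [h2] at h1
  exact absurd hx (not_lt.2 h1)

omit [Fact p.Prime] [Algebra ℚ_[p] k'] [FiniteDimensional ℚ_[p] k'] [Algebra k' (maxUnr k K)]
  [Field k'] in
/-- the action on roots -/
lemma root_act {n : ℕ} {τ y : maxUnr k K} {σ : Gal(constClosure k K/k)} (hτ : s σ τ = τ)
    (hy : (zP n τ).eval y = 0) : (zP n τ).eval (s σ y) = 0 := by
  have h1 : (zP n τ).map ((s σ : maxUnr k K ≃ₐ[K] maxUnr k K) : maxUnr k K →+* maxUnr k K) =
      zP n τ := by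
    rw [zP_map]
    congr 1
  have h2 := congrArg ((s σ : maxUnr k K ≃ₐ[K] maxUnr k K) : maxUnr k K →+* maxUnr k K) hy
  rw [← Polynomial.eval_map_apply, h1, map_zero] at h2
  exact h2

/-- the big root is fixed -/
lemma Ctx.exists_big (h : Ctx p s G k' O) {n : ℕ} (hn : 1 ≤ n) {τ : maxUnr k K}
    (hfix : ∀ σ ∈ G, s σ τ = τ) (hτ : 1 ≤ O.valuation ((p : maxUnr k K) * τ))
    (hs : (zP n τ).Splits) : ∃ y : maxUnr k K, (∀ σ ∈ G, s σ y = y) ∧ (zP n τ).eval y = 0 ∧
      O.valuation (y - τ) * O.valuation τ ≤ 1 ∧ O.valuation y = O.valuation τ := by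
  have hv := h.isPad
  obtain ⟨y, hy, hy1, hy2⟩ := hv.exists_big hn hτ hs
  refine ⟨y, fun σ hσ => ?_, hy, hy1, hy2⟩
  have hy' := root_act (hfix σ hσ) hy
  have hpy : 1 ≤ O.valuation ((p : maxUnr k K) * y) := by
    rw [map_mul, hy2, ← map_mul]; exact hτ
  have hpy' : 1 ≤ O.valuation ((p : maxUnr k K) * s σ y) := by
    have h1 := h.stable_ge hσ (c := 1) (x := (p : maxUnr k K) * y) (map_one _)
      (by rw [map_one]; exact hpy)
    rw [map_one, map_mul, map_natCast] at h1
    exact h1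
  have h1 := hv.iso hn hpy hpy'
  rw [((zP_eval_eq_zero_iff hn τ y).1 hy).2, ((zP_eval_eq_zero_iff hn τ _).1 hy').2, sub_self,
    map_zero, eq_comm, map_eq_zero, sub_eq_zero] at h1
  exact h1.symm

/-- roots over constants are constants -/
lemma Ctx.isIntegral_root (h : Ctx p s G k' O) {n : ℕ} (hn : 1 ≤ n) {τ : k'} {y : maxUnr k K}
    (hy : (zP n (algebraMap k' (maxUnr k K) τ)).eval y = 0) : IsIntegral k y := by
  have hτ : IsIntegral k ((algebraMap k' (maxUnr k K) τ : maxUnr k K) :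
      AlgebraicClosure K) := isIntegral_coe.2 (h.base.alg τ)
  set τC : constClosure k K := ⟨_, mem_algebraicClosure_iff.2 hτ.isAlgebraic⟩ with hτC
  have : CharZero (constClosure k K) :=
    charZero_of_injective_algebraMap (algebraMap k (constClosure k K)).injective
  have : CharZero K := charZero_of_injective_algebraMap (algebraMap k K).injective
  have hk : IsIntegral (constClosure k K) (y : AlgebraicClosure K) := by
    refine ⟨zP n τC, zP_monic n hn _, ?_⟩
    rw [← eval_map, zP_map]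
    have h2 := congrArg (algebraMap (maxUnr k K) (AlgebraicClosure K)) hy
    rw [← Polynomial.eval_map_apply, zP_map, map_zero] at h2
    exact h2
  have : Algebra.IsIntegral k (constClosure k K) :=
    ⟨fun x => (isIntegral_algHom_iff (constClosure k K).val Subtype.val_injective).1
      (mem_algebraicClosure_iff.1 x.2).isIntegral⟩
  exact isIntegral_coe.1 (isIntegral_trans (A := constClosure k K) _ hk)

/-- big roots of constants -/
lemma Ctx.exists_big_const (h : Ctx p s G k' O) {n : ℕ} (hn : 1 ≤ n) {τ : k'}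
    (hτ : 1 ≤ O.valuation ((p : maxUnr k K) * algebraMap k' (maxUnr k K) τ)) :
    ∃ y : k', (zP n (algebraMap k' (maxUnr k K) τ)).eval (algebraMap k' (maxUnr k K) y) = 0 ∧
      O.valuation (algebraMap k' (maxUnr k K) (y - τ)) *
        O.valuation (algebraMap k' (maxUnr k K) τ) ≤ 1 ∧
      O.valuation (algebraMap k' (maxUnr k K) y) = O.valuation (algebraMap k' (maxUnr k K) τ) := by
  obtain ⟨y, hfix, hy, hy1, hy2⟩ := h.exists_big hn (fun σ hσ => h.base.fix τ σ hσ) hτ
    (h.splits_const hn τ)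
  obtain ⟨c, rfl⟩ := h.base.ex y (h.isIntegral_root hn hy) hfix
  exact ⟨c, hy, by rw [map_sub]; exact hy1, hy2⟩

/-- the root near the pole of constants -/
lemma Ctx.exists_small_const (h : Ctx p s G k' O) {n : ℕ} (hn : 1 ≤ n) (hpn : ¬ p ∣ 2 * n - 1)
    {τ : k'} (hτ : O.valuation (algebraMap k' (maxUnr k K) τ - zPsi n ((p : maxUnr k K) ^ n)) <
      O.valuation (zPsi n ((p : maxUnr k K) ^ n))) :
    ∃ y : k', (zP n (algebraMap k' (maxUnr k K) τ)).eval (algebraMap k' (maxUnr k K) y) = 0 ∧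
      O.valuation (algebraMap k' (maxUnr k K) y - (p : maxUnr k K) ^ n) <
        O.valuation ((p : maxUnr k K) ^ n) := by
  have hv := h.isPad
  obtain ⟨y, hy, hy1⟩ := hv.exists_small hn hpn hτ (h.splits_const hn τ)
  have hfix : ∀ σ ∈ G, s σ y = y := by
    intro σ hσ
    have hy' := root_act (h.base.fix τ σ hσ) hy
    have hy1' : O.valuation (s σ y - (p : maxUnr k K) ^ n) < O.valuation ((p : maxUnr k K) ^ n) := by
      have h1 := h.stable_lt hσ (c := (p : maxUnr k K) ^ n) (by rw [map_pow, map_natCast]) hy1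
      rw [map_sub, map_pow, map_natCast] at h1
      exact h1
    refine hv.small_unique hn hpn hy1' hy1 ?_
    rw [((zP_eval_eq_zero_iff hn _ _).1 hy').2, ((zP_eval_eq_zero_iff hn _ _).1 hy).2]
  obtain ⟨c, rfl⟩ := h.base.ex y (h.isIntegral_root hn hy) hfix
  exact ⟨c, hy, hy1⟩

/-- **The zoom step.** -/
theorem Ctx.zoom [CharZero k'] (h : Ctx p s G k' O) {n m : ℕ} (hn : 1 ≤ n)
    (hpn : ¬ p ∣ 2 * n - 1)
    (hm : 0 < m) (hm1 : (n + 1) ∣ m) (hm2 : (2 * n - 1) ∣ m) (t : maxUnr k K)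
    (ht : IsState s G k' O t) (b₁ b₂ b₃ κ : k') (h₁ : b₁ ∈ Cusp k' m t) (h₂ : b₂ ∈ Cusp k' m t)
    (h₃ : b₃ ∈ Cusp k' m t) (hb : b₁ ≠ b₂) (hκ : κ = (b₁ - b₂) / (2 * (zβ n : ℚ)))
    (ha : (p : ℝ) * spectralNorm ℚ_[p] k' κ ≤ spectralNorm ℚ_[p] k' ((b₁ + b₂) / 2))
    (hb₃ : spectralNorm ℚ_[p] k' (b₃ - ((b₁ + b₂) / 2 + κ * zPsi n ((p : k') ^ n))) <
      spectralNorm ℚ_[p] k' (κ * zPsi n ((p : k') ^ n))) :
    ∃ t' : maxUnr k K, IsState s G k' O t' ∧ O.valuation t' = O.valuation t ∧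
      (∀ b ∈ Cusp k' m t, (p : ℝ) * spectralNorm ℚ_[p] k' κ ≤
        spectralNorm ℚ_[p] k' (b - (b₁ + b₂) / 2) → ∃ b' ∈ Cusp k' m t',
          spectralNorm ℚ_[p] k' (b' - b) ≤ spectralNorm ℚ_[p] k' κ) ∧
      ∃ b' ∈ Cusp k' m t', spectralNorm ℚ_[p] k' (b' - (b₁ + b₂) / 2) ≤
        spectralNorm ℚ_[p] k' κ := by
  have hcharK : CharZero K := charZero_of_injective_algebraMap (algebraMap k K).injective
  have hv := h.isPad
  have hpp : p.Prime := Fact.out
  set ι := algebraMap k' (maxUnr k K) with hι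
  set v := O.valuation with hvO
  obtain ⟨a, ha'⟩ : ∃ a : k', a = (b₁ + b₂) / 2 := ⟨_, rfl⟩
  rw [← ha'] at ha hb₃ ⊢
  have hβ : ((zβ n : ℚ) : k') ≠ 0 := by exact_mod_cast zβ_ne_zero n
  have h2 : (2 : k') ≠ 0 := two_ne_zero
  have hκ0 : κ ≠ 0 := by
    rw [hκ]
    exact div_ne_zero (sub_ne_zero.2 hb) (mul_ne_zero h2 hβ)
  have hκM : ι κ ≠ 0 := (_root_.map_ne_zero ι).2 hκ0
  have hκpos : 0 < v (ι κ) := zero_lt_iff.2 ((_root_.map_ne_zero _).2 hκM)
  have hb1 : b₁ = a + κ * (zβ n : ℚ) := by rw [hκ, ha']; field_simp; ring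
  have hb2 : b₂ = a - κ * (zβ n : ℚ) := by rw [hκ, ha']; field_simp; ring
  -- translation of norm inequalities
  have hnp : ∀ c : k', (p : ℝ) * spectralNorm ℚ_[p] k' κ ≤ spectralNorm ℚ_[p] k' c ↔
      v (ι κ) ≤ v ((p : maxUnr k K) * ι c) := by
    intro c
    have h3 : spectralNorm ℚ_[p] k' ((p : k') * c) = (p : ℝ)⁻¹ * spectralNorm ℚ_[p] k' c := by
      rw [norm_mul_pad, norm_nat, Padic.norm_p]
    have h4 := h.val_le_iff κ ((p : k') * c)
    rw [h3, map_mul, map_natCast] at h4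
    rw [← hι, ← hvO] at h4
    rw [h4, ← div_eq_inv_mul, le_div_iff₀ (by exact_mod_cast hpp.pos), mul_comm]
  have hpτ : ∀ c : k', (p : ℝ) * spectralNorm ℚ_[p] k' κ ≤ spectralNorm ℚ_[p] k' c →
      1 ≤ v ((p : maxUnr k K) * ι (c / κ)) := by
    intro c hc
    rw [hnp, map_mul] at hc
    rw [map_mul, map_div₀, map_div₀, mul_div_assoc', le_div_iff₀ hκpos, one_mul]
    exact hc
  -- the element `τ`
  obtain ⟨τ, hτ⟩ : ∃ τ : maxUnr k K, τ = (t - ι a) / ι κ := ⟨_, rfl⟩
  have hτfix : ∀ σ ∈ G, s σ τ = τ := by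
    intro σ hσ
    rw [hτ, map_div₀, map_sub, ht.fix σ hσ, h.base.fix a σ hσ, h.base.fix κ σ hσ]
  have hcr : ∀ c : k', ∃ r : maxUnr k K, r ^ m = ι c := fun c => exists_const_root h.base c hm
  obtain ⟨rκ, hrκ⟩ := hcr κ
  have hrκ0 : rκ ≠ 0 := by
    rintro rfl
    rw [zero_pow hm.ne'] at hrκ
    exact hκM hrκ.symm
  have hpow : ∀ b ∈ Cusp k' m t, ∃ g : maxUnr k K, g ^ m = τ - ι ((b - a) / κ) := by
    rintro b ⟨g, hg⟩
    refine ⟨g / rκ, ?_⟩
    rw [div_pow, hg, hrκ, hτ, map_div₀, map_sub]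
    field_simp
    ring
  have hιβ : ι ((zβ n : ℚ) : k') = ((zβ n : ℚ) : maxUnr k K) := map_ratCast ι _
  obtain ⟨g₁, hg₁⟩ := hpow b₁ h₁
  obtain ⟨g₂, hg₂⟩ := hpow b₂ h₂
  have e1 : (b₁ - a) / κ = (zβ n : ℚ) := by rw [hb1]; field_simp; ring
  have e2 : (b₂ - a) / κ = -(zβ n : ℚ) := by rw [hb2]; field_simp; ring
  rw [e1, hιβ] at hg₁
  rw [e2, map_neg, hιβ, sub_neg_eq_add] at hg₂
  have hsplit : (zP n τ).Splits := by
    apply splits_of_mem
    intro y hy
    exact root_mem hn hm hm1 hm2 τ g₁ g₂ hg₁ hg₂ y hy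
  have hpta : 1 ≤ v ((p : maxUnr k K) * ι (a / κ)) := hpτ a ha
  have hnear_a : v (ι a) ≤ v (t - ι a) := ht.near a
  have hpτ1 : 1 ≤ v ((p : maxUnr k K) * τ) := by
    refine hpta.trans ?_
    rw [map_mul, map_mul, hτ, map_div₀, map_div₀, map_div₀]
    gcongr
  obtain ⟨y, hyfix, hy, hy1, hy2⟩ := h.exists_big hn hτfix hpτ1 hsplit
  -- the new centre
  obtain ⟨yc, hyc, hyc1, hyc2⟩ := h.exists_big_const hn (τ := -a / κ) (by
    rw [neg_div, map_neg, mul_neg, Valuation.map_neg]
    exact hpta)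
  rw [← hι] at hyc hyc1 hyc2
  rw [← hvO] at hyc1 hyc2
  have hbig : ∀ {z : maxUnr k K} {w : maxUnr k K}, v z = v w →
      1 ≤ v ((p : maxUnr k K) * w) → 1 ≤ v ((p : maxUnr k K) * z) := by
    intro z w hzw hw
    rw [map_mul, hzw, ← map_mul]
    exact hw
  have hpy : 1 ≤ v ((p : maxUnr k K) * y) := hbig hy2 hpτ1
  have hpτc : 1 ≤ v ((p : maxUnr k K) * ι (-a / κ)) := by
    rw [neg_div, map_neg, mul_neg, Valuation.map_neg]
    exact hpta
  have hpyc : 1 ≤ v ((p : maxUnr k K) * ι yc) := hbig hyc2 hpτc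
  have hΨy := ((zP_eval_eq_zero_iff hn τ y).1 hy).2
  have hΨyc := ((zP_eval_eq_zero_iff hn _ _).1 hyc).2
  obtain ⟨t', ht'⟩ : ∃ t' : maxUnr k K, t' = ι κ * (y - ι yc) := ⟨_, rfl⟩
  have hval : v t' = v t := by
    have h3 := hv.iso hn hpy hpyc
    rw [hΨy, hΨyc] at h3
    rw [ht', map_mul, ← h3, ← map_mul]
    congr 1
    rw [hτ, neg_div, map_neg, map_div₀]
    field_simp
    ring
  have hone : ∀ {w : maxUnr k K}, 1 ≤ v ((p : maxUnr k K) * w) → v w⁻¹ ≤ v (p : maxUnr k K) := by
    intro w hw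
    have hw0 : w ≠ 0 := by
      rintro rfl
      rw [mul_zero, map_zero] at hw
      exact absurd hw (not_le.2 zero_lt_one)
    have hz0 : 0 < v w := zero_lt_iff.2 ((_root_.map_ne_zero _).2 hw0)
    rw [map_mul] at hw
    rw [map_inv₀, inv_le_iff_one_le_mul₀ hz0]
    exact hw
  have hdrift : ∀ {z w : maxUnr k K}, v (z - w) * v w ≤ 1 → 1 ≤ v ((p : maxUnr k K) * w) →
      v (z - w) ≤ 1 := by
    intro z w h3 h4
    have hw0 : w ≠ 0 := by
      rintro rfl
      rw [mul_zero, map_zero] at h4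
      exact absurd h4 (not_le.2 zero_lt_one)
    have h5 : v (z - w) = v (z - w) * v w * v w⁻¹ := by
      rw [map_inv₀, mul_assoc, mul_inv_cancel₀ ((_root_.map_ne_zero _).2 hw0), mul_one]
    rw [h5]
    calc _ ≤ 1 * v (p : maxUnr k K) := mul_le_mul' h3 (hone h4)
      _ ≤ 1 := by rw [one_mul]; exact hv.lt.le
  have hdc : v (ι yc - ι (-a / κ)) ≤ 1 := by
    apply hdrift _ hpτc
    rw [← map_sub]
    exact hyc1
  -- cusps
  have hcusp : ∀ (b yb : k') (_ : b ∈ Cusp k' m t)
      (_ : (zP n (ι ((b - a) / κ))).eval (ι yb) = 0) (_ : yb ^ 2 ≠ 1),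
      κ * (yb - yc) ∈ Cusp k' m t' := by
    intro b yb hb hyb hyb1
    obtain ⟨g, hg⟩ := hpow b hb
    obtain ⟨g', hg'⟩ := cusp_step hn hm τ g y (ι ((b - a) / κ)) (ι yb) (h.base.alg _)
      (h.base.alg _) (by
        rw [← map_pow]
        intro h3
        exact hyb1 (ι.injective (by rw [h3, map_one]))) hyb hy hg
    refine ⟨rκ * g', ?_⟩
    rw [mul_pow, hrκ, hg', ht', map_mul, map_sub]
    ring
  have hle : ∀ c d : k', v (ι c) ≤ v (ι d) → spectralNorm ℚ_[p] k' c ≤ spectralNorm ℚ_[p] k' d :=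
    fun c d hcd => (h.val_le_iff c d).1 hcd
  refine ⟨t', ⟨?_, ?_⟩, hval, ?_, ?_⟩
  · intro σ hσ
    rw [ht', map_mul, map_sub, hyfix σ hσ, h.base.fix κ σ hσ, h.base.fix yc σ hσ]
  · intro x
    rw [← hι, ← hvO]
    obtain ⟨yx, hyx⟩ : ∃ yx : k', yx = yc + x / κ := ⟨_, rfl⟩
    have h3 : t' - ι x = ι κ * (y - ι yx) := by
      rw [ht', hyx, map_add, map_div₀]
      field_simp
      ring
    have h4 : ι x = ι κ * (ι yx - ι yc) := by
      rw [hyx, map_add, map_div₀]
      field_simp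
      ring
    rw [h3, h4, map_mul, map_mul]
    gcongr
    rcases le_or_gt 1 (v ((p : maxUnr k K) * ι yx)) with h5 | h5
    · rw [← hv.iso hn h5 hpyc, ← hv.iso hn hpy h5, hΨy, hΨyc, ← zPsi_map n yx ι]
      have h6 := ht.near (a + κ * zPsi n yx)
      rw [← hι, ← hvO] at h6
      have h7 : t - ι (a + κ * zPsi n yx) = ι κ * (τ - ι (zPsi n yx)) := by
        rw [hτ, map_add, map_mul]
        field_simp
        ring
      have h8 : ι (a + κ * zPsi n yx) = ι κ * (ι (zPsi n yx) - ι (-a / κ)) := by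
        rw [map_add, map_mul, neg_div, map_neg, map_div₀]
        field_simp
        ring
      rw [h7, h8, map_mul, map_mul] at h6
      exact le_of_mul_le_mul_left h6 hκpos
    · have h6 : v (ι yx) < v (ι yc) := by
        have h7 := lt_of_lt_of_le h5 hpyc
        rw [map_mul, map_mul] at h7
        exact lt_of_mul_lt_mul_left h7 zero_le
      have h7 : v (ι yx) < v y := by
        have h8 := lt_of_lt_of_le h5 hpy
        rw [map_mul, map_mul] at h8
        exact lt_of_mul_lt_mul_left h8 zero_le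
      rw [Valuation.map_sub_eq_of_lt_right _ h6, Valuation.map_sub_eq_of_lt_left _ h7, hyc2, hy2,
        neg_div, map_neg, Valuation.map_neg, hτ, map_div₀, map_div₀, map_div₀]
      gcongr
  · intro b hb hba
    have hpb := hpτ (b - a) hba
    obtain ⟨yb, hyb, hyb1, hyb2⟩ := h.exists_big_const hn hpb
    rw [← hι] at hyb hyb1 hyb2
    rw [← hvO] at hyb1 hyb2
    refine ⟨κ * (yb - yc), hcusp b yb hb hyb ?_, ?_⟩
    · intro h3
      have h4 : v (ι yb) ^ 2 = 1 := by rw [← map_pow, ← map_pow, h3, map_one, map_one]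
      have h5 : 1 < v (ι yb) := by
        have h6 := hbig hyb2 hpb
        rw [map_mul] at h6
        by_contra h7
        push Not at h7
        exact absurd h6 (not_le.2 (mul_lt_one_of_lt_of_le hv.lt h7))
      exact absurd h4 (one_lt_pow₀ h5 two_ne_zero).ne'
    · apply hle
      have h3 : κ * (yb - yc) - b = κ * ((yb - (b - a) / κ) - (yc - -a / κ)) := by
        field_simp
        ring
      rw [h3, map_mul, map_mul]
      refine mul_le_of_le_one_right' ?_
      rw [map_sub]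
      refine (v.map_sub _ _).trans (max_le ?_ ?_)
      · rw [map_sub]
        apply hdrift _ hpb
        rw [← map_sub]
        exact hyb1
      · rw [map_sub]
        exact hdc
  · -- the cusp near the centre
    have hlt : O.valuation (algebraMap k' (maxUnr k K) ((b₃ - a) / κ) -
        zPsi n ((p : maxUnr k K) ^ n)) < O.valuation (zPsi n ((p : maxUnr k K) ^ n)) := by
      have h3 := (h.val_lt_iff _ _).2 hb₃
      rw [← hι, ← hvO] at h3 ⊢
      have h4 : ι (zPsi n ((p : k') ^ n)) = zPsi n ((p : maxUnr k K) ^ n) := by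
        rw [zPsi_map, map_pow, map_natCast]
      have h5 : ι (b₃ - (a + κ * zPsi n ((p : k') ^ n))) =
          ι κ * (ι ((b₃ - a) / κ) - zPsi n ((p : maxUnr k K) ^ n)) := by
        rw [← h4, ← map_sub, ← map_mul]
        congr 1
        field_simp
        ring
      rw [h5, map_mul ι, h4, map_mul, map_mul] at h3
      exact lt_of_mul_lt_mul_left h3 zero_le
    obtain ⟨y3, hy3, hy31⟩ := h.exists_small_const hn hpn hlt
    rw [← hι] at hy3 hy31
    rw [← hvO] at hy31
    have hp1 : v ((p : maxUnr k K) ^ n) < 1 := by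
      rw [map_pow]
      exact pow_lt_one₀ zero_le hv.lt (by omega)
    have hy3v : v (ι y3) < 1 := by
      have h3 : ι y3 = (ι y3 - (p : maxUnr k K) ^ n) + (p : maxUnr k K) ^ n := by ring
      rw [h3]
      exact lt_of_le_of_lt (v.map_add _ _) (max_lt (hy31.trans hp1) hp1)
    refine ⟨κ * (y3 - yc), hcusp b₃ y3 h₃ hy3 ?_, ?_⟩
    · intro h3
      have h4 : v (ι y3) ^ 2 = 1 := by rw [← map_pow, ← map_pow, h3, map_one, map_one]
      exact absurd h4 (pow_lt_one₀ zero_le hy3v two_ne_zero).ne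
    · apply hle
      have h3 : κ * (y3 - yc) - a = κ * (y3 - (yc - -a / κ)) := by
        field_simp
        ring
      rw [h3, map_mul, map_mul]
      refine mul_le_of_le_one_right' ?_
      rw [map_sub]
      refine (v.map_sub _ _).trans (max_le hy3v.le ?_)
      rw [map_sub]
      exact hdc

end ctx

end P025H440
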