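import Vale.Agent.P025.R2.H440.Zoom

/-! # The zoom map: valuation estimates -/

open Polynomial

namespace P025H440

section general

variable {F : Type*} [Field F] {Γ : Type*} [LinearOrderedCommGroupWithZero Γ]
  (v : Valuation F Γ)

/-- values of differences of powers -/
lemma val_pow_sub_pow_le {x x' : F} {P : Γ} (hx : v x ≤ P) (hx' : v x' ≤ P) (i : ℕ) :
    v (x ^ (i + 1) - x' ^ (i + 1)) ≤ v (x - x') * P ^ i := by
  induction i with
  | zero => simp
  | succ i ih =>
    have h1 : x ^ (i + 1 + 1) - x' ^ (i + 1 + 1) =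
        x * (x ^ (i + 1) - x' ^ (i + 1)) + x' ^ (i + 1) * (x - x') := by ring
    rw [h1]
    refine (v.map_add _ _).trans (max_le ?_ ?_)
    · rw [map_mul]
      calc v x * v (x ^ (i + 1) - x' ^ (i + 1)) ≤ P * (v (x - x') * P ^ i) :=
            mul_le_mul' hx ih
        _ = v (x - x') * P ^ (i + 1) := by rw [pow_succ', mul_left_comm]
    · rw [map_mul, map_pow, mul_comm]
      exact mul_le_mul' le_rfl (pow_le_pow_left₀ zero_le hx' _)

/-- a root near an approximate root -/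
lemma exists_root_near {Q : F[X]} (hQ : Q.Splits) (x : F) (h0 : Q.derivative.eval x ≠ 0) :
    ∃ y, Q.eval y = 0 ∧ v (x - y) * v (Q.derivative.eval x) ≤ v (Q.eval x) := by
  by_cases hx : Q.eval x = 0
  · exact ⟨x, hx, by rw [sub_self, map_zero, zero_mul]; exact zero_le⟩
  have h1 := hQ.eval_derivative_div_eval_of_ne_zero hx
  by_contra hcon
  push Not at hcon
  have hQ0 : Q ≠ 0 := by
    rintro rfl
    simp at hx
  have h2 : v ((Q.roots.map fun z => 1 / (x - z)).sum) <
      v (Q.derivative.eval x) / v (Q.eval x) := by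
    have hpos : 0 < v (Q.derivative.eval x) / v (Q.eval x) := by
      apply div_pos <;> exact zero_lt_iff.2 ((_root_.map_ne_zero _).2 (by assumption))
    have h3 : ∀ z ∈ Q.roots, v (1 / (x - z)) < v (Q.derivative.eval x) / v (Q.eval x) := by
      intro z hz
      have hz0 : Q.eval z = 0 := (mem_roots hQ0).1 hz
      have h4 := hcon z hz0
      have hxz : x - z ≠ 0 := by
        intro h5
        rw [h5, map_zero, zero_mul] at h4
        exact absurd h4 (not_lt.2 zero_le)
      rw [map_div₀, map_one, div_lt_div_iff₀ (zero_lt_iff.2 ((_root_.map_ne_zero _).2 hxz))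
        (zero_lt_iff.2 ((_root_.map_ne_zero _).2 hx)), one_mul, mul_comm]
      exact h4
    revert h3
    generalize Q.roots = S
    intro h3
    induction S using Multiset.induction_on with
    | empty => simpa using hpos
    | cons a S ih =>
      rw [Multiset.map_cons, Multiset.sum_cons]
      refine lt_of_le_of_lt (v.map_add _ _) (max_lt (h3 a (Multiset.mem_cons_self a S)) ?_)
      exact ih (fun z hz => h3 z (Multiset.mem_cons_of_mem hz))
  rw [← h1, map_div₀] at h2
  exact lt_irrefl _ h2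

end general

section val

variable {F : Type*} [Field F] {Γ : Type*} [LinearOrderedCommGroupWithZero Γ]
  {v : Valuation F Γ} {p : ℕ}

/-- `v` restricts to the `p`-adic valuation -/
structure IsPad (v : Valuation F Γ) (p : ℕ) : Prop where
  prime : p.Prime
  lt : v (p : F) < 1
  ne : v (p : F) ≠ 0
  unit : ∀ m : ℕ, ¬ p ∣ m → v (m : F) = 1

lemma IsPad.nat_le (hv : IsPad v p) (m : ℕ) : v (m : F) ≤ 1 := by
  rcases Nat.eq_zero_or_pos m with rfl | hm
  · simp
  obtain ⟨e, u, hu, rfl⟩ := Nat.exists_eq_pow_mul_and_not_dvd hm.ne' p hv.prime.ne_one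
  rw [Nat.cast_mul, map_mul, hv.unit u hu, mul_one, Nat.cast_pow, map_pow]
  exact pow_le_one₀ zero_le hv.lt.le

lemma IsPad.pow_le (hv : IsPad v p) (m : ℕ) : v (p : F) ^ m ≤ v ((m + 1 : ℕ) : F) := by
  obtain ⟨e, u, hu, hm⟩ := Nat.exists_eq_pow_mul_and_not_dvd (Nat.succ_ne_zero m) p
    hv.prime.ne_one
  have h1 : e ≤ m := by
    have h2 : e < p ^ e := Nat.lt_pow_self hv.prime.one_lt
    have h3 : 0 < u := by
      rcases Nat.eq_zero_or_pos u with rfl | h
      · exact absurd (dvd_zero p) hu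
      · exact h
    have h4 : p ^ e ≤ p ^ e * u := Nat.le_mul_of_pos_right _ h3
    omega
  have h5 : ((m + 1 : ℕ) : F) = ((p ^ e * u : ℕ) : F) := by exact_mod_cast congrArg _ hm
  rw [h5, Nat.cast_mul, map_mul, hv.unit u hu, mul_one, Nat.cast_pow, map_pow]
  exact pow_le_pow_of_le_one zero_le hv.lt.le h1

variable [CharZero F]

/-- values of the coefficients of the zoom polynomial -/
lemma IsPad.zc_le (hv : IsPad v p) (n j : ℕ) :
    v (zc n (j + 1) : F) * v (p : F) ^ (2 * j) ≤ 1 := by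
  have h1 : (zc n (j + 1) : F) * ((2 * j + 1 : ℕ) : F) =
      (-1) ^ (j + 1) * ((n.choose (j + 1) : ℕ) : F) := by
    have h2 := congrArg (fun x : ℚ => (x : F)) (zc_mul n (j + 1))
    push_cast at h2 ⊢
    rw [← h2]
    ring
  have h3 := congrArg v h1
  rw [map_mul, map_mul, map_pow, Valuation.map_neg, map_one, one_pow, one_mul] at h3
  calc _ ≤ v (zc n (j + 1) : F) * v ((2 * j + 1 : ℕ) : F) :=
        mul_le_mul' le_rfl (hv.pow_le (2 * j))
    _ = v ((n.choose (j + 1) : ℕ) : F) := h3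
    _ ≤ 1 := hv.nat_le _

lemma zP_eval_eq_zero_iff {n : ℕ} (hn : 1 ≤ n) (τ y : F) :
    (zP n τ).eval y = 0 ↔ y ≠ 0 ∧ zPsi n y = τ := by
  constructor
  · intro h
    have hy := ne_zero_of_root hn h
    refine ⟨hy, ?_⟩
    rw [zP_eval, sub_eq_zero] at h
    rw [zPsi, h, mul_div_cancel_right₀ _ (pow_ne_zero _ hy)]
  · rintro ⟨hy, h⟩
    rw [zP_eval, sub_eq_zero, ← h, zPsi, div_mul_cancel₀ _ (pow_ne_zero _ hy)]

lemma zPsi_eq {n : ℕ} (hn : 1 ≤ n) {y : F} (hy : y ≠ 0) :
    zPsi n y = y - ∑ j ∈ Finset.range n, (zc n (j + 1) : F) * y⁻¹ ^ (2 * j + 1) := by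
  rw [zPsi, zA_map_eval, sub_div, Finset.sum_div]
  congr 1
  · rw [div_eq_iff (pow_ne_zero _ hy), ← pow_succ']
    congr 1
    omega
  · refine Finset.sum_congr rfl (fun j hj => ?_)
    have hj' : j < n := Finset.mem_range.1 hj
    rw [mul_div_assoc]
    congr 1
    rw [div_eq_iff (pow_ne_zero _ hy), inv_pow]
    rw [eq_comm, inv_mul_eq_iff_eq_mul₀ (pow_ne_zero _ hy), ← pow_add]
    congr 1
    omega

/-- the zoom map is isometric outside the fold -/
lemma IsPad.iso (hv : IsPad v p) {n : ℕ} (hn : 1 ≤ n) {y y' : F} (hy : 1 ≤ v ((p : F) * y))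
    (hy' : 1 ≤ v ((p : F) * y')) : v (zPsi n y - zPsi n y') = v (y - y') := by
  have hne : ∀ {z : F}, 1 ≤ v ((p : F) * z) → z ≠ 0 := by
    rintro z hz rfl
    rw [mul_zero, map_zero] at hz
    exact absurd hz (not_le.2 zero_lt_one)
  have hy0 := hne hy
  have hy0' := hne hy'
  have hinv : ∀ {z : F}, 1 ≤ v ((p : F) * z) → v z⁻¹ ≤ v (p : F) := by
    intro z hz
    have hz0 : 0 < v z := zero_lt_iff.2 ((_root_.map_ne_zero _).2 (hne hz))
    rw [map_mul] at hz
    rw [map_inv₀, inv_le_iff_one_le_mul₀ hz0]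
    exact hz
  by_cases hyy : y = y'
  · rw [hyy, sub_self, sub_self]
  have hpos : 0 < v (y - y') := zero_lt_iff.2 ((_root_.map_ne_zero _).2 (sub_ne_zero.2 hyy))
  have h1 : zPsi n y - zPsi n y' = (y - y') -
      ∑ j ∈ Finset.range n, (zc n (j + 1) : F) * (y⁻¹ ^ (2 * j + 1) - y'⁻¹ ^ (2 * j + 1)) := by
    rw [zPsi_eq hn hy0, zPsi_eq hn hy0']
    simp only [mul_sub, Finset.sum_sub_distrib]
    ring
  have h2 : v (∑ j ∈ Finset.range n, (zc n (j + 1) : F) *
      (y⁻¹ ^ (2 * j + 1) - y'⁻¹ ^ (2 * j + 1))) < v (y - y') := by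
    apply v.map_sum_lt' hpos
    intro j _
    have h3 : v (y⁻¹ - y'⁻¹) ≤ v (y - y') * v (p : F) ^ 2 := by
      have h4 : y⁻¹ - y'⁻¹ = -((y - y') * (y⁻¹ * y'⁻¹)) := by
        field_simp
        ring
      rw [h4, Valuation.map_neg, map_mul, map_mul, pow_two]
      exact mul_le_mul' le_rfl (mul_le_mul' (hinv hy) (hinv hy'))
    rw [map_mul]
    calc v (zc n (j + 1) : F) * v (y⁻¹ ^ (2 * j + 1) - y'⁻¹ ^ (2 * j + 1)) ≤
          v (zc n (j + 1) : F) * (v (y⁻¹ - y'⁻¹) * v (p : F) ^ (2 * j)) :=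
          mul_le_mul' le_rfl (val_pow_sub_pow_le v (hinv hy) (hinv hy') _)
      _ ≤ v (zc n (j + 1) : F) * (v (y - y') * v (p : F) ^ 2 * v (p : F) ^ (2 * j)) := by
          gcongr
      _ = (v (zc n (j + 1) : F) * v (p : F) ^ (2 * j)) * (v (y - y') * v (p : F) ^ 2) := by
          rw [mul_comm (v (y - y') * v (p : F) ^ 2), mul_assoc]
      _ ≤ 1 * (v (y - y') * v (p : F) ^ 2) := mul_le_mul' (hv.zc_le n j) le_rfl
      _ = v (y - y') * v (p : F) ^ 2 := one_mul _
      _ < v (y - y') * 1 := by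
          gcongr
          exact pow_lt_one₀ zero_le hv.lt two_ne_zero
      _ = v (y - y') := mul_one _
  rw [h1, Valuation.map_sub_eq_of_lt_left _ h2]

/-- the tail of the zoom polynomial -/
lemma IsPad.tail (hv : IsPad v p) {n : ℕ} (hn : 1 ≤ n) {y : F} (hy : 1 ≤ v ((p : F) * y)) :
    v (((zA n).map (algebraMap ℚ F)).eval y - y ^ (2 * n)) ≤ v y ^ (2 * n - 2) := by
  rw [zA_map_eval, sub_sub_cancel_left, Valuation.map_neg]
  apply v.map_sum_le
  intro j hj
  have hj' : j < n := Finset.mem_range.1 hj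
  rw [map_mul] at hy
  rw [map_mul, map_pow]
  calc v (zc n (j + 1) : F) * v y ^ (2 * n - 2 * (j + 1)) ≤
        v (zc n (j + 1) : F) * ((v (p : F) * v y) ^ (2 * j) * v y ^ (2 * n - 2 * (j + 1))) := by
        gcongr
        exact le_mul_of_one_le_left' (one_le_pow₀ hy)
    _ = (v (zc n (j + 1) : F) * v (p : F) ^ (2 * j)) *
          (v y ^ (2 * j) * v y ^ (2 * n - 2 * (j + 1))) := by
        rw [mul_pow]; simp only [mul_assoc]
    _ ≤ 1 * (v y ^ (2 * j) * v y ^ (2 * n - 2 * (j + 1))) := mul_le_mul' (hv.zc_le n j) le_rfl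
    _ = v y ^ (2 * n - 2) := by
        rw [one_mul, ← pow_add]
        congr 1
        omega

/-- the root near `τ` -/
lemma IsPad.exists_big (hv : IsPad v p) {n : ℕ} (hn : 1 ≤ n) {τ : F}
    (hτ : 1 ≤ v ((p : F) * τ)) (hs : (zP n τ).Splits) :
    ∃ y, (zP n τ).eval y = 0 ∧ v (y - τ) * v τ ≤ 1 ∧ v y = v τ := by
  have hτ1 : 1 < v τ := by
    rw [map_mul] at hτ
    by_contra h
    push Not at h
    have : v (p : F) * v τ < 1 := mul_lt_one_of_lt_of_le hv.lt h
    exact absurd hτ (not_le.2 this)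
  have hpos : 0 < v τ := zero_lt_one.trans hτ1
  have h1 : v ((zP n τ).eval τ) ≤ v τ ^ (2 * n - 2) := by
    have h2 : (zP n τ).eval τ = ((zA n).map (algebraMap ℚ F)).eval τ - τ ^ (2 * n) := by
      rw [zP_eval, ← pow_succ']
      congr 2
      omega
    rw [h2]
    exact hv.tail hn hτ
  have h3 : v ((τ ^ 2 - 1) ^ n) = v τ ^ (2 * n) := by
    rw [map_pow, Valuation.map_sub_eq_of_lt_left, map_pow, ← pow_mul]
    rw [map_pow, map_one]
    exact one_lt_pow₀ hτ1 two_ne_zero
  have h4 : v (τ * (derivative (zP n τ)).eval τ) = v τ ^ (2 * n) := by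
    rw [zP_deriv_eval n hn, Valuation.map_add_eq_of_lt_left, h3]
    rw [h3]
    have h5 : v (2 * (n : F) - 1) ≤ 1 := by
      have h6 : (2 * (n : F) - 1) = ((2 * n - 1 : ℕ) : F) := by
        rw [Nat.cast_sub (by omega)]; push_cast; ring
      rw [h6]; exact hv.nat_le _
    rw [map_mul]
    calc _ ≤ 1 * v τ ^ (2 * n - 2) := mul_le_mul' h5 h1
      _ = v τ ^ (2 * n - 2) := one_mul _
      _ < v τ ^ (2 * n) := pow_lt_pow_right₀ hτ1 (by omega)
  have h5 : v ((derivative (zP n τ)).eval τ) = v τ ^ (2 * n - 1) := by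
    rw [map_mul] at h4
    apply mul_left_cancel₀ hpos.ne'
    rw [h4, ← pow_succ']
    congr 1
    omega
  obtain ⟨y, hy, hy2⟩ := exists_root_near v hs τ (by
    intro h0
    rw [h0, map_zero] at h5
    exact pow_ne_zero _ hpos.ne' h5.symm)
  have h6 : v (y - τ) * v τ ≤ 1 := by
    rw [h5] at hy2
    have h7 := hy2.trans h1
    have h8 : v (τ - y) * v τ ^ (2 * n - 1) = v (y - τ) * v τ * v τ ^ (2 * n - 2) := by
      rw [Valuation.map_sub_swap, mul_assoc, ← pow_succ']
      congr 2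
      omega
    rw [h8] at h7
    exact le_of_mul_le_mul_right (by rw [one_mul]; exact h7) (pow_pos hpos _)
  refine ⟨y, hy, h6, ?_⟩
  have h9 : v (y - τ) < v τ := by
    by_contra h
    push Not at h
    have : 1 < v (y - τ) * v τ := one_lt_mul_of_lt_of_le' (lt_of_lt_of_le hτ1 h) hτ1.le
    exact absurd h6 (not_le.2 this)
  have h10 : y = (y - τ) + τ := by ring
  rw [h10, Valuation.map_add_eq_of_lt_right _ h9]

end val

end P025H440
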